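import Crest.Agent.R186.Box

/-!
Homological properties of `B = C ⊗ C`.
-/

set_option autoImplicit false
set_option linter.unusedSectionVars false

namespace Crest.Agent.R186

noncomputable section

universe u

open scoped TensorProduct
open Module

variable {K : Type u} [Field K] {C B : Type u} [Ring C] [Algebra K C] [Ring B] [Algebra K B]
  [FiniteDimensional K C] [FiniteDimensional K B]

variable (K C) in
/-- What is needed about the algebra `C`. -/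
structure CD where
  χ : C →ₐ[K] K
  t : C
  a : C
  b : C
  m : C
  ℓ : ℕ → C
  f₁ : Dual K C
  f₂ : Dual K C
  tt : t * t = t
  χt : χ t = 0
  χa : χ a = 0
  ℓt : ∀ j, ℓ j * t = ℓ j
  tℓ : ∀ j, t * ℓ j = ℓ j
  ℓℓ : ∀ j, ℓ (j + 1) * ℓ j = 0
  ℓex : ∀ j p, p * t = p → p * ℓ j = 0 → ∃ c, c * ℓ (j + 1) = p
  ℓa : ℓ 0 * a = 0
  Jex : ∀ p p', p * t = p → p' * t = p' → p * a + p' = 0 → p' = 0 ∧ ∃ c, c * ℓ 0 = p
  Jsurj : ∀ c, χ c = 0 → ∃ p p', p * t = p ∧ p' * t = p' ∧ p * a + p' = c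
  inj : ∀ c, a * c = 0 → t * c = 0 → c = 0
  bt : b * t = b
  mt : m * t = m
  bm : b * m = 0
  αinj : ∀ c, c * b = 0 → c * t = 0 → c = 0
  αex : ∀ p p', p * t = p → p' * t = p' → p * m = 0 → ∃ c, c * b = p ∧ c * t = p'
  γβ : ∀ x, f₁ (x * m) = 0
  βex : ∀ p p', p * t = p → p' * t = p' → (∀ c, f₁ (c * p) + f₂ (c * p') = 0) →
    p' = 0 ∧ ∃ p'', p'' * t = p'' ∧ p'' * m = p
  γsurj : ∀ φ : Dual K C, ∃ p p', p * t = p ∧ p' * t = p' ∧ ∀ c, f₁ (c * p) + f₂ (c * p') = φ c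
  η : C →ₗ[K] C →ₗ[K] C ⊗[K] C
  κ : C →ₗ[K] C
  cocycle : ∀ c c₀ c₁, c • η c₀ c₁ + η c (c₀ * c₁) =
    η (c * c₀) c₁ + (LinearMap.mulRight K c₁).lTensor C (η c c₀)
  mulη : ∀ c₀ c₁, LinearMap.mul' K C (η c₀ c₁) + κ (c₀ * c₁) = κ c₀ * c₁ + c₀ * κ c₁
  θ : Dual K C
  z : C
  s : C
  θℓ : ∀ c, θ (ℓ 0 * c) = 0
  θz : θ z = 1
  χs : χ s = 1
  κa : κ a = 0
  ηℓa : η (ℓ 0) a = z ⊗ₜ s

namespace CD

variable (γ : CD K C)

def ptSub : Submodule C C where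
  carrier := {p | p * γ.t = p}
  add_mem' := fun {a b} (ha : a * γ.t = a) (hb : b * γ.t = b) =>
    show (a + b) * γ.t = a + b by rw [add_mul, ha, hb]
  zero_mem' := zero_mul _
  smul_mem' := fun c p (hp : p * γ.t = p) => show c * p * γ.t = c * p by rw [mul_assoc, hp]

abbrev Pt : Mod K C := Mod.of K C γ.ptSub

abbrev PP : Mod K C := γ.Pt.prod γ.Pt

def toPt (x : C) (hx : x * γ.t = x) : C →ₗ[C] γ.ptSub :=
  (LinearMap.toSpanSingleton C C x).codRestrict _ fun c =>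
    show c * x * γ.t = c * x by rw [mul_assoc, hx]

theorem Pt_pj : PJ C γ.Pt :=
  Thru.refl.retract γ.ptSub.subtype (γ.toPt γ.t γ.tt) fun p => Subtype.ext p.2

theorem PP_pj : PJ C γ.PP := Thru.prod γ.Pt_pj γ.Pt_pj

abbrev L (j : ℕ) : Mod K C := Mod.of K C (LinearMap.range (LinearMap.toSpanSingleton C C (γ.ℓ j)))

theorem L_le (j : ℕ) : LinearMap.range (LinearMap.toSpanSingleton C C (γ.ℓ j)) ≤ γ.ptSub := by
  rintro _ ⟨c, rfl⟩
  exact show c * γ.ℓ j * γ.t = c * γ.ℓ j by rw [mul_assoc, γ.ℓt]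

theorem L_ses (j : ℕ) : ∃ (f : γ.L (j + 1) →ₗ[C] γ.Pt) (g : γ.Pt →ₗ[C] γ.L j), SES f g := by
  refine ⟨Submodule.inclusion (γ.L_le _),
    (LinearMap.toSpanSingleton C C (γ.ℓ j)).rangeRestrict ∘ₗ γ.ptSub.subtype,
    Submodule.inclusion_injective _, ?_, fun p hp => ?_, ?_⟩
  · rintro ⟨_, c, rfl⟩
    exact Subtype.ext (show c * γ.ℓ (j + 1) * γ.ℓ j = 0 by rw [mul_assoc, γ.ℓℓ, mul_zero])
  · obtain ⟨c, hc⟩ := γ.ℓex j p p.2 (congrArg Subtype.val hp)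
    exact ⟨⟨_, c, rfl⟩, Subtype.ext hc⟩
  · rintro ⟨_, c, rfl⟩
    exact ⟨γ.toPt γ.t γ.tt c, Subtype.ext
      (show c * γ.t * γ.ℓ j = c * γ.ℓ j by rw [mul_assoc, γ.tℓ])⟩

def χL : Mod.self K C →ₗ[C] chiMod γ.χ := resTo _ γ.χ.toLinearMap (map_mul γ.χ)

theorem χL_surj : Function.Surjective γ.χL := fun x : K => ⟨algebraMap K C x, γ.χ.commutes x⟩

abbrev J : Mod K C := Mod.sub (LinearMap.ker γ.χL)

theorem χ_pt {p : C} (hp : p * γ.t = p) : γ.χ p = 0 := by rw [← hp, map_mul, γ.χt, mul_zero]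

theorem J_ses : ∃ (f : γ.L 0 →ₗ[C] γ.PP) (g : γ.PP →ₗ[C] γ.J), SES f g := by
  refine ⟨LinearMap.inl _ _ _ ∘ₗ Submodule.inclusion (γ.L_le _),
    ((LinearMap.toSpanSingleton C C γ.a ∘ₗ γ.ptSub.subtype).coprod γ.ptSub.subtype).codRestrict _
      fun p => show γ.χ (p.1 * γ.a + p.2) = 0 by
        rw [map_add, map_mul, γ.χa, γ.χ_pt p.2.2, mul_zero, add_zero],
    LinearMap.inl_injective.comp (Submodule.inclusion_injective _), ?_, fun p hp => ?_, ?_⟩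
  · rintro ⟨_, c, rfl⟩
    exact Subtype.ext (show c * γ.ℓ 0 * γ.a + 0 = 0 by rw [mul_assoc, γ.ℓa, mul_zero, add_zero])
  · obtain ⟨h, c, hc⟩ := γ.Jex p.1 p.2 p.1.2 p.2.2 (congrArg Subtype.val hp)
    exact ⟨⟨_, c, rfl⟩, Prod.ext (Subtype.ext hc) (Subtype.ext h.symm)⟩
  · rintro ⟨c, hc⟩
    obtain ⟨p, p', h, h', e⟩ := γ.Jsurj c hc
    exact ⟨(⟨p, h⟩, ⟨p', h'⟩), Subtype.ext e⟩

def gm : γ.PP →ₗ[C] DM K C :=
  (dmHom γ.f₁ ∘ₗ γ.ptSub.subtype).coprod (dmHom γ.f₂ ∘ₗ γ.ptSub.subtype)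

theorem gm_apply (p : γ.PP) (c : C) :
    dmE.symm (γ.gm p) c = γ.f₁ (c * p.1) + γ.f₂ (c * p.2) := rfl

theorem gm_surj : Function.Surjective γ.gm := fun φ => by
  obtain ⟨p, p', h, h', e⟩ := γ.γsurj (dmE.symm φ)
  exact ⟨(⟨p, h⟩, ⟨p', h'⟩), dmE.symm.injective (LinearMap.ext e)⟩

theorem gm_ker {p : γ.PP} (hp : γ.gm p = 0) :
    p.2 = 0 ∧ ∃ p'', p'' * γ.t = p'' ∧ p'' * γ.m = p.1 := by
  obtain ⟨h, h'⟩ := γ.βex p.1 p.2 p.1.2 p.2.2 fun c => by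
    rw [← gm_apply, hp, map_zero, LinearMap.zero_apply]
  exact ⟨Subtype.ext h, h'⟩

abbrev M : Mod K C := Mod.sub (LinearMap.ker γ.gm)

theorem M_ses : SES (LinearMap.ker γ.gm).subtype γ.gm := SES.of_surj _ γ.gm_surj

theorem C_ses : ∃ (f : Mod.self K C →ₗ[C] γ.PP) (g : γ.PP →ₗ[C] γ.M), SES f g := by
  refine ⟨(γ.toPt γ.b γ.bt).prod (γ.toPt γ.t γ.tt),
    (LinearMap.inl _ _ _ ∘ₗ γ.toPt γ.m γ.mt ∘ₗ γ.ptSub.subtype ∘ₗ
      LinearMap.fst _ _ _).codRestrict _ fun p => dmE.symm.injective (LinearMap.ext fun c => ?_),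
    (injective_iff_map_eq_zero _).2 fun c hc => ?_, fun c => ?_, fun p hp => ?_, ?_⟩
  · rw [gm_apply]
    change γ.f₁ (c * (p.1 * γ.m)) + γ.f₂ (c * 0) = 0
    rw [← mul_assoc, γ.γβ, mul_zero, map_zero, add_zero]
  · exact γ.αinj c (congrArg (fun p => p.1.1) hc) (congrArg (fun p => p.2.1) hc)
  · exact Subtype.ext (Prod.ext (Subtype.ext
      (show c * γ.b * γ.m = 0 by rw [mul_assoc, γ.bm, mul_zero])) rfl)
  · obtain ⟨c, h, h'⟩ := γ.αex p.1 p.2 p.1.2 p.2.2 (congrArg (fun p => p.1.1.1) hp)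
    exact ⟨c, Prod.ext (Subtype.ext h) (Subtype.ext h')⟩
  · rintro ⟨p, hp⟩
    obtain ⟨h, p'', h₁, h₂⟩ := γ.gm_ker hp
    exact ⟨(⟨p'', h₁⟩, 0), Subtype.ext (Prod.ext (Subtype.ext h₂) h.symm)⟩

theorem Pt_thru : Thru (DM K C) (LinearMap.id : γ.Pt →ₗ[C] γ.Pt) := by
  obtain ⟨r, hr⟩ := exists_desc_of_ker γ.gm_surj (LinearMap.snd _ _ _) fun p hp => (γ.gm_ker hp).1
  exact Thru.refl.retract (γ.gm ∘ₗ LinearMap.inr _ _ _) r fun p => LinearMap.congr_fun hr (0, p)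

theorem PP_thru : Thru (DM K C) (LinearMap.id : γ.PP →ₗ[C] γ.PP) := Thru.prod γ.Pt_thru γ.Pt_thru

include γ in
theorem pd_step (e : C ⊗[K] C ≃ₐ[K] B) (V : Mod K C) {n : ℕ}
    (h : PD K B (box e (Mod.self K C) V) n) : PD K B (box e (DM K C) V) (n + 2) := fun W j hj => by
  obtain ⟨j, rfl⟩ : ∃ i, j = i + 2 := ⟨j - 2, by omega⟩
  obtain ⟨f, g, hs⟩ := γ.C_ses
  have hP : ∀ i, n < i → rk K B (box e γ.PP V) W i = 0 := fun i hi =>
    (thru_boxL e (V' := Mod.self K C) γ.PP_pj V).rk_pre (h W i hi)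
  have h1 := (ses_boxL e (V := γ.M) γ.M_ses V).c₃ K W (j + 1)
  have h2 := (ses_boxL e hs V).c₃ K W j
  rw [h W j (by omega), hP _ (by omega), add_zero, nonpos_iff_eq_zero] at h2
  rwa [h2, hP _ (by omega), add_zero, nonpos_iff_eq_zero] at h1

theorem shift2 (e : C ⊗[K] C ≃ₐ[K] B) (V : Mod K C) {U : Type u} [AddCommGroup U] [Module B U]
    (j : ℕ) (h₁ : rk K B U (box e γ.PP V) (j + 1) = 0) (h₂ : rk K B U (box e γ.PP V) (j + 2) = 0) :
    rk K B U (box e (Mod.self K C) V) (j + 2) ≤ rk K B U (box e (DM K C) V) j := by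
  obtain ⟨f, g, hs⟩ := γ.C_ses
  have h1 := (ses_boxL e (V := γ.M) γ.M_ses V).v₁ K U j
  have h2 := (ses_boxL e hs V).v₁ K U (j + 1)
  rw [h₁, add_zero] at h1
  rw [h₂, add_zero] at h2
  exact h2.trans h1

include γ in
theorem id_step (e : C ⊗[K] C ≃ₐ[K] B) (V : Mod K C) {U : Type u} [AddCommGroup U] [Module B U]
    {n : ℕ} (h : ∀ j, n < j → rk K B U (box e (DM K C) V) j = 0) (j : ℕ) (hj : n + 2 < j) :
    rk K B U (box e (Mod.self K C) V) j = 0 := by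
  obtain ⟨j, rfl⟩ : ∃ i, j = i + 2 := ⟨j - 2, by omega⟩
  have hP : ∀ i, n < i → rk K B U (box e γ.PP V) i = 0 := fun i hi =>
    (thru_boxL e γ.PP_thru V).rk_post (h i hi)
  exact nonpos_iff_eq_zero.1 ((γ.shift2 e V j (hP _ (by omega)) (hP _ (by omega))).trans
    (h j (by omega)).le)

theorem rk_DD (e : C ⊗[K] C ≃ₐ[K] B) {U : Type u} [AddCommGroup U] [Module B U] (j : ℕ)
    (hj : 0 < j) : rk K B U (box e (DM K C) (DM K C)) j = 0 := by
  obtain ⟨j, rfl⟩ : ∃ i, j = i + 1 := ⟨j - 1, by omega⟩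
  exact nonpos_iff_eq_zero.1 ((rk_equiv_post (boxDM e)).trans (rk_inj DM_injective j).le)

include γ in
theorem idB (e : C ⊗[K] C ≃ₐ[K] B) (U : Mod K B) (j : ℕ) (hj : 4 < j) : rk K B U B j = 0 :=
  nonpos_iff_eq_zero.1 ((rk_equiv_post (boxSelf e).symm).trans (γ.id_step e _ (n := 2)
    (fun i hi => nonpos_iff_eq_zero.1 ((rk_equiv_post (boxSw e _ _)).trans
      (γ.id_step (sw e) _ (n := 0) (rk_DD (sw e)) i hi).le)) j hj).le)

include γ in
theorem pdD (e : C ⊗[K] C ≃ₐ[K] B) : PD K B (DM K B) 4 := fun W j hj =>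
  nonpos_iff_eq_zero.1 ((rk_equiv_pre (boxDM e).symm).trans (γ.pd_step e _ (n := 2)
    (fun W' i hi => nonpos_iff_eq_zero.1 ((rk_equiv_pre (boxSw e _ _)).trans
      (γ.pd_step (sw e) _ (n := 0) (PJ.pd (box_pj (sw e) Thru.refl Thru.refl) 0) W' i hi).le))
    W j hj).le)

/-- A presentation of `B` as a tensor square compatible with the characters. -/
structure TP (χ' : B →ₐ[K] K) where
  e : C ⊗[K] C ≃ₐ[K] B
  h₁ : ∀ c, χ' (i₁ e c) = γ.χ c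
  h₂ : ∀ c, χ' (i₂ e c) = γ.χ c

variable {γ} {χ' : B →ₐ[K] K} (τ : γ.TP χ')

namespace TP

abbrev swap : γ.TP χ' := ⟨sw τ.e, τ.h₂, τ.h₁⟩

theorem ss_Pt (U : Mod K C) (j : ℕ) : rk K B (box τ.e γ.Pt U) (chiMod χ') j = 0 := by
  induction j generalizing U with
  | zero =>
    refine rk0_of_hom fun f => box_ext fun p u => ?_
    have h1 : p = (p : C) • (⟨γ.t, γ.tt⟩ : γ.Pt) := Subtype.ext p.2.symm
    have h2 : (⟨γ.t, γ.tt⟩ : γ.Pt) = γ.t • (⟨γ.t, γ.tt⟩ : γ.Pt) := Subtype.ext γ.tt.symm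
    rw [h1, h2, ← i₁_smul_bE, ← i₁_smul_bE, map_smul, map_smul, chi_smul χ' (i₁ τ.e γ.t), τ.h₁,
      γ.χt, zero_smul, smul_zero, LinearMap.zero_apply]
  | succ j ih =>
    have := (ses_boxR τ.e (om_ses U) γ.Pt).c₃ K (chiMod χ') j
    rwa [ih, (box_pj τ.e (U := Mod.fr K C U) γ.Pt_pj (pj_fr K C U)).rk, add_zero,
      nonpos_iff_eq_zero] at this

theorem ss_L (U : Mod K C) (j n : ℕ) : rk K B (box τ.e (γ.L n) U) (chiMod χ') j = 0 := by
  induction j generalizing n with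
  | zero =>
    obtain ⟨f, g, hs⟩ := γ.L_ses n
    exact nonpos_iff_eq_zero.1 (((ses_boxL τ.e hs U).c₀ K _).trans (τ.ss_Pt U 0).le)
  | succ j ih =>
    obtain ⟨f, g, hs⟩ := γ.L_ses n
    have := (ses_boxL τ.e hs U).c₃ K (chiMod χ') j
    rwa [ih, τ.ss_Pt, add_zero, nonpos_iff_eq_zero] at this

theorem PP_Pt : Thru γ.Pt (LinearMap.id : γ.PP →ₗ[C] γ.PP) := Thru.prod Thru.refl Thru.refl

theorem ss_J (U : Mod K C) (j : ℕ) : rk K B (box τ.e γ.J U) (chiMod χ') (j + 1) = 0 := by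
  obtain ⟨f, g, hs⟩ := γ.J_ses
  have := (ses_boxL τ.e hs U).c₃ K (chiMod χ') j
  rwa [τ.ss_L, (thru_boxL τ.e PP_Pt U).rk_pre (τ.ss_Pt U _), add_zero, nonpos_iff_eq_zero] at this

theorem ss_J₀ (U : Mod K C) : rk K B (box τ.e γ.J U) (chiMod χ') 0 = 0 := by
  obtain ⟨f, g, hs⟩ := γ.J_ses
  exact nonpos_iff_eq_zero.1 (((ses_boxL τ.e hs U).c₀ K _).trans
    ((thru_boxL τ.e PP_Pt U).rk_pre (τ.ss_Pt U _)).le)

theorem s_le (U : Mod K C) (j : ℕ) : rk K B (box τ.e (chiMod γ.χ) U) (chiMod χ') (j + 1) ≤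
    rk K B (box τ.e (Mod.self K C) U) (chiMod χ') (j + 1) := by
  have := (ses_boxL τ.e (V := γ.J) (SES.of_surj _ γ.χL_surj) U).c₃ K (chiMod χ') j
  rcases j with _ | j
  · rwa [τ.ss_J₀, zero_add (rk _ _ _ _ _)] at this
  · rwa [τ.ss_J, zero_add (rk _ _ _ _ _)] at this

include τ in
theorem self (j : ℕ) : rk K B (chiMod χ') (chiMod χ') (j + 1) = 0 :=
  nonpos_iff_eq_zero.1 ((rk_equiv_pre (boxChi τ.e γ.χ χ' τ.h₁ τ.h₂).symm).trans
    ((τ.s_le _ j).trans ((rk_equiv_pre (boxSw τ.e _ _)).trans ((τ.swap.s_le _ j).trans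
      ((box_pj (sw τ.e) Thru.refl Thru.refl).rk j).le))))

theorem hom_C (U : Mod K C) (f : chiMod χ' →ₗ[B] box τ.e (Mod.self K C) U) : f = 0 := by
  refine LinearMap.ext fun x => ?_
  obtain ⟨z, hz⟩ := (bE τ.e _ U).surjective (f x)
  have h : ∀ c, γ.χ c = 0 → (act K C C c).rTensor U z = 0 := fun c hc => by
    have := i₁_smul_bE' (e := τ.e) (V := Mod.self K C) c z
    rwa [hz, ← map_smul, chi_smul, τ.h₁, hc, zero_smul, map_zero, eq_comm,
      map_eq_zero_iff _ (bE τ.e _ U).injective] at this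
  have hi := Module.Flat.rTensor_preserves_injective_linearMap (M := U)
    ((act K C C γ.a).prod (act K C C γ.t)) ((injective_iff_map_eq_zero _).2 fun c hc =>
      γ.inj c (congrArg Prod.fst hc) (congrArg Prod.snd hc))
  have : (act K C C γ.a).prod (act K C C γ.t) = LinearMap.inl K _ _ ∘ₗ act K C C γ.a +
      LinearMap.inr K _ _ ∘ₗ act K C C γ.t := by ext <;> simp
  have hz0 : z = 0 := hi (by
    rw [this, LinearMap.rTensor_add, LinearMap.rTensor_comp, LinearMap.rTensor_comp]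
    simp [h _ γ.χa, h _ γ.χt])
  rw [← hz, hz0, map_zero, LinearMap.zero_apply]

theorem nn_Pt (U : Mod K C) (j : ℕ) : rk K B (chiMod χ') (box τ.e γ.Pt U) j = 0 := by
  induction j generalizing U with
  | zero =>
    refine rk0_of_hom fun f => cancel_inj (LF.Exact.inj (BoxL_exact τ.e U) (U := γ.Pt)
      (V := Mod.self K C) (f := γ.ptSub.subtype) Subtype.val_injective) ?_
    exact (τ.hom_C U _).trans (τ.hom_C U _).symm
  | succ j ih =>
    obtain ⟨n, ι, hι⟩ := exists_embed_DM U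
    have := (ses_boxR τ.e (U' := Mod.of K C (Fin n → DM K C))
      (U'' := Mod.quot (U := Mod.of K C (Fin n → DM K C)) (LinearMap.range ι))
      (SES.of_inj ι hι) γ.Pt).v₁ K (chiMod χ') j
    rwa [ih, ((thru_boxL τ.e γ.Pt_thru _).trans (thru_boxR τ.e
      (U := Mod.of K C (Fin n → DM K C)) (Thru.pi Thru.refl) _)).rk_post
      (rk_DD τ.e _ j.succ_pos), add_zero, nonpos_iff_eq_zero] at this

theorem nn_PP (U : Mod K C) (j : ℕ) : rk K B (chiMod χ') (box τ.e γ.PP U) j = 0 :=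
  (thru_boxL τ.e PP_Pt U).rk_post (τ.nn_Pt U j)

theorem low (V : Mod K C) (j : ℕ) (hj : j < 2) :
    rk K B (chiMod χ') (box τ.e (Mod.self K C) V) j = 0 := by
  obtain ⟨f, g, hs⟩ := γ.C_ses
  interval_cases j
  · exact rk0_of_hom (τ.hom_C V)
  · have h1 := (ses_boxL τ.e (V := γ.M) γ.M_ses V).v₀ K (chiMod χ')
    have h2 := (ses_boxL τ.e hs V).v₁ K (chiMod χ') 0
    rw [τ.nn_PP, nonpos_iff_eq_zero] at h1
    rwa [h1, τ.nn_PP, add_zero, nonpos_iff_eq_zero] at h2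

theorem sh (V : Mod K C) (j : ℕ) : rk K B (chiMod χ') (box τ.e (Mod.self K C) V) (j + 2) ≤
    rk K B (chiMod χ') (box τ.e (DM K C) V) j := γ.shift2 τ.e V j (τ.nn_PP _ _) (τ.nn_PP _ _)

include τ in
theorem rkB_ne (j : ℕ) (hj : j ≠ 4) : rk K B (chiMod χ') B j = 0 := by
  rcases Nat.lt_or_ge 4 j with h | h
  · exact γ.idB τ.e _ j h
  refine nonpos_iff_eq_zero.1 ((rk_equiv_post (boxSelf τ.e).symm).trans ?_)
  rcases Nat.lt_or_ge j 2 with h' | h'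
  · exact (τ.low _ j h').le
  obtain ⟨j, rfl⟩ : ∃ i, j = i + 2 := ⟨j - 2, by omega⟩
  exact (τ.sh _ j).trans ((rk_equiv_post (boxSw τ.e _ _)).trans (τ.swap.low _ j (by omega)).le)

theorem rk_DM : rk K B (chiMod χ') (DM K B) 0 ≤ 1 := by
  refine rk0_le.trans ((LinearMap.rank_le_of_injective (LinearMap.applyₗ (1 : B) ∘ₗ
    dmE.symm.toLinearMap ∘ₗ LinearMap.applyₗ' K (toRes χ' (Mod.self K K) 1))
    ((injective_iff_map_eq_zero _).2 fun f hf => ?_)).trans (rank_self K).le)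
  have h1 : dmE.symm (f (toRes χ' (Mod.self K K) 1)) 1 = 0 := hf
  have h2 : f (toRes χ' (Mod.self K K) 1) = 0 := dmE.symm.injective (LinearMap.ext fun b => by
    rw [← one_mul b, ← dmE_symm_smul, ← map_smul, chi_smul, LinearMap.map_smul_of_tower, map_smul,
      LinearMap.smul_apply, h1, smul_zero, map_zero, LinearMap.zero_apply])
  refine LinearMap.ext fun x : K => ?_
  have := f.map_smul_of_tower x (toRes χ' (Mod.self K K) 1)
  rw [h2, smul_zero] at this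
  exact (congrArg f (mul_one x).symm).trans this

include τ in
theorem rkB_four : rk K B (chiMod χ') B 4 ≤ 1 :=
  (rk_equiv_post (boxSelf τ.e).symm).trans ((τ.sh _ 2).trans ((rk_equiv_post (boxSw τ.e _ _)).trans
    ((τ.swap.sh _ 0).trans ((rk_equiv_post (boxDM (sw τ.e))).trans rk_DM))))

def q₁ (U : Mod K B) : box τ.e γ.Pt (Mod.fr K C U) →ₗ[B] U :=
  boxLift τ.e (V := γ.Pt) (U := Mod.fr K C U) (TensorProduct.lift
    ((act K B U ∘ₗ (i₁ τ.e).toLinearMap ∘ₗ γ.ptSub.subtype.restrictScalars K).compl₂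
      (TensorProduct.lift (act K B U ∘ₗ (i₂ τ.e).toLinearMap))))
    (fun c v u => by simp [mul_smul])
    fun c v u => by
      induction u using TensorProduct.induction_on with
      | zero => simp
      | tmul x y => simp [TensorProduct.smul_tmul', mul_smul, i_comm]
      | add x y hx hy => simp only [smul_add, TensorProduct.tmul_add, map_add, hx, hy]

theorem q₁_apply (U : Mod K B) (p : γ.Pt) (u : U) :
    τ.q₁ U (bE τ.e _ _ (p ⊗ₜ ((1 : C) ⊗ₜ u))) = i₁ τ.e p • u := by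
  rw [q₁, boxLift_bE]
  simp

theorem semi_of_q₁ (U : Mod K B) (φ : Dual K U) (h : ∀ x, φ (τ.q₁ U x) = 0) (c : C) (u : U) :
    φ (i₁ τ.e c • u) = γ.χ c • φ u := by
  obtain ⟨p, p', h₁, h₂, e⟩ := γ.Jsurj (c - algebraMap K C (γ.χ c)) (by simp)
  have h3 := h (bE τ.e _ _ ((⟨p, h₁⟩ : γ.Pt) ⊗ₜ ((1 : C) ⊗ₜ (i₁ τ.e γ.a • u))))
  have h4 := h (bE τ.e _ _ ((⟨p', h₂⟩ : γ.Pt) ⊗ₜ ((1 : C) ⊗ₜ u)))
  rw [q₁_apply] at h3 h4
  have h5 := congrArg (fun x => φ (i₁ τ.e x • u)) e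
  simp only [map_add, map_mul, add_smul, mul_smul, map_sub, AlgHom.commutes, sub_smul,
    algebraMap_smul, map_smul] at h5
  rw [h3, h4, add_zero, eq_comm, sub_eq_zero] at h5
  exact h5

abbrev Q (U : Mod K B) : Mod K B :=
  (box τ.e γ.Pt (Mod.fr K C U)).prod (box τ.swap.e γ.Pt (Mod.fr K C U))

def q (U : Mod K B) : τ.Q U →ₗ[B] U := (τ.q₁ U).coprod (τ.swap.q₁ U)

theorem q_surj (U : Mod K B) (h : rk K B U (chiMod χ') 0 = 0) : Function.Surjective (τ.q U) := by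
  refine (LinearMap.dualMap_injective_iff (K := K) (V₁ := τ.Q U) (V₂ := U)
    (f := (τ.q U).restrictScalars K)).1 ((injective_iff_map_eq_zero _).2 fun φ hφ => ?_)
  have h₁ := τ.semi_of_q₁ U φ fun x => by simpa [q] using LinearMap.congr_fun hφ (x, 0)
  have h₂ := τ.swap.semi_of_q₁ U φ fun x => by simpa [q] using LinearMap.congr_fun hφ (0, x)
  have := hom_of_rk0 h (mkB τ.e (N := chiMod χ') φ
    (fun c m => by rw [chi_smul, τ.h₁]; exact h₁ c m) fun c m => by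
      rw [chi_smul, τ.h₂]; exact h₂ c m)
  exact LinearMap.ext fun u => LinearMap.congr_fun this u

theorem Q_pj (U : Mod K B) : PJ B (τ.Q U) :=
  Thru.prod (box_pj _ γ.Pt_pj (pj_fr K C U)) (box_pj _ γ.Pt_pj (pj_fr K C U))

theorem prod_ses {X Y : Type u} [AddCommGroup X] [AddCommGroup Y] [Module B X] [Module B Y] :
    SES (LinearMap.inl B X Y) (LinearMap.snd B X Y) :=
  ⟨LinearMap.inl_injective, fun _ => rfl, fun t ht => ⟨t.1, Prod.ext rfl ht.symm⟩,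
    LinearMap.snd_surjective⟩

theorem Q_ss (U : Mod K B) (j : ℕ) : rk K B (τ.Q U) (chiMod χ') j = 0 := by
  have := (prod_ses (B := B) (X := box τ.e γ.Pt (Mod.fr K C U))
    (Y := box τ.swap.e γ.Pt (Mod.fr K C U))).c₂ K (chiMod χ') j
  rwa [τ.ss_Pt, τ.swap.ss_Pt, add_zero, nonpos_iff_eq_zero] at this

theorem Q_nn (U : Mod K B) (j : ℕ) : rk K B (chiMod χ') (τ.Q U) j = 0 := by
  have := (prod_ses (B := B) (X := box τ.e γ.Pt (Mod.fr K C U))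
    (Y := box τ.swap.e γ.Pt (Mod.fr K C U))).v₂ K (chiMod χ') j
  rwa [τ.nn_Pt, τ.swap.nn_Pt, add_zero, nonpos_iff_eq_zero] at this

def ns : ℕ → Mod K B
  | 0 => (Om K B).obj (chiMod χ')
  | k + 1 => Mod.sub (LinearMap.ker (τ.q (ns k)))

include τ in
theorem om_ss (j : ℕ) : rk K B ((Om K B).obj (chiMod χ')) (chiMod χ') j = 0 := by
  rcases j with _ | j
  · refine rk0_of_hom fun f => ?_
    obtain ⟨g, rfl⟩ := (om_ses (chiMod χ')).extend (τ.self 0) f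
    have : ∀ x, g x = g ((1 : B) ⊗ₜ frπ _ x) := fun x => by
      induction x using TensorProduct.induction_on with
      | zero => simp
      | tmul b x =>
        have : b ⊗ₜ[K] x = b • ((1 : B) ⊗ₜ[K] x) := by simp [TensorProduct.smul_tmul']
        rw [frπ_tmul, chi_smul, TensorProduct.tmul_smul, LinearMap.map_smul_of_tower, this,
          map_smul, chi_smul]
      | add a b ha hb => rw [map_add, map_add, TensorProduct.tmul_add, map_add, ← ha, ← hb]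
    refine LinearMap.ext fun x => ?_
    rw [LinearMap.comp_apply, this, (om_ses _).comp, TensorProduct.tmul_zero, map_zero,
      LinearMap.zero_apply]
  · exact nonpos_iff_eq_zero.1 ((rk_om_le _ j).trans (τ.self _).le)

theorem ns_ss (k j : ℕ) : rk K B (τ.ns k) (chiMod χ') j = 0 := by
  induction k generalizing j with
  | zero => exact τ.om_ss j
  | succ k ih =>
    have := (SES.of_surj _ (τ.q_surj _ (ih 0))).c₁ K (chiMod χ') j
    rwa [τ.Q_ss, ih, add_zero, nonpos_iff_eq_zero] at this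

theorem ns_ses (k : ℕ) : SES (X := τ.ns (k + 1)) (LinearMap.ker (τ.q (τ.ns k))).subtype
    (τ.q (τ.ns k)) := SES.of_surj _ (τ.q_surj _ (τ.ns_ss k 0))

theorem ns_sr (k : ℕ) : SR B (oms (chiMod χ') (k + 1)) (τ.ns k) := by
  induction k with
  | zero => exact ⟨LinearMap.id, LinearMap.id, Thru.zero.of_ext fun x => sub_self x⟩
  | succ k ih => exact SR.step (om_ses _) (τ.ns_ses k) (pj_fr K B _) (τ.Q_pj _) ih

theorem oms_le (k j : ℕ) (hj : j ≠ 4) :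
    rk K B (chiMod χ') (oms (chiMod χ') (k + 1)) j ≤ rk K B (chiMod χ') (τ.ns k) j := by
  obtain ⟨a, b, h⟩ := τ.ns_sr k
  exact rk_le_post (τ.rkB_ne j hj) a b h

theorem ns_le (k j : ℕ) :
    rk K B (chiMod χ') (τ.ns (k + 1)) (j + 1) ≤ rk K B (chiMod χ') (τ.ns k) j := by
  have := (τ.ns_ses k).v₁ K (chiMod χ') j
  rwa [τ.Q_nn, add_zero] at this

include τ in
theorem rk_fr (V : Mod K B) (j : ℕ) (hj : j ≠ 4) : rk K B (chiMod χ') (Mod.fr K B V) j = 0 :=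
  (pj_fr K B V).rk_post (τ.rkB_ne j hj)

theorem ns_zero (k : ℕ) : rk K B (chiMod χ') (τ.ns k) 0 = 0 := by
  rcases k with _ | k
  · exact nonpos_iff_eq_zero.1 (((om_ses _).v₀ K _).trans (τ.rk_fr _ 0 (by omega)).le)
  · exact nonpos_iff_eq_zero.1 (((τ.ns_ses k).v₀ K _).trans (τ.Q_nn _ 0).le)

include τ in
theorem oms3_le (i : ℕ) : rk K B (chiMod χ') (oms (chiMod χ') 3) (5 + i) ≤
    rk K B (chiMod χ') (Mod.fr K B (chiMod χ')) (i + 3) := by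
  rw [add_comm 5 i]
  refine (τ.oms_le 2 _ (by omega)).trans ((τ.ns_le 1 _).trans ((τ.ns_le 0 _).trans ?_))
  have := (om_ses (chiMod χ')).v₁ K (chiMod χ') (i + 2)
  rwa [τ.self, zero_add] at this

include τ in
theorem n3 (i : ℕ) (hi : i ≠ 1) : rk K B (chiMod χ') (oms (chiMod χ') 3) (5 + i) = 0 :=
  nonpos_iff_eq_zero.1 ((τ.oms3_le i).trans (τ.rk_fr _ _ (by omega)).le)

include τ in
theorem n3' : rk K B (chiMod χ') (oms (chiMod χ') 3) (5 + 1) ≤ 1 :=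
  (τ.oms3_le 1).trans ((rk_equiv_post (TensorProduct.AlgebraTensorModule.rid K B B)).trans
    τ.rkB_four)

include τ in
theorem n6 (m : ℕ) : rk K B (chiMod χ') (oms (chiMod χ') (m + 6)) (5 + 0) = 0 :=
  nonpos_iff_eq_zero.1 ((τ.oms_le (m + 5) 5 (by omega)).trans ((τ.ns_le _ _).trans
    ((τ.ns_le _ _).trans ((τ.ns_le _ _).trans ((τ.ns_le _ _).trans ((τ.ns_le _ _).trans
      (τ.ns_zero m).le))))))

include τ in
theorem nv (ξ : (Om4 K B).obj (chiMod χ') →ₗ[B] (Om K B).obj (chiMod χ'))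
    (h : ¬ ∃ H : Mod.fr K B (oms (chiMod χ') 3) →ₗ[B] Mod.fr K B (chiMod χ'),
      H ∘ₗ omι _ = omι _ ∘ₗ ξ) :
    ∃ (Q : Mod K B) (q : Q →ₗ[B] (Om K B).obj (chiMod χ')), Function.Surjective q ∧
      ¬ ∃ h : (Om4 K B).obj (chiMod χ') →ₗ[B] Q, q ∘ₗ h = ξ := by
  refine ⟨τ.Q (τ.ns 0), τ.q _, (τ.ns_ses 0).surj, ?_⟩
  rintro ⟨k, rfl⟩
  obtain ⟨k', rfl⟩ := (om_ses (oms (chiMod χ') 3)).extend (K := K) (nonpos_iff_eq_zero.1
    ((rk_om_le _ _).trans ((rk_om_le _ _).trans ((rk_om_le _ _).trans (τ.Q_nn _ 4).le)))) k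
  exact h ⟨omι _ ∘ₗ τ.q _ ∘ₗ k', rfl⟩

end TP

end CD

end

end Crest.Agent.R186
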