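import Crest.Agent.R186.Sym
import Crest.Prelude.Def_GorProjVanishing
import Crest.Prelude.Def_SymmetricAlgebra

/-!
`GorProjVanishingData` from `TData` and `RData`, and base change of both along a field extension.
-/

set_option autoImplicit false

namespace Crest.Agent.R186

noncomputable section

universe u

open scoped TensorProduct

section GP

variable {K A : Type u} [Field K] [Ring A] [Algebra K A] [FiniteDimensional K A]

theorem SymForm.isSymmetricAlgebra (σ : SymForm K A) : Crest.AlgebraR.IsSymmetricAlgebra K A :=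
  ⟨σ.equiv, fun a x b y => by
    rw [SymForm.equiv_apply, SymForm.equiv_apply, ← mul_assoc, ← mul_assoc, σ.symm (y * a * x) b]
    simp only [mul_assoc]⟩

omit [FiniteDimensional K A] in
theorem RData.jacobson_eq (ρ : RData K A) : Ring.jacobson A = RingHom.ker ρ.π := by
  apply le_antisymm
  · have : RingHomSurjective (ρ.π : A →+* (Fin 8 → K)) := ⟨ρ.surj⟩
    intro x hx
    have h := Ring.le_comap_jacobson (ρ.π : A →+* (Fin 8 → K)) hx
    rw [IsSemisimpleRing.jacobson_eq_bot] at h
    exact h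
  · intro x hx
    rw [← Ideal.jacobson_bot, Ideal.mem_jacobson_iff]
    intro y
    obtain ⟨n, hn⟩ := ρ.nil
    have hyx : y * x ∈ LinearMap.ker ρ.π.toLinearMap := by
      have : ρ.π x = 0 := hx
      simp [this]
    have h0 : IsNilpotent (y * x) := ⟨n, by
      have := Submodule.pow_mem_pow _ hyx n
      rwa [hn, Submodule.zero_eq_bot, Submodule.mem_bot] at this⟩
    obtain ⟨v, hv⟩ := h0.isUnit_add_one
    refine ⟨(v⁻¹ : Aˣ), ?_⟩
    have : ((v⁻¹ : Aˣ) : A) * (y * x + 1) = 1 := by rw [← hv, Units.inv_mul]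
    rw [Ideal.mem_bot, mul_assoc, ← this, mul_add, mul_one, sub_self]

theorem exists_cosyz (σ : SymForm K A) (U : Mod K A) :
    ∃ (V Q : Mod K A) (ι : U →ₗ[A] Q) (π : Q →ₗ[A] V), SES ι π ∧ PJ A Q := by
  obtain ⟨n, e, he⟩ := σ.exists_embed U
  exact ⟨Mod.quot (U := Mod.of K A (Fin n → A)) (LinearMap.range e), Mod.of K A (Fin n → A), e,
    (LinearMap.range e).mkQ, SES.of_inj e he, Thru.pi Thru.refl⟩

theorem gp_of_chain (σ : SymForm K A) (W : ℤ → Mod K A)
    (key : ∀ n : ℤ, ∃ (Q : Mod K A) (ι : W (n + 1) →ₗ[A] Q) (π : Q →ₗ[A] W n),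
      SES ι π ∧ PJ A Q) : Crest.AlgebraR.IsGorensteinProjective A (W 0) := by
  choose Q ι π hs hQ using key
  have hex : ∀ n : ℤ, Function.Exact (ι (n + 1) ∘ₗ π (n + 1 + 1)) (ι n ∘ₗ π (n + 1)) := by
    intro n x
    constructor
    · intro hx
      have h1 : π (n + 1) x = 0 := (hs n).inj (by rw [map_zero]; exact hx)
      obtain ⟨s, rfl⟩ := (hs (n + 1)).exact x h1
      obtain ⟨t, rfl⟩ := (hs (n + 1 + 1)).surj s
      exact ⟨t, rfl⟩
    · rintro ⟨t, rfl⟩
      simp only [LinearMap.comp_apply, (hs (n + 1)).comp, map_zero]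
  refine ⟨fun n => Q n, fun n => inferInstance, fun n => inferInstance,
    fun n => ι n ∘ₗ π (n + 1), fun n => ⟨inferInstance, (hQ n).projective⟩, hex, fun n g => ?_, ?_⟩
  · constructor
    · intro hg
      obtain ⟨f, hf⟩ := inj_ext σ.injective (ι n ∘ₗ π (n + 1)) g fun x hx => by
        obtain ⟨t, rfl⟩ := (hex n x).1 hx
        exact LinearMap.congr_fun hg t
      exact ⟨f, hf⟩
    · rintro ⟨f, rfl⟩
      refine LinearMap.ext fun t => ?_
      have := (hex n _).2 ⟨t, rfl⟩
      change f ((ι n ∘ₗ π (n + 1)) ((ι (n + 1) ∘ₗ π (n + 1 + 1)) t)) = 0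
      rw [this, map_zero]
  · have h1 : LinearMap.range (ι 0 ∘ₗ π (0 + 1)) = LinearMap.ker (π 0) := by
      ext x
      constructor
      · rintro ⟨t, rfl⟩
        exact (hs 0).comp _
      · intro hx
        obtain ⟨s, rfl⟩ := (hs 0).exact x hx
        obtain ⟨t, rfl⟩ := (hs (0 + 1)).surj s
        exact ⟨t, rfl⟩
    exact ⟨((Submodule.quotEquivOfEq _ _ h1).trans
      ((π 0).quotKerEquivOfSurjective (hs 0).surj)).symm⟩

theorem TData.gp (T : TData K A) : Crest.AlgebraR.IsGorensteinProjective A (T.Z 0) := by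
  choose co hco using exists_cosyz T.sym
  let C : ℕ → Mod K A := fun n => Nat.rec (T.Z 0) (fun _ U => co U) n
  refine gp_of_chain T.sym (fun n => Int.rec T.Z (fun m => C (m + 1)) n) fun n => ?_
  rcases n with n | n
  · exact ⟨T.P n, T.ι n, T.π n, T.ses n, T.pj n⟩
  · rcases n with _ | n
    · exact hco (T.Z 0)
    · exact hco (C (n + 1))

theorem gpv (T : TData K A) (ρ : RData K A) :
    Crest.AlgebraR.GorProjVanishingData K A (T.Z 0) := by
  refine ⟨inferInstance, ⟨(Ideal.quotientEquivAlgOfEq K ρ.jacobson_eq).trans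
    (Ideal.quotientKerAlgEquivOfSurjective ρ.surj)⟩, ?_, inferInstance, fun h => T.nproj ?_,
    T.gp, fun i hi => ?_, fun i hi => ?_⟩
  · obtain ⟨a, b, c, d, ha, hb, hc, hd, h⟩ := ρ.four
    intro h0
    apply h
    have m : ∀ x, ρ.π x = 0 → x ∈ Ring.jacobson A := fun x hx => by
      rw [ρ.jacobson_eq]; exact hx
    have : a * b * c * d ∈ Ring.jacobson A ^ 4 := by
      rw [Submodule.pow_succ, Submodule.pow_succ, Submodule.pow_succ, Submodule.pow_one]
      exact Ideal.mul_mem_mul (Ideal.mul_mem_mul (Ideal.mul_mem_mul (m a ha) (m b hb)) (m c hc))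
        (m d hd)
    rwa [h0, Ideal.mem_bot] at this
  · exact PJ.of_projective
  · obtain ⟨j, rfl⟩ : ∃ j, i = j + 1 := ⟨i - 1, by omega⟩
    exact subsingleton_of_rk (T.rk_eq j 0)
  · obtain ⟨j, rfl⟩ : ∃ j, i = j + 1 := ⟨i - 1, by omega⟩
    exact subsingleton_of_rk (K := K) (rk_inj T.sym.injective j)

end GP

section BC

variable {k A : Type} [Field k] [Ring A] [Algebra k A] (E : Type u) [Field E] [Algebra k E]

/-- The action of `E ⊗ A` on `E ⊗ U`. -/
def bcAct (U : Mod k A) : E ⊗[k] A →ₐ[E] Module.End E (E ⊗[k] U) :=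
  (Module.endTensorEndAlgHom (R := k) (S := E) (A := E) (M := E) (N := U)).comp
    (Algebra.TensorProduct.map (Algebra.lsmul E E E) (Algebra.lsmul k k U))

theorem bcAct_tmul (U : Mod k A) (a b : E) (r : A) (z : U) :
    bcAct E U (a ⊗ₜ r) (b ⊗ₜ z) = (a * b) ⊗ₜ (r • z) := rfl

/-- The module structure of `E ⊗ U` over `E ⊗ A`. -/
abbrev bcModule (U : Mod k A) : Module (E ⊗[k] A) (E ⊗[k] U) :=
  Module.compHom (E ⊗[k] U) (bcAct E U).toRingHom

/-- Base change of a module. -/
def Mod.bc (U : Mod k A) : Mod E (E ⊗[k] A) :=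
  letI : Module (E ⊗[k] A) (E ⊗[k] U) := bcModule E U
  haveI : IsScalarTower E (E ⊗[k] A) (E ⊗[k] U) := ⟨fun c r u => by
    change bcAct E U (c • r) u = c • bcAct E U r u
    rw [map_smul, LinearMap.smul_apply]⟩
  Mod.of E (E ⊗[k] A) (E ⊗[k] U)

variable {E}

/-- Pure tensors, as elements of the base change. -/
def tm {U : Mod k A} (a : E) (z : U) : U.bc E := a ⊗ₜ[k] z

theorem bc_smul {U : Mod k A} (a b : E) (r : A) (z : U) :
    (a ⊗ₜ[k] r : E ⊗[k] A) • (tm b z : U.bc E) = tm (a * b) (r • z) := rfl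

theorem bc_smul_def {U : Mod k A} (r : E ⊗[k] A) (x : U.bc E) : r • x = bcAct E U r x := rfl

theorem smul_tm {U : Mod k A} (a b : E) (z : U) : a • (tm b z : U.bc E) = tm (a * b) z := rfl

theorem bc_induction {U : Mod k A} {p : U.bc E → Prop} (x : U.bc E) (h0 : p 0)
    (h1 : ∀ a z, p (tm a z)) (h2 : ∀ x y, p x → p y → p (x + y)) : p x :=
  TensorProduct.induction_on (motive := p) x h0 h1 h2

variable (E) in
/-- Base change of a `k`-linear map. -/
def bcLin {U V : Mod k A} (f : U →ₗ[k] V) : U.bc E →ₗ[E] V.bc E := f.baseChange E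

theorem bcLin_tm {U V : Mod k A} (f : U →ₗ[k] V) (a : E) (z : U) :
    bcLin E f (tm a z) = tm a (f z) := rfl

variable (E) in
/-- Base change of a map. -/
def bcMap {U V : Mod k A} (f : U →ₗ[A] V) : U.bc E →ₗ[E ⊗[k] A] V.bc E where
  toFun := bcLin E (f.restrictScalars k)
  map_add' := map_add _
  map_smul' r x := by
    rw [RingHom.id_apply]
    induction r using TensorProduct.induction_on with
    | zero => rw [zero_smul, zero_smul, map_zero]
    | add r s hr hs => rw [add_smul, add_smul, map_add, hr, hs]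
    | tmul a r =>
      induction x using bc_induction with
      | h0 => rw [smul_zero, map_zero, smul_zero]
      | h2 x y hx hy => rw [smul_add, map_add, map_add, smul_add, hx, hy]
      | h1 b z =>
        rw [bc_smul, bcLin_tm, bcLin_tm, bc_smul, LinearMap.restrictScalars_apply,
          LinearMap.restrictScalars_apply, map_smul]

theorem bcMap_tm {U V : Mod k A} (f : U →ₗ[A] V) (a : E) (z : U) :
    bcMap E f (tm a z) = tm a (f z) := rfl

theorem bc_ext {U : Mod k A} {W : Type u} [AddCommGroup W] [Module (E ⊗[k] A) W]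
    {f g : U.bc E →ₗ[E ⊗[k] A] W} (h : ∀ z, f (tm 1 z) = g (tm 1 z)) : f = g := by
  refine LinearMap.ext fun x => ?_
  induction x using bc_induction with
  | h0 => rw [map_zero, map_zero]
  | h2 x y hx hy => rw [map_add, map_add, hx, hy]
  | h1 a z =>
    have : (tm a z : U.bc E) = (a ⊗ₜ[k] (1 : A) : E ⊗[k] A) • tm 1 z := by
      rw [bc_smul, mul_one, one_smul]
    rw [this, map_smul, map_smul, h]

theorem bcMap_comp {U V W : Mod k A} (f : U →ₗ[A] V) (g : V →ₗ[A] W) :
    bcMap E (g ∘ₗ f) = bcMap E g ∘ₗ bcMap E f := bc_ext fun _ => rfl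

theorem bcMap_id (U : Mod k A) : bcMap E (LinearMap.id : U →ₗ[A] U) = LinearMap.id :=
  bc_ext fun _ => rfl

theorem bcMap_add {U V : Mod k A} (f g : U →ₗ[A] V) : bcMap E (f + g) = bcMap E f + bcMap E g :=
  bc_ext fun z => TensorProduct.tmul_add (1 : E) (f z) (g z)

theorem bcMap_zero {U V : Mod k A} : bcMap E (0 : U →ₗ[A] V) = 0 :=
  bc_ext fun _ => TensorProduct.tmul_zero _ (1 : E)

theorem bc_ses {U V W : Mod k A} {f : U →ₗ[A] V} {g : V →ₗ[A] W} (h : SES f g) :
    SES (bcMap E f) (bcMap E g) :=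
  SES.mk' (Module.Flat.lTensor_preserves_injective_linearMap (f.restrictScalars k) h.inj)
    (lTensor_exact E (f := f.restrictScalars k) (g := g.restrictScalars k) h.fexact h.surj)
    (LinearMap.lTensor_surjective E (g := g.restrictScalars k) h.surj)

/-- The coordinate along a linear form on `E`. -/
def coord (t : E →ₗ[k] k) (M : Type) [AddCommGroup M] [Module k M] : E ⊗[k] M →ₗ[k] M :=
  (TensorProduct.lid k M).toLinearMap ∘ₗ t.rTensor M

theorem coord_tmul (t : E →ₗ[k] k) {M : Type} [AddCommGroup M] [Module k M] (a : E) (z : M) :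
    coord t M (a ⊗ₜ z) = t a • z := rfl

/-- The coordinate map on a base-changed module. -/
def crd (t : E →ₗ[k] k) (U : Mod k A) : U.bc E →+ U := (coord t U).toAddMonoidHom

theorem crd_tm (t : E →ₗ[k] k) {U : Mod k A} (a : E) (z : U) :
    crd t U (tm a z) = t a • z := rfl

theorem exists_coord_sum {M : Type} [AddCommGroup M] [Module k M] {ι : Type u}
    (b : Module.Basis ι k E) (x : E ⊗[k] M) :
    ∃ s : Finset ι, ∀ s' : Finset ι, s ⊆ s' → x = ∑ i ∈ s', b i ⊗ₜ[k] coord (b.coord i) M x := by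
  classical
  refine ⟨(TensorProduct.equivFinsuppOfBasisLeft b x).support, fun s' hs => ?_⟩
  conv_lhs => rw [← (TensorProduct.equivFinsuppOfBasisLeft b).symm_apply_apply x,
    TensorProduct.equivFinsuppOfBasisLeft_symm_apply]
  rw [Finsupp.sum_of_support_subset _ hs _ fun i _ => TensorProduct.tmul_zero _ _]
  refine Finset.sum_congr rfl fun i _ => ?_
  rw [TensorProduct.equivFinsuppOfBasisLeft_apply]
  rfl

theorem eq_zero_of_coord {M : Type} [AddCommGroup M] [Module k M] {x : E ⊗[k] M}
    (h : ∀ t : E →ₗ[k] k, coord t M x = 0) : x = 0 := by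
  obtain ⟨s, hs⟩ := exists_coord_sum (Module.Basis.ofVectorSpace k E) x
  rw [hs s subset_rfl]
  exact Finset.sum_eq_zero fun i _ => by rw [h, TensorProduct.tmul_zero]

theorem crd_smul (t : E →ₗ[k] k) {U : Mod k A} (r : A) (x : U.bc E) :
    crd t U (((1 : E) ⊗ₜ[k] r : E ⊗[k] A) • x) = r • crd t U x := by
  induction x using bc_induction with
  | h0 => rw [smul_zero, map_zero, smul_zero]
  | h2 x y hx hy => rw [smul_add, map_add, map_add, smul_add, hx, hy]
  | h1 a z => rw [bc_smul, one_mul, crd_tm, crd_tm, smul_comm]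

/-- The coordinate of a map between base changes. -/
def res (t : E →ₗ[k] k) {U V : Mod k A} (f : U.bc E →ₗ[E ⊗[k] A] V.bc E) : U →ₗ[A] V where
  toFun z := crd t V (f (tm 1 z))
  map_add' a b := by
    have : (tm 1 (a + b) : U.bc E) = tm 1 a + tm 1 b := TensorProduct.tmul_add _ _ _
    rw [this, map_add, map_add]
  map_smul' r z := by
    rw [RingHom.id_apply, ← crd_smul, ← map_smul, bc_smul, one_mul]

theorem res_apply (t : E →ₗ[k] k) {U V : Mod k A} (f : U.bc E →ₗ[E ⊗[k] A] V.bc E) (z : U) :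
    res t f z = crd t V (f (tm 1 z)) := rfl

theorem exists_crd_sum {U : Mod k A} {ι : Type u} (b : Module.Basis ι k E) (x : U.bc E) :
    ∃ s : Finset ι, ∀ s' : Finset ι, s ⊆ s' → x = ∑ i ∈ s', tm (b i) (crd (b.coord i) U x) :=
  exists_coord_sum (M := U) b x

theorem exists_sum {U V : Mod k A} (f : U.bc E →ₗ[E ⊗[k] A] V.bc E) :
    ∃ (ι : Type u) (s : Finset ι) (e : ι → E) (g : ι → U →ₗ[A] V),
      f = ∑ i ∈ s, e i • bcMap E (g i) := by
  classical
  let b := Module.Basis.ofVectorSpace k E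
  let c := Module.finBasis k U
  choose s hs using fun j => exists_crd_sum b (f (tm 1 (c j)))
  refine ⟨_, Finset.univ.biUnion s, b, fun i => res (b.coord i) f, bc_ext fun z => ?_⟩
  have h1 : (tm 1 z : U.bc E) = ∑ j, algebraMap k E (c.repr z j) • tm 1 (c j) := by
    conv_lhs => rw [← c.sum_repr z]
    refine (TensorProduct.tmul_sum (1 : E) _ _).trans (Finset.sum_congr rfl fun j _ => ?_)
    rw [smul_tm, mul_one, TensorProduct.tmul_smul, TensorProduct.smul_tmul',
      Algebra.algebraMap_eq_smul_one]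
    rfl
  rw [h1, map_sum, map_sum]
  refine Finset.sum_congr rfl fun j _ => ?_
  rw [LinearMap.map_smul_of_tower, LinearMap.map_smul_of_tower]
  congr 1
  rw [hs j (Finset.univ.biUnion s) (Finset.subset_biUnion_of_mem s (Finset.mem_univ j)),
    LinearMap.sum_apply]
  refine Finset.sum_congr rfl fun i _ => ?_
  rw [LinearMap.smul_apply, bcMap_tm, smul_tm, mul_one, res_apply]

theorem exists_retr : ∃ t : E →ₗ[k] k, t 1 = 1 := by
  obtain ⟨t, ht⟩ := LinearMap.exists_leftInverse_of_injective (Algebra.linearMap k E)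
    (LinearMap.ker_eq_bot.2 (algebraMap k E).injective)
  exact ⟨t, by simpa using LinearMap.congr_fun ht 1⟩

variable (E) in
/-- Base change of a symmetric form. -/
def SymForm.bc (σ : SymForm k A) : SymForm E (E ⊗[k] A) where
  l := (TensorProduct.AlgebraTensorModule.rid k E E).toLinearMap ∘ₗ σ.l.baseChange E
  symm a b := by
    induction a using TensorProduct.induction_on with
    | zero => rw [zero_mul, mul_zero]
    | add x y hx hy => rw [add_mul, mul_add, map_add, map_add, hx, hy]
    | tmul x r =>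
      induction b using TensorProduct.induction_on with
      | zero => rw [zero_mul, mul_zero]
      | add x y hx hy => rw [add_mul, mul_add, map_add, map_add, hx, hy]
      | tmul y s => simp [σ.symm r s, mul_comm x y]
  nondeg a h := by
    have key : ∀ (t : E →ₗ[k] k) (r : A) (a : E ⊗[k] A), σ.l (r * coord t A a) =
        t (((TensorProduct.AlgebraTensorModule.rid k E E).toLinearMap ∘ₗ σ.l.baseChange E)
          ((1 ⊗ₜ r) * a)) := by
      intro t r a
      induction a using TensorProduct.induction_on with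
      | zero => simp
      | add x y hx hy => rw [map_add, mul_add, mul_add, map_add, map_add, map_add, hx, hy]
      | tmul x s => simp [coord_tmul, mul_comm]
    exact eq_zero_of_coord fun t => σ.nondeg _ fun r => by rw [key, h, map_zero]

variable (E) in
/-- The base change of the quotient map. -/
def RData.πbc (ρ : RData k A) : E ⊗[k] A →ₐ[E] (Fin 8 → E) :=
  (Algebra.TensorProduct.piScalarRight k E E (Fin 8)).toAlgHom.comp
    (Algebra.TensorProduct.map (AlgHom.id E E) ρ.π)

theorem RData.πbc_apply (ρ : RData k A) (x : E ⊗[k] A) :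
    ρ.πbc E x = Algebra.TensorProduct.piScalarRight k E E (Fin 8) (ρ.π.toLinearMap.lTensor E x) :=
  rfl

theorem baseChange_mul_le (I J : Submodule k A) :
    I.baseChange E * J.baseChange E ≤ (I * J).baseChange E := by
  rw [Submodule.baseChange_eq_span, Submodule.baseChange_eq_span, Submodule.span_mul_span,
    Submodule.span_le]
  rintro _ ⟨_, ⟨a, ha, rfl⟩, _, ⟨b, hb, rfl⟩, rfl⟩
  have := Submodule.tmul_mem_baseChange_of_mem (1 : E) (Submodule.mul_mem_mul ha hb)
  simpa using this

theorem baseChange_pow_le (I : Submodule k A) (n : ℕ) :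
    I.baseChange E ^ (n + 1) ≤ (I ^ (n + 1)).baseChange E := by
  induction n with
  | zero => rw [zero_add, pow_one, pow_one]
  | succ n ih =>
    rw [pow_succ _ (n + 1), pow_succ _ (n + 1)]
    exact (mul_le_mul' ih le_rfl).trans (baseChange_mul_le _ _)

variable (E) in
/-- Base change of the radical data. -/
def RData.bc (ρ : RData k A) : RData E (E ⊗[k] A) where
  π := ρ.πbc E
  surj := (Algebra.TensorProduct.piScalarRight k E E (Fin 8)).surjective.comp
    (LinearMap.lTensor_surjective E (g := ρ.π.toLinearMap) ρ.surj)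
  nil := by
    obtain ⟨n, hn⟩ := ρ.nil
    have h1 : LinearMap.ker (ρ.πbc E).toLinearMap ≤
        (LinearMap.ker ρ.π.toLinearMap).baseChange E := by
      intro x hx
      have h2 : ρ.π.toLinearMap.lTensor E x = 0 :=
        (Algebra.TensorProduct.piScalarRight k E E (Fin 8)).injective
          (by rw [map_zero, ← RData.πbc_apply]; exact hx)
      exact (lTensor_exact E (LinearMap.exact_subtype_ker_map ρ.π.toLinearMap) ρ.surj x).1 h2
    refine ⟨n + 1, le_bot_iff.1 ?_⟩
    refine (pow_le_pow_left' h1 _).trans ((baseChange_pow_le _ n).trans ?_)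
    rw [pow_succ, hn, zero_mul, Submodule.zero_eq_bot, Submodule.baseChange_bot]
  four := by
    obtain ⟨a, b, c, d, ha, hb, hc, hd, h⟩ := ρ.four
    have m : ∀ x, ρ.π x = 0 → ρ.πbc E (1 ⊗ₜ x) = 0 := fun x hx => by
      rw [RData.πbc_apply, LinearMap.lTensor_tmul, AlgHom.toLinearMap_apply, hx,
        TensorProduct.tmul_zero, map_zero]
    refine ⟨1 ⊗ₜ a, 1 ⊗ₜ b, 1 ⊗ₜ c, 1 ⊗ₜ d, m a ha, m b hb, m c hc, m d hd, fun h0 => h ?_⟩
    obtain ⟨t, ht⟩ := exists_retr (k := k) (E := E)
    have := congrArg (coord t A) h0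
    simpa [coord_tmul, ht] using this

variable [FiniteDimensional k A]

variable (E A) in
/-- The base change of the regular module is the regular module. -/
def bcSelfEquiv : (Mod.self k A).bc E ≃ₗ[E ⊗[k] A] E ⊗[k] A where
  toFun x := x
  invFun x := x
  left_inv _ := rfl
  right_inv _ := rfl
  map_add' _ _ := rfl
  map_smul' r x := by
    let φ : (Mod.self k A).bc E →+ E ⊗[k] A := AddMonoidHom.id (E ⊗[k] A)
    change φ (r • x) = r * φ x
    induction r using TensorProduct.induction_on with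
    | zero => rw [zero_smul, zero_mul, map_zero]
    | add r s hr hs => rw [add_smul, add_mul, map_add, hr, hs]
    | tmul a r =>
      induction x using bc_induction with
      | h0 => rw [smul_zero, map_zero, mul_zero]
      | h2 x y hx hy => rw [smul_add, map_add, map_add, mul_add, hx, hy]
      | h1 b z => exact (Algebra.TensorProduct.tmul_mul_tmul a b r (show A from z)).symm

theorem bc_thru {U V : Mod k A} {f : U →ₗ[A] V} (h : SZ f) : SZ (bcMap E f) := by
  induction h with
  | zero => rw [bcMap_zero]; exact Thru.zero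
  | comp a b =>
    rw [bcMap_comp (V := Mod.self k A)]
    have h0 : PJ (E ⊗[k] A) ((Mod.self k A).bc E) := Thru.refl.equiv (bcSelfEquiv A E)
    exact (h0.tgt (bcMap E (V := Mod.self k A) a)).post (bcMap E (U := Mod.self k A) b)
  | add _ _ h1 h2 => rw [bcMap_add]; exact h1.add h2

theorem bc_pj {U : Mod k A} (h : PJ A U) : PJ (E ⊗[k] A) (U.bc E) := by
  have := bc_thru (E := E) h
  rwa [bcMap_id] at this

theorem res_thru (t : E →ₗ[k] k) {U V : Mod k A} {f : U.bc E →ₗ[E ⊗[k] A] V.bc E} (h : SZ f) :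
    SZ (res t f) := by
  induction h with
  | zero => exact Thru.zero.of_ext fun x => by rw [res_apply]; exact map_zero _
  | add _ _ h1 h2 =>
    exact (h1.add h2).of_ext fun x => by
      rw [res_apply, LinearMap.add_apply, map_add]; rfl
  | comp a b =>
    obtain ⟨ι, s, e, g, hg⟩ := exists_sum (V := Mod.self k A) ((bcSelfEquiv A E).symm.toLinearMap ∘ₗ a)
    refine (Thru.sum s (f := fun i => res t (e i • (b ∘ₗ (bcSelfEquiv A E).toLinearMap)) ∘ₗ g i)
      fun i _ => Thru.comp (g i) _).of_ext fun x => ?_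
    have h1 : a (tm 1 x) = bcSelfEquiv A E (((bcSelfEquiv A E).symm.toLinearMap ∘ₗ a) (tm 1 x)) := rfl
    rw [res_apply, LinearMap.comp_apply, h1, hg, LinearMap.sum_apply, LinearMap.sum_apply, map_sum,
      map_sum, map_sum]
    refine Finset.sum_congr rfl fun i _ => ?_
    rw [LinearMap.comp_apply, res_apply, LinearMap.smul_apply, LinearMap.smul_apply, bcMap_tm,
      LinearMap.comp_apply, ← LinearMap.map_smul_of_tower]
    congr 2

theorem pj_of_bc {U : Mod k A} (h : PJ (E ⊗[k] A) (U.bc E)) : PJ A U := by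
  obtain ⟨t, ht⟩ := exists_retr (k := k) (E := E)
  exact (res_thru t h).of_ext fun x => by
    rw [res_apply, LinearMap.id_apply, LinearMap.id_apply, crd_tm, ht, one_smul]

variable (E) in
/-- Base change of the module data. -/
def TData.bc (T : TData k A) : TData E (E ⊗[k] A) where
  sym := T.sym.bc E
  Z n := (T.Z n).bc E
  P n := (T.P n).bc E
  ι n := bcMap E (T.ι n)
  π n := bcMap E (T.π n)
  ses n := bc_ses (T.ses n)
  pj n := bc_pj (T.pj n)
  ext n f := by
    obtain ⟨ι, s, e, g, rfl⟩ := exists_sum f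
    choose g' hg' using fun i => T.ext n (g i)
    refine ⟨∑ i ∈ s, e i • bcMap E (g' i), LinearMap.ext fun x => ?_⟩
    rw [LinearMap.comp_apply, LinearMap.sum_apply, LinearMap.sum_apply]
    refine Finset.sum_congr rfl fun i _ => ?_
    rw [← hg' i, bcMap_comp]
    rfl
  nproj h := T.nproj (pj_of_bc h)

theorem TData.bc_Z (T : TData k A) (n : ℕ) : (T.bc E).Z n = (T.Z n).bc E := rfl

theorem final81 (T : TData k A) (ρ : RData k A) :
    ∃ (Λ : Type) (_ : Ring Λ) (_ : Algebra k Λ) (Z : Type) (_ : AddCommGroup Z)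
      (_ : Module Λ Z) (_ : Module k Z) (_ : IsScalarTower k Λ Z),
      Crest.AlgebraR.GorProjVanishingData k Λ Z ∧
      ∀ (E : Type u) [Field E] [Algebra k E],
        ∃ (_ : Module (E ⊗[k] Λ) (E ⊗[k] Z)),
          (∀ (a b : E) (r : Λ) (z : Z),
            (a ⊗ₜ[k] r) • (b ⊗ₜ[k] z) = (a * b) ⊗ₜ[k] (r • z)) ∧
          Crest.AlgebraR.GorProjVanishingData E (E ⊗[k] Λ) (E ⊗[k] Z) :=
  ⟨A, inferInstance, inferInstance, T.Z 0, inferInstance, inferInstance, inferInstance,
    inferInstance, gpv T ρ, fun E _ _ =>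
      ⟨bcModule E (T.Z 0), fun _ _ _ _ => rfl, gpv (T.bc E) (ρ.bc E)⟩⟩

end BC

end

end Crest.Agent.R186
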