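import Mathlib

/-!
Short exact sequences, maps factoring through sums of copies of a module, and linear functors
between categories of finite-dimensional modules.
-/

set_option autoImplicit false

namespace Crest.Agent.R186

noncomputable section

universe u

open scoped TensorProduct

section Unbundled

variable {R : Type u} [Ring R]
variable {X Y Z U V W N P N' P' U' : Type u}
  [AddCommGroup X] [AddCommGroup Y] [AddCommGroup Z] [AddCommGroup U] [AddCommGroup V]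
  [AddCommGroup W] [AddCommGroup N] [AddCommGroup P] [AddCommGroup N'] [AddCommGroup P']
  [AddCommGroup U']
  [Module R X] [Module R Y] [Module R Z] [Module R U] [Module R V] [Module R W] [Module R N]
  [Module R P] [Module R N'] [Module R P'] [Module R U']

structure SES (f : X →ₗ[R] Y) (g : Y →ₗ[R] Z) : Prop where
  inj : Function.Injective f
  comp : ∀ t, g (f t) = 0
  exact : ∀ t, g t = 0 → ∃ s, f s = t
  surj : Function.Surjective g

theorem SES.comp' {f : X →ₗ[R] Y} {g : Y →ₗ[R] Z} (h : SES f g) : g ∘ₗ f = 0 :=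
  LinearMap.ext h.comp

theorem SES.fexact {f : X →ₗ[R] Y} {g : Y →ₗ[R] Z} (h : SES f g) : Function.Exact f g :=
  fun t => ⟨h.exact t, by rintro ⟨s, rfl⟩; exact h.comp s⟩

theorem SES.mk' {f : X →ₗ[R] Y} {g : Y →ₗ[R] Z} (h1 : Function.Injective f)
    (h2 : Function.Exact f g) (h3 : Function.Surjective g) : SES f g :=
  ⟨h1, fun t => (h2 _).2 ⟨t, rfl⟩, fun t ht => (h2 t).1 ht, h3⟩

theorem SES.of_surj (g : Y →ₗ[R] Z) (h : Function.Surjective g) :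
    SES (LinearMap.ker g).subtype g :=
  ⟨Subtype.val_injective, fun t => t.2, fun t ht => ⟨⟨t, ht⟩, rfl⟩, h⟩

theorem SES.of_inj (f : X →ₗ[R] Y) (h : Function.Injective f) :
    SES f (LinearMap.range f).mkQ :=
  ⟨h, fun t => (Submodule.Quotient.mk_eq_zero _).2 ⟨t, rfl⟩,
    fun _ ht => (Submodule.Quotient.mk_eq_zero _).1 ht, Submodule.mkQ_surjective _⟩

theorem exists_lift_of_range {f : X →ₗ[R] Y} (hf : Function.Injective f) (k : W →ₗ[R] Y)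
    (hk : ∀ w, ∃ s, f s = k w) : ∃ k' : W →ₗ[R] X, f ∘ₗ k' = k := by
  refine ⟨(LinearEquiv.ofInjective f hf).symm.toLinearMap ∘ₗ
    k.codRestrict (LinearMap.range f) hk, LinearMap.ext fun w => ?_⟩
  simp

theorem exists_desc_of_ker {g : Y →ₗ[R] Z} (hg : Function.Surjective g) (k : Y →ₗ[R] W)
    (hk : ∀ t, g t = 0 → k t = 0) : ∃ k' : Z →ₗ[R] W, k' ∘ₗ g = k := by
  refine ⟨(LinearMap.ker g).liftQ k hk ∘ₗ (g.quotKerEquivOfSurjective hg).symm.toLinearMap,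
    LinearMap.ext fun y => ?_⟩
  simp

theorem SES.lift {f : X →ₗ[R] Y} {g : Y →ₗ[R] Z} (h : SES f g) (k : W →ₗ[R] Y)
    (hk : ∀ w, g (k w) = 0) : ∃ k' : W →ₗ[R] X, f ∘ₗ k' = k :=
  exists_lift_of_range h.inj k fun w => h.exact _ (hk w)

theorem SES.desc {f : X →ₗ[R] Y} {g : Y →ₗ[R] Z} (h : SES f g) (k : Y →ₗ[R] W)
    (hk : ∀ x, k (f x) = 0) : ∃ k' : Z →ₗ[R] W, k' ∘ₗ g = k :=
  exists_desc_of_ker h.surj k fun t ht => by
    obtain ⟨s, rfl⟩ := h.exact t ht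
    exact hk s

theorem cancel_inj {f : X →ₗ[R] Y} (hf : Function.Injective f) {a b : W →ₗ[R] X}
    (h : f ∘ₗ a = f ∘ₗ b) : a = b :=
  LinearMap.ext fun w => hf (LinearMap.congr_fun h w)

theorem cancel_surj {g : Y →ₗ[R] Z} (hg : Function.Surjective g) {a b : Z →ₗ[R] W}
    (h : a ∘ₗ g = b ∘ₗ g) : a = b :=
  LinearMap.ext fun z => by
    obtain ⟨y, rfl⟩ := hg z
    exact LinearMap.congr_fun h y

theorem inj_ext (hW : Module.Injective R W) (a : X →ₗ[R] Y) (k : X →ₗ[R] W)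
    (hk : ∀ x, a x = 0 → k x = 0) : ∃ k' : Y →ₗ[R] W, k' ∘ₗ a = k := by
  obtain ⟨k₁, hk₁⟩ := exists_desc_of_ker a.surjective_rangeRestrict k
    (fun t ht => hk t (congrArg Subtype.val ht))
  obtain ⟨k', hk'⟩ := hW.out (LinearMap.range a).subtype Subtype.val_injective k₁
  refine ⟨k', LinearMap.ext fun x => ?_⟩
  rw [← hk₁]
  exact hk' (a.rangeRestrict x)

/-- Sums of maps that factor through `Y`. -/
inductive Thru (Y : Type u) [AddCommGroup Y] [Module R Y] {U V : Type u} [AddCommGroup U]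
    [Module R U] [AddCommGroup V] [Module R V] : (U →ₗ[R] V) → Prop
  | zero : Thru Y 0
  | comp (a : U →ₗ[R] Y) (b : Y →ₗ[R] V) : Thru Y (b ∘ₗ a)
  | add {f g : U →ₗ[R] V} : Thru Y f → Thru Y g → Thru Y (f + g)

namespace Thru

theorem pre {f : U →ₗ[R] V} (h : Thru Y f) (k : W →ₗ[R] U) : Thru Y (f ∘ₗ k) := by
  induction h with
  | zero => exact zero
  | comp a b => exact comp (a ∘ₗ k) b
  | add _ _ h1 h2 => rw [LinearMap.add_comp]; exact add h1 h2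

theorem post {f : U →ₗ[R] V} (h : Thru Y f) (k : V →ₗ[R] W) : Thru Y (k ∘ₗ f) := by
  induction h with
  | zero => rw [LinearMap.comp_zero]; exact zero
  | comp a b => exact comp a (k ∘ₗ b)
  | add _ _ h1 h2 => rw [LinearMap.comp_add]; exact add h1 h2

theorem neg {f : U →ₗ[R] V} (h : Thru Y f) : Thru Y (-f) := by
  have := h.post (-LinearMap.id)
  rwa [LinearMap.neg_comp, LinearMap.id_comp] at this

theorem sub {f g : U →ₗ[R] V} (h : Thru Y f) (h' : Thru Y g) : Thru Y (f - g) := by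
  rw [sub_eq_add_neg]; exact h.add h'.neg

theorem smul {K : Type u} [Field K] [Module K V] [SMulCommClass R K V] (c : K)
    {f : U →ₗ[R] V} (h : Thru Y f) : Thru Y (c • f) := by
  have := h.post (c • LinearMap.id)
  rwa [LinearMap.smul_comp, LinearMap.id_comp] at this

theorem sum {ι : Type*} (s : Finset ι) {f : ι → U →ₗ[R] V} (h : ∀ i ∈ s, Thru Y (f i)) :
    Thru Y (∑ i ∈ s, f i) :=
  Finset.sum_induction f (Thru Y) (fun _ _ => add) zero h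

theorem of_eq {f g : U →ₗ[R] V} (h : Thru Y f) (e : g = f) : Thru Y g := e ▸ h

theorem of_ext {f g : U →ₗ[R] V} (h : Thru Y f) (e : ∀ x, g x = f x) : Thru Y g :=
  h.of_eq (LinearMap.ext e)

theorem refl : Thru Y (LinearMap.id : Y →ₗ[R] Y) := comp LinearMap.id LinearMap.id

theorem src (h : Thru Y (LinearMap.id : U →ₗ[R] U)) (f : U →ₗ[R] V) : Thru Y f := h.post f

theorem tgt (h : Thru Y (LinearMap.id : V →ₗ[R] V)) (f : U →ₗ[R] V) : Thru Y f := h.pre f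

theorem trans {f : U →ₗ[R] V} (h : Thru Y f) (hY : Thru Z (LinearMap.id : Y →ₗ[R] Y)) :
    Thru Z f := by
  induction h with
  | zero => exact zero
  | comp a b => exact (hY.pre a).post b
  | add _ _ h1 h2 => exact add h1 h2

theorem retract (h : Thru Y (LinearMap.id : V →ₗ[R] V)) (i : U →ₗ[R] V) (p : V →ₗ[R] U)
    (e : ∀ x, p (i x) = x) : Thru Y (LinearMap.id : U →ₗ[R] U) :=
  ((h.pre i).post p).of_ext fun x => (e x).symm

theorem equiv (h : Thru Y (LinearMap.id : V →ₗ[R] V)) (e : U ≃ₗ[R] V) :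
    Thru Y (LinearMap.id : U →ₗ[R] U) :=
  h.retract e.toLinearMap e.symm.toLinearMap e.symm_apply_apply

theorem prod (h : Thru Y (LinearMap.id : U →ₗ[R] U)) (h' : Thru Y (LinearMap.id : V →ₗ[R] V)) :
    Thru Y (LinearMap.id : U × V →ₗ[R] U × V) :=
  (((h.pre (LinearMap.fst R U V)).post (LinearMap.inl R U V)).add
    ((h'.pre (LinearMap.snd R U V)).post (LinearMap.inr R U V))).of_ext fun x => by simp

theorem pi {ι : Type} [Fintype ι] (h : Thru Y (LinearMap.id : U →ₗ[R] U)) :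
    Thru Y (LinearMap.id : (ι → U) →ₗ[R] (ι → U)) := by
  classical
  refine (sum Finset.univ (f := fun i : ι => LinearMap.single R (fun _ => U) i ∘ₗ
    (LinearMap.id ∘ₗ LinearMap.proj i)) fun i _ => (h.pre _).post _).of_ext fun x => ?_
  simp [LinearMap.sum_apply, Finset.univ_sum_single]

theorem lift [Module.Projective R Y] {f : U →ₗ[R] V} (h : Thru Y f) (p : W →ₗ[R] V)
    (hp : Function.Surjective p) : ∃ f' : U →ₗ[R] W, Thru Y f' ∧ p ∘ₗ f' = f := by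
  induction h with
  | zero => exact ⟨0, zero, LinearMap.comp_zero _⟩
  | comp a b =>
    obtain ⟨b', hb'⟩ := Module.projective_lifting_property p b hp
    exact ⟨b' ∘ₗ a, comp a b', by rw [← hb']; rfl⟩
  | add _ _ h1 h2 =>
    obtain ⟨f₁, h₁, rfl⟩ := h1
    obtain ⟨f₂, h₂, rfl⟩ := h2
    exact ⟨f₁ + f₂, add h₁ h₂, LinearMap.comp_add _ _ _⟩

theorem extend (hY : Module.Injective R Y) {f : U →ₗ[R] V} (h : Thru Y f) (i : U →ₗ[R] W)
    (hi : Function.Injective i) : ∃ f' : W →ₗ[R] V, Thru Y f' ∧ f' ∘ₗ i = f := by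
  induction h with
  | zero => exact ⟨0, zero, LinearMap.zero_comp _⟩
  | comp a b =>
    obtain ⟨a', ha'⟩ := hY.out i hi a
    exact ⟨b ∘ₗ a', comp a' b, LinearMap.ext fun x => congrArg b (ha' x)⟩
  | add _ _ h1 h2 =>
    obtain ⟨f₁, h₁, rfl⟩ := h1
    obtain ⟨f₂, h₂, rfl⟩ := h2
    exact ⟨f₁ + f₂, add h₁ h₂, LinearMap.add_comp _ _ _⟩

theorem projective [Module.Projective R Y] (h : Thru Y (LinearMap.id : U →ₗ[R] U)) :
    Module.Projective R U := by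
  obtain ⟨s, -, hs⟩ := h.lift (Finsupp.linearCombination R (id : U → U))
    (Finsupp.linearCombination_id_surjective R U)
  exact Module.projective_def'.2 ⟨s, hs⟩

theorem injective (hY : Module.Injective R Y) (h : Thru Y (LinearMap.id : U →ₗ[R] U)) :
    Module.Injective R U where
  out := fun A B _ _ _ _ i hi g => by
    obtain ⟨f', -, hf'⟩ := (h.tgt g).extend hY i hi
    exact ⟨f', fun x => LinearMap.congr_fun hf' x⟩

end Thru

/-- Stably zero maps. -/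
abbrev SZ (f : U →ₗ[R] V) : Prop := Thru R f

variable (R U) in
/-- Finitely generated projective modules. -/
abbrev PJ : Prop := Thru R (LinearMap.id : U →ₗ[R] U)

theorem PJ.of_projective [Module.Finite R U] [Module.Projective R U] : PJ R U := by
  obtain ⟨n, f, g, -, -, h⟩ := Module.Finite.exists_comp_eq_id_of_projective R U
  exact (Thru.pi Thru.refl).retract g f (LinearMap.congr_fun h)

theorem PJ.split_surj (h : PJ R U) (p : W →ₗ[R] U) (hp : Function.Surjective p) :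
    ∃ s : U →ₗ[R] W, p ∘ₗ s = LinearMap.id := by
  obtain ⟨s, -, hs⟩ := h.lift p hp
  exact ⟨s, hs⟩

theorem PJ.lift' (h : PJ R U) (f : U →ₗ[R] V) (p : W →ₗ[R] V) (hp : Function.Surjective p) :
    ∃ s : U →ₗ[R] W, p ∘ₗ s = f := by
  obtain ⟨s, -, hs⟩ := (h.src f).lift p hp
  exact ⟨s, hs⟩

theorem SES.thru_left {f : X →ₗ[R] Y} {g : Y →ₗ[R] Z} (h : SES f g)
    (hY : Thru W (LinearMap.id : Y →ₗ[R] Y)) (s : Z →ₗ[R] Y) (hs : g ∘ₗ s = LinearMap.id) :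
    Thru W (LinearMap.id : X →ₗ[R] X) := by
  obtain ⟨k, hk⟩ := h.lift (LinearMap.id - s ∘ₗ g) fun y => by
    have := LinearMap.congr_fun hs (g y)
    simp only [LinearMap.comp_apply, LinearMap.id_apply] at this
    simp [this]
  refine hY.retract f k fun x => h.inj ?_
  have := LinearMap.congr_fun hk (f x)
  simpa [h.comp] using this

theorem SES.pj_left {f : X →ₗ[R] Y} {g : Y →ₗ[R] Z} (h : SES f g) (hY : PJ R Y) (hZ : PJ R Z) :
    PJ R X := by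
  obtain ⟨s, hs⟩ := hZ.split_surj g h.surj
  exact h.thru_left hY s hs

section Lift

variable {i : N →ₗ[R] P} {p : P →ₗ[R] U} {i' : N' →ₗ[R] P'} {p' : P' →ₗ[R] U'}

/-- A map of short exact sequences. -/
structure Sq (i : N →ₗ[R] P) (p : P →ₗ[R] U) (i' : N' →ₗ[R] P') (p' : P' →ₗ[R] U')
    (f₁ : N →ₗ[R] N') (f₂ : P →ₗ[R] P') (f₃ : U →ₗ[R] U') : Prop where
  l : ∀ x, i' (f₁ x) = f₂ (i x)
  r : ∀ x, p' (f₂ x) = f₃ (p x)

theorem Sq.sub {f₁ g₁ : N →ₗ[R] N'} {f₂ g₂ : P →ₗ[R] P'} {f₃ g₃ : U →ₗ[R] U'}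
    (h : Sq i p i' p' f₁ f₂ f₃) (h' : Sq i p i' p' g₁ g₂ g₃) :
    Sq i p i' p' (f₁ - g₁) (f₂ - g₂) (f₃ - g₃) :=
  ⟨fun x => by simp [h.l, h'.l], fun x => by simp [h.r, h'.r]⟩

theorem Sq.add {f₁ g₁ : N →ₗ[R] N'} {f₂ g₂ : P →ₗ[R] P'} {f₃ g₃ : U →ₗ[R] U'}
    (h : Sq i p i' p' f₁ f₂ f₃) (h' : Sq i p i' p' g₁ g₂ g₃) :
    Sq i p i' p' (f₁ + g₁) (f₂ + g₂) (f₃ + g₃) :=
  ⟨fun x => by simp [h.l, h'.l], fun x => by simp [h.r, h'.r]⟩

theorem Sq.id : Sq i p i p LinearMap.id LinearMap.id LinearMap.id := ⟨fun _ => rfl, fun _ => rfl⟩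

theorem Sq.comp {i'' : X →ₗ[R] Y} {p'' : Y →ₗ[R] Z} {f₁ : N →ₗ[R] N'} {f₂ : P →ₗ[R] P'}
    {f₃ : U →ₗ[R] U'} {g₁ : N' →ₗ[R] X} {g₂ : P' →ₗ[R] Y} {g₃ : U' →ₗ[R] Z}
    (h' : Sq i' p' i'' p'' g₁ g₂ g₃) (h : Sq i p i' p' f₁ f₂ f₃) :
    Sq i p i'' p'' (g₁ ∘ₗ f₁) (g₂ ∘ₗ f₂) (g₃ ∘ₗ f₃) :=
  ⟨fun x => by simp [h.l, h'.l], fun x => by simp [h.r, h'.r]⟩

theorem exists_sq_of_right (h : SES i p) (h' : SES i' p') (hP : PJ R P) (f₃ : U →ₗ[R] U') :
    ∃ f₁ f₂, Sq i p i' p' f₁ f₂ f₃ := by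
  obtain ⟨f₂, hf₂⟩ := hP.lift' (f₃ ∘ₗ p) p' h'.surj
  have e : ∀ x, p' (f₂ x) = f₃ (p x) := LinearMap.congr_fun hf₂
  obtain ⟨f₁, hf₁⟩ := h'.lift (f₂ ∘ₗ i) fun x => by simp [e, h.comp]
  exact ⟨f₁, f₂, LinearMap.congr_fun hf₁, e⟩

theorem exists_sq_of_left (h : SES i p) (h' : SES i' p') (hP : Module.Injective R P')
    (f₁ : N →ₗ[R] N') : ∃ f₂ f₃, Sq i p i' p' f₁ f₂ f₃ := by
  obtain ⟨f₂, hf₂⟩ := hP.out i h.inj (i' ∘ₗ f₁)
  obtain ⟨f₃, hf₃⟩ := h.desc (p' ∘ₗ f₂) fun x => by simp [hf₂, h'.comp]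
  exact ⟨f₂, f₃, fun x => (hf₂ x).symm, fun x => (LinearMap.congr_fun hf₃ x).symm⟩

theorem Sq.fwd {f₁ : N →ₗ[R] N'} {f₂ : P →ₗ[R] P'} {f₃ : U →ₗ[R] U'}
    (s : Sq i p i' p' f₁ f₂ f₃) (h : SES i p) (h' : SES i' p') (hP : PJ R P) (hz : SZ f₃) :
    SZ f₁ := by
  obtain ⟨k, -, hk⟩ := hz.lift p' h'.surj
  have e : ∀ x, p' (k x) = f₃ x := LinearMap.congr_fun hk
  obtain ⟨m, hm⟩ := h'.lift (f₂ - k ∘ₗ p) fun x => by simp [e, s.r]
  refine ((hP.src m).pre i).of_ext fun x => h'.inj ?_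
  have := LinearMap.congr_fun hm (i x)
  simp only [LinearMap.comp_apply, LinearMap.sub_apply, h.comp, map_zero, sub_zero] at this
  rw [s.l, ← this]; rfl

theorem Sq.bwd {f₁ : N →ₗ[R] N'} {f₂ : P →ₗ[R] P'} {f₃ : U →ₗ[R] U'}
    (s : Sq i p i' p' f₁ f₂ f₃) (hR : Module.Injective R R) (h : SES i p) (h' : SES i' p')
    (hP : PJ R P') (hz : SZ f₁) : SZ f₃ := by
  obtain ⟨k, -, hk⟩ := hz.extend hR i h.inj
  have e : ∀ x, k (i x) = f₁ x := LinearMap.congr_fun hk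
  obtain ⟨m, hm⟩ := h.desc (f₂ - i' ∘ₗ k) fun x => by simp [e, s.l]
  refine ((hP.tgt m).post p').of_eq (cancel_surj h.surj (LinearMap.ext fun x => ?_))
  have := LinearMap.congr_fun hm x
  simp only [LinearMap.comp_apply, LinearMap.sub_apply] at this ⊢
  rw [this, map_sub, h'.comp, sub_zero, s.r]

end Lift

/-- Stable isomorphisms. -/
def SI (f : U →ₗ[R] V) : Prop :=
  ∃ g : V →ₗ[R] U, SZ (g ∘ₗ f - LinearMap.id) ∧ SZ (f ∘ₗ g - LinearMap.id)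

theorem Sq.si {i : N →ₗ[R] P} {p : P →ₗ[R] U} {i' : N' →ₗ[R] P'} {p' : P' →ₗ[R] U'}
    {f₁ : N →ₗ[R] N'} {f₂ : P →ₗ[R] P'} {f₃ : U →ₗ[R] U'}
    (s : Sq i p i' p' f₁ f₂ f₃) (h : SES i p) (h' : SES i' p') (hP : PJ R P) (hP' : PJ R P')
    (hz : SI f₃) : SI f₁ := by
  obtain ⟨g₃, a, b⟩ := hz
  obtain ⟨g₁, g₂, s'⟩ := exists_sq_of_right h' h hP' g₃
  exact ⟨g₁, ((s'.comp s).sub Sq.id).fwd h h hP a, ((s.comp s').sub Sq.id).fwd h' h' hP' b⟩

theorem SI.cancel_left {f : U →ₗ[R] V} (h : SI f) {a : W →ₗ[R] U} (ha : SZ (f ∘ₗ a)) : SZ a := by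
  obtain ⟨g, h1, -⟩ := h
  exact ((ha.post g).sub (h1.pre a)).of_ext fun x => by simp

theorem SI.cancel_right {f : U →ₗ[R] V} (h : SI f) {a : V →ₗ[R] W} (ha : SZ (a ∘ₗ f)) : SZ a := by
  obtain ⟨g, -, h2⟩ := h
  exact ((ha.pre g).sub (h2.post a)).of_ext fun x => by simp

theorem SI.solve_left {f : U →ₗ[R] V} (h : SI f) (d : W →ₗ[R] V) :
    ∃ a : W →ₗ[R] U, SZ (f ∘ₗ a - d) := by
  obtain ⟨g, -, h2⟩ := h
  exact ⟨g ∘ₗ d, (h2.pre d).of_ext fun x => by simp⟩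

theorem SI.solve_right {f : U →ₗ[R] V} (h : SI f) (d : U →ₗ[R] W) :
    ∃ a : V →ₗ[R] W, SZ (a ∘ₗ f - d) := by
  obtain ⟨g, h1, -⟩ := h
  exact ⟨d ∘ₗ g, (h1.post d).of_ext fun x => by simp⟩

variable (R U V) in
/-- Stable retracts. -/
def SR : Prop := ∃ (a : U →ₗ[R] V) (b : V →ₗ[R] U), SZ (b ∘ₗ a - LinearMap.id)

theorem SR.step {i : N →ₗ[R] P} {p : P →ₗ[R] U} {i' : N' →ₗ[R] P'} {p' : P' →ₗ[R] U'}
    (h : SES i p) (h' : SES i' p') (hP : PJ R P) (hP' : PJ R P') (hz : SR R U U') :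
    SR R N N' := by
  obtain ⟨a, b, hab⟩ := hz
  obtain ⟨a₁, a₂, s⟩ := exists_sq_of_right h h' hP a
  obtain ⟨b₁, b₂, s'⟩ := exists_sq_of_right h' h hP' b
  exact ⟨a₁, b₁, ((s'.comp s).sub Sq.id).fwd h h hP hab⟩

end Unbundled

end

end Crest.Agent.R186
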