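import Crest.Agent.R186.Lvl

/-!
External tensor products of modules over `B = C ⊗ C`.
-/

set_option autoImplicit false
set_option linter.unusedSectionVars false

namespace Crest.Agent.R186

noncomputable section

universe u

open scoped TensorProduct

variable {K : Type u} [Field K] {C B : Type u} [Ring C] [Algebra K C] [Ring B] [Algebra K B]
  [FiniteDimensional K C] [FiniteDimensional K B] (e : C ⊗[K] C ≃ₐ[K] B)

def i₁ : C →ₐ[K] B := e.toAlgHom.comp Algebra.TensorProduct.includeLeft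

def i₂ : C →ₐ[K] B := e.toAlgHom.comp Algebra.TensorProduct.includeRight

def sw : C ⊗[K] C ≃ₐ[K] B := (Algebra.TensorProduct.comm K C C).trans e

theorem i₁_apply (c : C) : i₁ e c = e (c ⊗ₜ 1) := rfl

theorem i₂_apply (c : C) : i₂ e c = e (1 ⊗ₜ c) := rfl

theorem sw_tmul (c c' : C) : sw e (c ⊗ₜ c') = e (c' ⊗ₜ c) := rfl

theorem i₁_sw (c : C) : i₁ (sw e) c = i₂ e c := rfl

theorem i₂_sw (c : C) : i₂ (sw e) c = i₁ e c := rfl

theorem i₁_mul_i₂ (c c' : C) : i₁ e c * i₂ e c' = e (c ⊗ₜ c') := by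
  rw [i₁_apply, i₂_apply, ← map_mul]; simp

theorem i₂_mul_i₁ (c c' : C) : i₂ e c' * i₁ e c = e (c ⊗ₜ c') := by
  rw [i₁_apply, i₂_apply, ← map_mul]; simp

theorem i_comm {M : Type u} [AddCommGroup M] [Module B M] (c c' : C) (m : M) :
    i₁ e c • i₂ e c' • m = i₂ e c' • i₁ e c • m := by
  rw [← mul_smul, ← mul_smul, i₁_mul_i₂, i₂_mul_i₁]

theorem B_induction {p : B → Prop} (b : B) (h0 : p 0) (h1 : ∀ c c', p (e (c ⊗ₜ c')))
    (h2 : ∀ a b, p a → p b → p (a + b)) : p b := by
  obtain ⟨z, rfl⟩ := e.surjective b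
  induction z using TensorProduct.induction_on with
  | zero => rwa [map_zero]
  | tmul c c' => exact h1 c c'
  | add a b ha hb => rw [map_add]; exact h2 _ _ ha hb

def mkB {M N : Type u} [AddCommGroup M] [Module K M] [Module B M] [AddCommGroup N] [Module K N]
    [Module B N] (f : M →ₗ[K] N) (h₁ : ∀ c m, f (i₁ e c • m) = i₁ e c • f m)
    (h₂ : ∀ c m, f (i₂ e c • m) = i₂ e c • f m) : M →ₗ[B] N :=
  mkLin f fun b m => B_induction e (p := fun b => f (b • m) = b • f m) b (by simp)
    (fun c c' => by rw [← i₁_mul_i₂, mul_smul, mul_smul, h₁, h₂])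
    fun a b ha hb => by rw [add_smul, add_smul, map_add, ha, hb]

@[simp] theorem mkB_apply {M N : Type u} [AddCommGroup M] [Module K M] [Module B M]
    [AddCommGroup N] [Module K N] [Module B N] (f : M →ₗ[K] N)
    (h₁ : ∀ c m, f (i₁ e c • m) = i₁ e c • f m) (h₂ : ∀ c m, f (i₂ e c • m) = i₂ e c • f m)
    (m : M) : mkB e f h₁ h₂ m = f m := rfl

def boxHom (V U : Mod K C) : B →ₐ[K] Module.End K (V ⊗[K] U) :=
  (Module.endTensorEndAlgHom.comp (Algebra.TensorProduct.map (Algebra.lsmul K K V)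
    (Algebra.lsmul K K U))).comp e.symm.toAlgHom

def boxAct (V U : Mod K C) : Act K B (V ⊗[K] U) where
  ρ := (boxHom e V U).toLinearMap
  one v := LinearMap.congr_fun (map_one (boxHom e V U)) v
  mul a b v := LinearMap.congr_fun (map_mul (boxHom e V U) a b) v

def box (V U : Mod K C) : Mod K B := (boxAct e V U).mod

def bE (V U : Mod K C) : V ⊗[K] U ≃ₗ[K] box e V U := (boxAct e V U).e

section

variable {e} {V U V' U' V'' U'' : Mod K C}

theorem e_smul_bE (c c' : C) (v : V) (u : U) :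
    e (c ⊗ₜ c') • bE e V U (v ⊗ₜ u) = bE e V U ((c • v) ⊗ₜ (c' • u)) := by
  change bE e V U (boxHom e V U (e (c ⊗ₜ c')) (v ⊗ₜ u)) = _
  simp [boxHom, Module.endTensorEndAlgHom_apply]

theorem i₁_smul_bE (c : C) (v : V) (u : U) :
    i₁ e c • bE e V U (v ⊗ₜ u) = bE e V U ((c • v) ⊗ₜ u) := by
  rw [i₁_apply, e_smul_bE, one_smul]

theorem i₂_smul_bE (c : C) (v : V) (u : U) :
    i₂ e c • bE e V U (v ⊗ₜ u) = bE e V U (v ⊗ₜ (c • u)) := by
  rw [i₂_apply, e_smul_bE, one_smul]

theorem box_induction {p : box e V U → Prop} (x : box e V U) (h0 : p 0)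
    (h1 : ∀ v u, p (bE e V U (v ⊗ₜ u))) (h2 : ∀ a b, p a → p b → p (a + b)) : p x := by
  obtain ⟨z, rfl⟩ := (bE e V U).surjective x
  induction z using TensorProduct.induction_on with
  | zero => rwa [map_zero]
  | tmul c c' => exact h1 c c'
  | add a b ha hb => rw [map_add]; exact h2 _ _ ha hb

theorem box_ext {N : Type u} [AddCommGroup N] [Module B N] {f g : box e V U →ₗ[B] N}
    (h : ∀ v u, f (bE e V U (v ⊗ₜ u)) = g (bE e V U (v ⊗ₜ u))) : f = g :=
  LinearMap.ext fun x => box_induction (p := fun x => f x = g x) x (by simp) h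
    fun a b ha hb => by rw [map_add, map_add, ha, hb]

theorem i₁_smul_bE' (c : C) (z : V ⊗[K] U) :
    i₁ e c • bE e V U z = bE e V U ((act K C V c).rTensor U z) := by
  induction z using TensorProduct.induction_on with
  | zero => simp
  | tmul v u => rw [i₁_smul_bE]; rfl
  | add a b ha hb => simp only [map_add, smul_add, ha, hb]

theorem i₂_smul_bE' (c : C) (z : V ⊗[K] U) :
    i₂ e c • bE e V U z = bE e V U ((act K C U c).lTensor V z) := by
  induction z using TensorProduct.induction_on with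
  | zero => simp
  | tmul v u => rw [i₂_smul_bE]; rfl
  | add a b ha hb => simp only [map_add, smul_add, ha, hb]

variable (e) in
def boxLift {N : Type u} [AddCommGroup N] [Module K N] [Module B N] (f : V ⊗[K] U →ₗ[K] N)
    (h₁ : ∀ (c : C) v u, f ((c • v) ⊗ₜ u) = i₁ e c • f (v ⊗ₜ u))
    (h₂ : ∀ (c : C) v u, f (v ⊗ₜ (c • u)) = i₂ e c • f (v ⊗ₜ u)) : box e V U →ₗ[B] N :=
  mkB e (f ∘ₗ (bE e V U).symm.toLinearMap)
    (fun c m => box_induction (p := fun m => (f ∘ₗ (bE e V U).symm.toLinearMap) (i₁ e c • m) =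
        i₁ e c • (f ∘ₗ (bE e V U).symm.toLinearMap) m) m (by simp)
      (fun v u => by simp [i₁_smul_bE, h₁]) fun a b ha hb => by
        simp only [smul_add, map_add, ha, hb])
    (fun c m => box_induction (p := fun m => (f ∘ₗ (bE e V U).symm.toLinearMap) (i₂ e c • m) =
        i₂ e c • (f ∘ₗ (bE e V U).symm.toLinearMap) m) m (by simp)
      (fun v u => by simp [i₂_smul_bE, h₂]) fun a b ha hb => by
        simp only [smul_add, map_add, ha, hb])

@[simp] theorem boxLift_bE {N : Type u} [AddCommGroup N] [Module K N] [Module B N]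
    (f : V ⊗[K] U →ₗ[K] N) (h₁ : ∀ (c : C) v u, f ((c • v) ⊗ₜ u) = i₁ e c • f (v ⊗ₜ u))
    (h₂ : ∀ (c : C) v u, f (v ⊗ₜ (c • u)) = i₂ e c • f (v ⊗ₜ u)) (z : V ⊗[K] U) :
    boxLift e f h₁ h₂ (bE e V U z) = f z := rfl

variable (e) in
def bmap (f : V →ₗ[C] V') (g : U →ₗ[C] U') : box e V U →ₗ[B] box e V' U' :=
  boxLift e ((bE e V' U').toLinearMap ∘ₗ
    TensorProduct.map (f.restrictScalars K) (g.restrictScalars K))
    (fun c v u => by simp [i₁_smul_bE]) fun c v u => by simp [i₂_smul_bE]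

theorem bmap_bE (f : V →ₗ[C] V') (g : U →ₗ[C] U') (z : V ⊗[K] U) : bmap e f g (bE e V U z) =
    bE e V' U' (TensorProduct.map (f.restrictScalars K) (g.restrictScalars K) z) := rfl

@[simp] theorem bmap_tmul (f : V →ₗ[C] V') (g : U →ₗ[C] U') (v : V) (u : U) :
    bmap e f g (bE e V U (v ⊗ₜ u)) = bE e V' U' (f v ⊗ₜ g u) := rfl

end

def BoxR (V : Mod K C) : LF K C B where
  obj U := box e V U
  map :=
    { toFun := fun g => bmap e LinearMap.id g
      map_add' := fun f g => box_ext fun v u => by simp [TensorProduct.tmul_add]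
      map_smul' := fun c g => box_ext fun v u => by simp }
  map_id U := box_ext fun v u => rfl
  map_comp f g := box_ext fun v u => rfl

def BoxL (U : Mod K C) : LF K C B where
  obj V := box e V U
  map :=
    { toFun := fun f => bmap e f LinearMap.id
      map_add' := fun f g => box_ext fun v u => by simp [TensorProduct.add_tmul]
      map_smul' := fun c g => box_ext fun v u => by simp [← TensorProduct.smul_tmul'] }
  map_id U := box_ext fun v u => rfl
  map_comp f g := box_ext fun v u => rfl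

theorem BoxR_exact (V : Mod K C) : (BoxR e V).Exact := fun {U U' U'' f g} h => by
  have := ses_lTensor (f := f.restrictScalars K) (g := g.restrictScalars K)
    ⟨h.inj, h.comp, h.exact, h.surj⟩ V
  exact ⟨this.inj, this.comp, this.exact, this.surj⟩

theorem BoxL_exact (U : Mod K C) : (BoxL e U).Exact := fun {V V' V'' f g} h => by
  have := ses_rTensor (f := f.restrictScalars K) (g := g.restrictScalars K)
    ⟨h.inj, h.comp, h.exact, h.surj⟩ U
  exact ⟨this.inj, this.comp, this.exact, this.surj⟩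

theorem ses_boxL {V V' V'' : Mod K C} {f : V →ₗ[C] V'} {g : V' →ₗ[C] V''} (h : SES f g)
    (U : Mod K C) : SES (bmap e f (LinearMap.id : U →ₗ[C] U)) (bmap e g LinearMap.id) :=
  BoxL_exact e U h

theorem ses_boxR {U U' U'' : Mod K C} {f : U →ₗ[C] U'} {g : U' →ₗ[C] U''} (h : SES f g)
    (V : Mod K C) : SES (bmap e (LinearMap.id : V →ₗ[C] V) f) (bmap e LinearMap.id g) :=
  BoxR_exact e V h

theorem thru_boxL {V V' : Mod K C} (h : Thru V' (LinearMap.id : V →ₗ[C] V)) (U : Mod K C) :
    Thru (box e V' U) (LinearMap.id : box e V U →ₗ[B] box e V U) := (BoxL e U).thru_id h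

theorem thru_boxR {U U' : Mod K C} (h : Thru U' (LinearMap.id : U →ₗ[C] U)) (V : Mod K C) :
    Thru (box e V U') (LinearMap.id : box e V U →ₗ[B] box e V U) := (BoxR e V).thru_id h

def boxSw (V U : Mod K C) : box e V U ≃ₗ[B] box (sw e) U V :=
  LinearEquiv.ofBijective (boxLift e ((bE (sw e) U V).toLinearMap ∘ₗ
    (TensorProduct.comm K V U).toLinearMap)
    (fun c v u => by simp [← i₂_sw, i₂_smul_bE]) fun c v u => by simp [← i₁_sw, i₁_smul_bE])
    (TensorProduct.comm K V U).bijective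

def boxSelf : box e (Mod.self K C) (Mod.self K C) ≃ₗ[B] B :=
  LinearEquiv.ofBijective (boxLift e (V := Mod.self K C) (U := Mod.self K C) e.toLinearMap
    (fun c v u => by simp [i₁_apply, ← map_mul]) fun c v u => by simp [i₂_apply, ← map_mul])
    e.bijective

theorem box_pj {V U : Mod K C} (hV : PJ C V) (hU : PJ C U) : PJ B (box e V U) :=
  ((thru_boxL e (V' := Mod.self K C) hV U).trans
    (thru_boxR e (U' := Mod.self K C) hU _)).trans (Thru.refl.equiv (boxSelf e))

def dmPair : DM K C ⊗[K] DM K C ≃ₗ[K] DM K B :=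
  (TensorProduct.congr dmE.symm dmE.symm).trans ((TensorProduct.dualDistribEquiv K C C).trans
    (e.symm.toLinearEquiv.dualMap.trans dmE))

theorem dmPair_apply (v u : DM K C) (c c' : C) :
    dmE.symm (dmPair e (v ⊗ₜ u)) (e (c ⊗ₜ c')) = dmE.symm v c * dmE.symm u c' := by
  simp [dmPair]

theorem dm_ext {x y : DM K B}
    (h : ∀ c c', dmE.symm x (e (c ⊗ₜ c')) = dmE.symm y (e (c ⊗ₜ c'))) : x = y :=
  dmE.symm.injective (LinearMap.ext fun b =>
    B_induction e (p := fun b => dmE.symm x b = dmE.symm y b) b (by simp) h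
      fun a b ha hb => by rw [map_add, map_add, ha, hb])

def boxDM : box e (DM K C) (DM K C) ≃ₗ[B] DM K B :=
  LinearEquiv.ofBijective (boxLift e (dmPair e).toLinearMap
    (fun c v u => dm_ext e fun a b => by
      simp [dmPair_apply, dmE_symm_smul, i₁_apply, ← map_mul])
    fun c v u => dm_ext e fun a b => by
      simp [dmPair_apply, dmE_symm_smul, i₂_apply, ← map_mul])
    (dmPair e).bijective

/-- The character of `B` attached to a character of `C`. -/
def chiB (χ : C →ₐ[K] K) : B →ₐ[K] K :=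
  (Algebra.TensorProduct.lift χ χ fun _ _ => Commute.all _ _).comp e.symm.toAlgHom

theorem chiB_e (χ : C →ₐ[K] K) (c c' : C) : chiB e χ (e (c ⊗ₜ c')) = χ c * χ c' := by
  simp [chiB]

theorem chiB_i₁ (χ : C →ₐ[K] K) (c : C) : chiB e χ (i₁ e c) = χ c := by
  rw [i₁_apply, chiB_e, map_one, mul_one]

theorem chiB_i₂ (χ : C →ₐ[K] K) (c : C) : chiB e χ (i₂ e c) = χ c := by
  rw [i₂_apply, chiB_e, map_one, one_mul]

theorem chiB_sw (χ : C →ₐ[K] K) : chiB (sw e) χ = chiB e χ :=
  AlgHom.ext fun b => B_induction e (p := fun b => chiB (sw e) χ b = chiB e χ b) b (by simp)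
    (fun c c' => by rw [chiB_e, ← sw_tmul, chiB_e, mul_comm])
    fun a b ha hb => by rw [map_add, map_add, ha, hb]

theorem chi_smul {R : Type u} [Ring R] [Algebra K R] (χ : R →ₐ[K] K) (r : R) (x : chiMod χ) :
    r • x = χ r • x := rfl

/-- `s ⊠ s` is the module of any character restricting to `χ` on both factors. -/
def boxChi (χ : C →ₐ[K] K) (χ' : B →ₐ[K] K) (h₁ : ∀ c, χ' (i₁ e c) = χ c)
    (h₂ : ∀ c, χ' (i₂ e c) = χ c) : box e (chiMod χ) (chiMod χ) ≃ₗ[B] chiMod χ' :=
  LinearEquiv.ofBijective (boxLift e (V := chiMod χ) (U := chiMod χ) (N := chiMod χ')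
    (TensorProduct.lid K K).toLinearMap
    (fun c v u => by
      rw [chi_smul, chi_smul, h₁, ← TensorProduct.smul_tmul', map_smul])
    fun c v u => by
      rw [chi_smul, chi_smul, h₂, TensorProduct.tmul_smul, map_smul])
    (TensorProduct.lid K K).bijective

end

end Crest.Agent.R186
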