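import Crest.Agent.R186.NV

/-!
The ten-dimensional algebra `C`.
-/

set_option autoImplicit false

namespace Crest.Agent.R186

noncomputable section

universe u

open scoped TensorProduct
open Module

variable {K : Type u} [Field K]

/-- Coordinates on the basis `e_t, y, w, w², a, aba, b, bab, e_s, ba`. -/
def CA (_ : K) : Type u := Fin 10 → K

namespace CA

variable {q : K}

instance : AddCommGroup (CA q) := inferInstanceAs (AddCommGroup (Fin 10 → K))

instance : Module K (CA q) := inferInstanceAs (Module K (Fin 10 → K))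

instance : FiniteDimensional K (CA q) := inferInstanceAs (FiniteDimensional K (Fin 10 → K))

def ct : CA q →ₗ[K] K := LinearMap.proj (φ := fun _ : Fin 10 => K) 0
def cy : CA q →ₗ[K] K := LinearMap.proj (φ := fun _ : Fin 10 => K) 1
def cw : CA q →ₗ[K] K := LinearMap.proj (φ := fun _ : Fin 10 => K) 2
def cww : CA q →ₗ[K] K := LinearMap.proj (φ := fun _ : Fin 10 => K) 3
def ca : CA q →ₗ[K] K := LinearMap.proj (φ := fun _ : Fin 10 => K) 4
def caba : CA q →ₗ[K] K := LinearMap.proj (φ := fun _ : Fin 10 => K) 5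
def cb : CA q →ₗ[K] K := LinearMap.proj (φ := fun _ : Fin 10 => K) 6
def cbab : CA q →ₗ[K] K := LinearMap.proj (φ := fun _ : Fin 10 => K) 7
def cs : CA q →ₗ[K] K := LinearMap.proj (φ := fun _ : Fin 10 => K) 8
def cn : CA q →ₗ[K] K := LinearMap.proj (φ := fun _ : Fin 10 => K) 9

def el (t y w ww a aba b bab s n : K) : CA q := ![t, y, w, ww, a, aba, b, bab, s, n]

section

variable (t y w ww a aba b bab s n : K)

@[simp] theorem ct_el : ct (el t y w ww a aba b bab s n : CA q) = t := rfl
@[simp] theorem cy_el : cy (el t y w ww a aba b bab s n : CA q) = y := rfl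
@[simp] theorem cw_el : cw (el t y w ww a aba b bab s n : CA q) = w := rfl
@[simp] theorem cww_el : cww (el t y w ww a aba b bab s n : CA q) = ww := rfl
@[simp] theorem ca_el : ca (el t y w ww a aba b bab s n : CA q) = a := rfl
@[simp] theorem caba_el : caba (el t y w ww a aba b bab s n : CA q) = aba := rfl
@[simp] theorem cb_el : cb (el t y w ww a aba b bab s n : CA q) = b := rfl
@[simp] theorem cbab_el : cbab (el t y w ww a aba b bab s n : CA q) = bab := rfl
@[simp] theorem cs_el : cs (el t y w ww a aba b bab s n : CA q) = s := rfl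
@[simp] theorem cn_el : cn (el t y w ww a aba b bab s n : CA q) = n := rfl

end

theorem ext {x z : CA q} (ht : ct x = ct z) (hy : cy x = cy z) (hw : cw x = cw z)
    (hww : cww x = cww z) (ha : ca x = ca z) (haba : caba x = caba z) (hb : cb x = cb z)
    (hbab : cbab x = cbab z) (hs : cs x = cs z) (hn : cn x = cn z) : x = z := by
  funext i
  fin_cases i
  exacts [ht, hy, hw, hww, ha, haba, hb, hbab, hs, hn]

theorem ext_iff {x z : CA q} : x = z ↔ ct x = ct z ∧ cy x = cy z ∧ cw x = cw z ∧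
    cww x = cww z ∧ ca x = ca z ∧ caba x = caba z ∧ cb x = cb z ∧ cbab x = cbab z ∧
    cs x = cs z ∧ cn x = cn z :=
  ⟨by rintro rfl; simp, fun ⟨h0, h1, h2, h3, h4, h5, h6, h7, h8, h9⟩ =>
    ext h0 h1 h2 h3 h4 h5 h6 h7 h8 h9⟩

instance : One (CA q) := ⟨el 1 0 0 0 0 0 0 0 1 0⟩

instance : Mul (CA q) := ⟨fun x z => el
  (ct x * ct z)
  (ct x * cy z + cy x * ct z)
  (ct x * cw z + cw x * ct z + ca x * cb z)
  (ct x * cww z + cww x * ct z + ca x * cbab z + caba x * cb z + cw x * cw z + cy x * cw z -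
      q * (cw x * cy z))
  (ct x * ca z + ca x * cs z)
  (ct x * caba z + caba x * cs z + ca x * cn z + cw x * ca z + cy x * ca z)
  (cs x * cb z + cb x * ct z)
  (cs x * cbab z + cbab x * ct z + cn x * cb z + cb x * cw z - q * (cb x * cy z))
  (cs x * cs z)
  (cs x * cn z + cn x * cs z + cb x * ca z)⟩

section

variable (x z : CA q)

@[simp] theorem ct_mul : ct (x * z) =
    ct x * ct z := rfl
@[simp] theorem cy_mul : cy (x * z) =
    ct x * cy z + cy x * ct z := rfl
@[simp] theorem cw_mul : cw (x * z) =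
    ct x * cw z + cw x * ct z + ca x * cb z := rfl
@[simp] theorem cww_mul : cww (x * z) =
    ct x * cww z + cww x * ct z + ca x * cbab z + caba x * cb z + cw x * cw z + cy x * cw z -
      q * (cw x * cy z) := rfl
@[simp] theorem ca_mul : ca (x * z) =
    ct x * ca z + ca x * cs z := rfl
@[simp] theorem caba_mul : caba (x * z) =
    ct x * caba z + caba x * cs z + ca x * cn z + cw x * ca z + cy x * ca z := rfl
@[simp] theorem cb_mul : cb (x * z) =
    cs x * cb z + cb x * ct z := rfl
@[simp] theorem cbab_mul : cbab (x * z) =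
    cs x * cbab z + cbab x * ct z + cn x * cb z + cb x * cw z - q * (cb x * cy z) := rfl
@[simp] theorem cs_mul : cs (x * z) =
    cs x * cs z := rfl
@[simp] theorem cn_mul : cn (x * z) =
    cs x * cn z + cn x * cs z + cb x * ca z := rfl

end

@[simp] theorem ct_one : ct (1 : CA q) = 1 := rfl
@[simp] theorem cy_one : cy (1 : CA q) = 0 := rfl
@[simp] theorem cw_one : cw (1 : CA q) = 0 := rfl
@[simp] theorem cww_one : cww (1 : CA q) = 0 := rfl
@[simp] theorem ca_one : ca (1 : CA q) = 0 := rfl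
@[simp] theorem caba_one : caba (1 : CA q) = 0 := rfl
@[simp] theorem cb_one : cb (1 : CA q) = 0 := rfl
@[simp] theorem cbab_one : cbab (1 : CA q) = 0 := rfl
@[simp] theorem cs_one : cs (1 : CA q) = 1 := rfl
@[simp] theorem cn_one : cn (1 : CA q) = 0 := rfl

instance : Ring (CA q) :=
  { (inferInstance : AddCommGroup (CA q)), (inferInstance : One (CA q)),
    (inferInstance : Mul (CA q)) with
    left_distrib := fun a b c => by apply ext <;> simp <;> ring
    right_distrib := fun a b c => by apply ext <;> simp <;> ring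
    zero_mul := fun a => by apply ext <;> simp
    mul_zero := fun a => by apply ext <;> simp
    mul_assoc := fun a b c => by apply ext <;> simp <;> ring
    one_mul := fun a => by apply ext <;> simp
    mul_one := fun a => by apply ext <;> simp }

instance : Algebra K (CA q) :=
  Algebra.ofModule (fun c x y => by apply ext <;> simp <;> ring)
    fun c x y => by apply ext <;> simp <;> ring

def et : CA q := el 1 0 0 0 0 0 0 0 0 0
def ey : CA q := el 0 1 0 0 0 0 0 0 0 0
def ew : CA q := el 0 0 1 0 0 0 0 0 0 0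
def eww : CA q := el 0 0 0 1 0 0 0 0 0 0
def ea : CA q := el 0 0 0 0 1 0 0 0 0 0
def eaba : CA q := el 0 0 0 0 0 1 0 0 0 0
def eb : CA q := el 0 0 0 0 0 0 1 0 0 0
def ebab : CA q := el 0 0 0 0 0 0 0 1 0 0
def es : CA q := el 0 0 0 0 0 0 0 0 1 0
def en : CA q := el 0 0 0 0 0 0 0 0 0 1

@[simp] theorem ct_et : ct (et : CA q) = 1 := rfl
@[simp] theorem cy_et : cy (et : CA q) = 0 := rfl
@[simp] theorem cw_et : cw (et : CA q) = 0 := rfl
@[simp] theorem cww_et : cww (et : CA q) = 0 := rfl
@[simp] theorem ca_et : ca (et : CA q) = 0 := rfl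
@[simp] theorem caba_et : caba (et : CA q) = 0 := rfl
@[simp] theorem cb_et : cb (et : CA q) = 0 := rfl
@[simp] theorem cbab_et : cbab (et : CA q) = 0 := rfl
@[simp] theorem cs_et : cs (et : CA q) = 0 := rfl
@[simp] theorem cn_et : cn (et : CA q) = 0 := rfl
@[simp] theorem ct_ey : ct (ey : CA q) = 0 := rfl
@[simp] theorem cy_ey : cy (ey : CA q) = 1 := rfl
@[simp] theorem cw_ey : cw (ey : CA q) = 0 := rfl
@[simp] theorem cww_ey : cww (ey : CA q) = 0 := rfl
@[simp] theorem ca_ey : ca (ey : CA q) = 0 := rfl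
@[simp] theorem caba_ey : caba (ey : CA q) = 0 := rfl
@[simp] theorem cb_ey : cb (ey : CA q) = 0 := rfl
@[simp] theorem cbab_ey : cbab (ey : CA q) = 0 := rfl
@[simp] theorem cs_ey : cs (ey : CA q) = 0 := rfl
@[simp] theorem cn_ey : cn (ey : CA q) = 0 := rfl
@[simp] theorem ct_ew : ct (ew : CA q) = 0 := rfl
@[simp] theorem cy_ew : cy (ew : CA q) = 0 := rfl
@[simp] theorem cw_ew : cw (ew : CA q) = 1 := rfl
@[simp] theorem cww_ew : cww (ew : CA q) = 0 := rfl
@[simp] theorem ca_ew : ca (ew : CA q) = 0 := rfl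
@[simp] theorem caba_ew : caba (ew : CA q) = 0 := rfl
@[simp] theorem cb_ew : cb (ew : CA q) = 0 := rfl
@[simp] theorem cbab_ew : cbab (ew : CA q) = 0 := rfl
@[simp] theorem cs_ew : cs (ew : CA q) = 0 := rfl
@[simp] theorem cn_ew : cn (ew : CA q) = 0 := rfl
@[simp] theorem ct_eww : ct (eww : CA q) = 0 := rfl
@[simp] theorem cy_eww : cy (eww : CA q) = 0 := rfl
@[simp] theorem cw_eww : cw (eww : CA q) = 0 := rfl
@[simp] theorem cww_eww : cww (eww : CA q) = 1 := rfl
@[simp] theorem ca_eww : ca (eww : CA q) = 0 := rfl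
@[simp] theorem caba_eww : caba (eww : CA q) = 0 := rfl
@[simp] theorem cb_eww : cb (eww : CA q) = 0 := rfl
@[simp] theorem cbab_eww : cbab (eww : CA q) = 0 := rfl
@[simp] theorem cs_eww : cs (eww : CA q) = 0 := rfl
@[simp] theorem cn_eww : cn (eww : CA q) = 0 := rfl
@[simp] theorem ct_ea : ct (ea : CA q) = 0 := rfl
@[simp] theorem cy_ea : cy (ea : CA q) = 0 := rfl
@[simp] theorem cw_ea : cw (ea : CA q) = 0 := rfl
@[simp] theorem cww_ea : cww (ea : CA q) = 0 := rfl
@[simp] theorem ca_ea : ca (ea : CA q) = 1 := rfl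
@[simp] theorem caba_ea : caba (ea : CA q) = 0 := rfl
@[simp] theorem cb_ea : cb (ea : CA q) = 0 := rfl
@[simp] theorem cbab_ea : cbab (ea : CA q) = 0 := rfl
@[simp] theorem cs_ea : cs (ea : CA q) = 0 := rfl
@[simp] theorem cn_ea : cn (ea : CA q) = 0 := rfl
@[simp] theorem ct_eaba : ct (eaba : CA q) = 0 := rfl
@[simp] theorem cy_eaba : cy (eaba : CA q) = 0 := rfl
@[simp] theorem cw_eaba : cw (eaba : CA q) = 0 := rfl
@[simp] theorem cww_eaba : cww (eaba : CA q) = 0 := rfl
@[simp] theorem ca_eaba : ca (eaba : CA q) = 0 := rfl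
@[simp] theorem caba_eaba : caba (eaba : CA q) = 1 := rfl
@[simp] theorem cb_eaba : cb (eaba : CA q) = 0 := rfl
@[simp] theorem cbab_eaba : cbab (eaba : CA q) = 0 := rfl
@[simp] theorem cs_eaba : cs (eaba : CA q) = 0 := rfl
@[simp] theorem cn_eaba : cn (eaba : CA q) = 0 := rfl
@[simp] theorem ct_eb : ct (eb : CA q) = 0 := rfl
@[simp] theorem cy_eb : cy (eb : CA q) = 0 := rfl
@[simp] theorem cw_eb : cw (eb : CA q) = 0 := rfl
@[simp] theorem cww_eb : cww (eb : CA q) = 0 := rfl
@[simp] theorem ca_eb : ca (eb : CA q) = 0 := rfl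
@[simp] theorem caba_eb : caba (eb : CA q) = 0 := rfl
@[simp] theorem cb_eb : cb (eb : CA q) = 1 := rfl
@[simp] theorem cbab_eb : cbab (eb : CA q) = 0 := rfl
@[simp] theorem cs_eb : cs (eb : CA q) = 0 := rfl
@[simp] theorem cn_eb : cn (eb : CA q) = 0 := rfl
@[simp] theorem ct_ebab : ct (ebab : CA q) = 0 := rfl
@[simp] theorem cy_ebab : cy (ebab : CA q) = 0 := rfl
@[simp] theorem cw_ebab : cw (ebab : CA q) = 0 := rfl
@[simp] theorem cww_ebab : cww (ebab : CA q) = 0 := rfl
@[simp] theorem ca_ebab : ca (ebab : CA q) = 0 := rfl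
@[simp] theorem caba_ebab : caba (ebab : CA q) = 0 := rfl
@[simp] theorem cb_ebab : cb (ebab : CA q) = 0 := rfl
@[simp] theorem cbab_ebab : cbab (ebab : CA q) = 1 := rfl
@[simp] theorem cs_ebab : cs (ebab : CA q) = 0 := rfl
@[simp] theorem cn_ebab : cn (ebab : CA q) = 0 := rfl
@[simp] theorem ct_es : ct (es : CA q) = 0 := rfl
@[simp] theorem cy_es : cy (es : CA q) = 0 := rfl
@[simp] theorem cw_es : cw (es : CA q) = 0 := rfl
@[simp] theorem cww_es : cww (es : CA q) = 0 := rfl
@[simp] theorem ca_es : ca (es : CA q) = 0 := rfl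
@[simp] theorem caba_es : caba (es : CA q) = 0 := rfl
@[simp] theorem cb_es : cb (es : CA q) = 0 := rfl
@[simp] theorem cbab_es : cbab (es : CA q) = 0 := rfl
@[simp] theorem cs_es : cs (es : CA q) = 1 := rfl
@[simp] theorem cn_es : cn (es : CA q) = 0 := rfl
@[simp] theorem ct_en : ct (en : CA q) = 0 := rfl
@[simp] theorem cy_en : cy (en : CA q) = 0 := rfl
@[simp] theorem cw_en : cw (en : CA q) = 0 := rfl
@[simp] theorem cww_en : cww (en : CA q) = 0 := rfl
@[simp] theorem ca_en : ca (en : CA q) = 0 := rfl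
@[simp] theorem caba_en : caba (en : CA q) = 0 := rfl
@[simp] theorem cb_en : cb (en : CA q) = 0 := rfl
@[simp] theorem cbab_en : cbab (en : CA q) = 0 := rfl
@[simp] theorem cs_en : cs (en : CA q) = 0 := rfl
@[simp] theorem cn_en : cn (en : CA q) = 1 := rfl

end CA

end

end Crest.Agent.R186
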