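import Crest.Agent.R186.CAlg

/-!
The properties of the algebra `C`.
-/

set_option autoImplicit false

namespace Crest.Agent.R186

noncomputable section

universe u

open scoped TensorProduct
open Module

variable {K : Type u} [Field K]

def qn (q : K) (j : ℕ) : K := ∑ i ∈ Finset.range j, q ^ i

theorem qn_succ (q : K) (j : ℕ) : qn q (j + 1) = q * qn q j + 1 := geom_sum_succ

theorem qn_one (q : K) : qn q 1 = 1 := by simp [qn]

namespace CA

variable {q : K}

def χ : CA q →ₐ[K] K := AlgHom.ofLinearMap cs rfl fun _ _ => rfl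

@[simp] theorem χ_apply (x : CA q) : χ x = cs x := rfl

def ell (j : ℕ) : CA q := el 0 (qn q (j + 1)) (-1) 0 0 0 0 0 0 0

def ηf (x z : CA q) : CA q ⊗[K] CA q :=
  (cy x * ca z) • (eaba ⊗ₜ es) + (cb x * cy z) • (es ⊗ₜ ebab) -
    ((1 + q) * (cb x * cy z)) • (en ⊗ₜ eb) +
    (cy x * cw z - (1 + q) * (cw x * cy z)) • (eaba ⊗ₜ eb) + (cw x * cy z) • (ea ⊗ₜ ebab) -
    (cn x * cn z + cb x * caba z + cbab x * ca z) • (en ⊗ₜ en) -
    (cw x * caba z + cww x * ca z + caba x * cn z) • (eaba ⊗ₜ en) -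
    (cn x * cbab z + cb x * cww z + cbab x * cw z - (1 + q) * (cbab x * cy z)) • (en ⊗ₜ ebab) -
    (cw x * cww z + cww x * cw z + caba x * cbab z - (1 + q) * (cww x * cy z)) • (eaba ⊗ₜ ebab)

def η : CA q →ₗ[K] CA q →ₗ[K] CA q ⊗[K] CA q :=
  LinearMap.mk₂ K ηf (fun a b c => by simp only [ηf, map_add]; module)
    (fun a b c => by simp only [ηf, map_smul, smul_eq_mul]; module)
    (fun a b c => by simp only [ηf, map_add]; module)
    (fun a b c => by simp only [ηf, map_smul, smul_eq_mul]; module)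

theorem η_apply (x z : CA q) : η x z = ηf x z := rfl

section

variable (c : CA q)

theorem mul_eaba : c * eaba = ct c • eaba := by apply ext <;> simp
theorem mul_es : c * es = cs c • es + ca c • ea + caba c • eaba + cn c • en := by
  apply ext <;> simp
theorem mul_en : c * en = cs c • en + ca c • eaba := by apply ext <;> simp
theorem mul_ea : c * ea = ct c • ea + cb c • en + (cw c + cy c) • eaba := by apply ext <;> simp
theorem es_mul : es * c = cs c • es + cb c • eb + cbab c • ebab + cn c • en := by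
  apply ext <;> simp
theorem ebab_mul : ebab * c = ct c • ebab := by apply ext <;> simp
theorem eb_mul : eb * c = ct c • eb + ca c • en + (cw c - q * cy c) • ebab := by
  apply ext <;> simp
theorem en_mul : en * c = cs c • en + cb c • ebab := by apply ext <;> simp

end

theorem smul_tmul_eq (c x y : CA q) : c • (x ⊗ₜ[K] y) = (c * x) ⊗ₜ y := rfl

theorem cocycle (c c₀ c₁ : CA q) : c • η c₀ c₁ + η c (c₀ * c₁) =
    η (c * c₀) c₁ + (LinearMap.mulRight K c₁).lTensor (CA q) (η c c₀) := by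
  simp only [η_apply, ηf, smul_add, smul_sub, smul_comm c, smul_tmul_eq, map_add, map_sub,
    map_smul, LinearMap.lTensor_tmul, LinearMap.mulRight_apply, mul_eaba, mul_es, mul_en, mul_ea,
    es_mul, ebab_mul, eb_mul, en_mul, TensorProduct.add_tmul, TensorProduct.tmul_add,
    ← TensorProduct.smul_tmul', TensorProduct.tmul_smul, ct_mul, cy_mul, cw_mul, cww_mul, ca_mul,
    caba_mul, cb_mul, cbab_mul, cs_mul, cn_mul]
  module

def κ : CA q →ₗ[K] CA q := cy.smulRight ey

theorem mulη (c₀ c₁ : CA q) :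
    LinearMap.mul' K (CA q) (η c₀ c₁) + κ (c₀ * c₁) = κ c₀ * c₁ + c₀ * κ c₁ := by
  apply ext <;> simp [η_apply, ηf, κ] <;> ring

variable (hq : q ≠ 0) (hn : ∀ j, qn q (j + 1) ≠ 0)

include hn in
theorem ℓex (j : ℕ) (p : CA q) (h : p * et = p) (h' : p * ell j = 0) :
    ∃ c, c * ell (j + 1) = p := by
  have h1 := hn (j + 1)
  have h2 := hn (j + 2)
  simp only [ext_iff, ell] at h h'
  simp at h h'
  obtain ⟨ha, haba, hs, hn'⟩ := h
  obtain ⟨-, ht, hww, hb⟩ := h'
  have hb' : cb p = 0 := by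
    refine (mul_eq_zero.1 (show qn q (j + 1 + 1) * cb p = 0 from ?_)).resolve_left h1
    rw [qn_succ]; linear_combination -hb
  refine ⟨el (-cw p) (-cww p) 0 0 0 0 (-cbab p / qn q (j + 2 + 1)) 0 0 0, ?_⟩
  apply ext <;> simp [ell, ← ha, ← haba, ← hs, ← hn', ht, hb']
  · rw [qn_succ]; linear_combination hww
  · field_simp
    rw [qn_succ q (j + 2)]; ring

include hn in
theorem Jex (p p' : CA q) (h : p * et = p) (h' : p' * et = p') (h'' : p * ea + p' = 0) :
    p' = 0 ∧ ∃ c, c * ell 0 = p := by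
  have h2 := hn 1
  simp only [ext_iff] at h h' h''
  simp at h h' h''
  obtain ⟨ha, haba, hs, hn'⟩ := h
  obtain ⟨ha', haba', hs', hn''⟩ := h'
  obtain ⟨h0, h1, h3, h4, h5, h6, h7, h8, h9, h10⟩ := h''
  rw [← ha', add_zero] at h5
  rw [← haba', add_zero] at h6
  rw [← hn'', add_zero] at h10
  refine ⟨by apply ext <;> simp [h0, h1, h3, h4, h7, h8, h9, ← ha', ← haba', ← hn''],
    el (-cw p) (-cww p) 0 0 0 0 (-cbab p / qn q (1 + 1)) 0 0 0, ?_⟩
  apply ext <;> simp [ell, ← ha, ← haba, ← hs, ← hn', h5, h10, qn_one]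
  · linear_combination -h6
  · field_simp
    rw [qn_succ q 1, qn_one]; ring

theorem Jsurj (c : CA q) (h : χ c = 0) :
    ∃ p p' : CA q, p * et = p ∧ p' * et = p' ∧ p * ea + p' = c := by
  refine ⟨el (ca c) 0 (caba c) 0 0 0 (cn c) 0 0 0,
    el (ct c) (cy c) (cw c) (cww c) 0 0 (cb c) (cbab c) 0 0, ?_, ?_, ?_⟩
  · apply ext <;> simp
  · apply ext <;> simp
  · apply ext <;> simp
    exact h.symm

theorem inj' (c : CA q) (h : ea * c = 0) (h' : et * c = 0) : c = 0 := by
  simp only [ext_iff] at h h' ⊢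
  simp at h h' ⊢
  tauto

theorem αinj (c : CA q) (h : c * eb = 0) (h' : c * et = 0) : c = 0 := by
  simp only [ext_iff] at h h' ⊢
  simp at h h' ⊢
  tauto

def em : CA q := el 0 1 q 0 0 0 0 0 0 0

include hq in
theorem αex (p p' : CA q) (h : p * et = p) (h' : p' * et = p') (h'' : p * em = 0) :
    ∃ c, c * eb = p ∧ c * et = p' := by
  simp only [ext_iff, em] at h h' h''
  simp at h h' h''
  obtain ⟨ha, haba, hs, hn'⟩ := h
  obtain ⟨ha', haba', hs', hn''⟩ := h'
  obtain ⟨h0, -, h1, -⟩ := h''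
  have hy : cy p = 0 := by
    refine (mul_eq_zero.1 (show q * cy p = 0 from ?_)).resolve_left hq
    linear_combination h1
  refine ⟨el (ct p') (cy p') (cw p') (cww p') (cw p) (cww p) (cb p') (cbab p') (cb p) (cbab p),
    ?_, ?_⟩
  · apply ext <;> simp [← ha, ← haba, ← hs, ← hn', h0, hy]
  · apply ext <;> simp [← ha', ← haba', ← hs', ← hn'']

include hq in
theorem βex (p p' : CA q) (h : p * et = p) (h' : p' * et = p')
    (h'' : ∀ c, cbab (c * p) + cww (c * p') = 0) :
    p' = 0 ∧ ∃ p'', p'' * et = p'' ∧ p'' * em = p := by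
  have h0 := h'' es
  have h1 := h'' ebab
  have h2 := h'' en
  have h3 := h'' eb
  have h4 := h'' et
  have h5 := h'' eww
  have h6 := h'' ea
  have h7 := h'' eaba
  have h8 := h'' ew
  have h9 := h'' ey
  simp only [ext_iff] at h h'
  simp at h h' h0 h1 h2 h3 h4 h5 h6 h7 h8 h9
  obtain ⟨ha, haba, hs, hn'⟩ := h
  obtain ⟨ha', haba', hs', hn''⟩ := h'
  have hy : cy p' = 0 := by
    refine (mul_eq_zero.1 (show q * cy p' = 0 from ?_)).resolve_left hq
    linear_combination h9 - h8
  refine ⟨by apply ext <;> simp [h4, h5, h6, h7, h9, hy, ← ha', ← haba', ← hs', ← hn''],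
    el (cy p) (cww p / q) 0 0 0 0 0 0 0 0, by apply ext <;> simp, ?_⟩
  apply ext <;> simp [em, ← ha, ← haba, ← hs, ← hn', h0, h1, h2, hq]
  linear_combination -h3

theorem basis_sum (c : CA q) : c = ct c • et + cy c • ey + cw c • ew + cww c • eww + ca c • ea +
    caba c • eaba + cb c • eb + cbab c • ebab + cs c • es + cn c • en := by
  apply ext <;> simp

include hq in
theorem γsurj (φ : Dual K (CA q)) : ∃ p p' : CA q, p * et = p ∧ p' * et = p' ∧
    ∀ c, cbab (c * p) + cww (c * p') = φ c := by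
  refine ⟨el (φ ebab) 0 (φ eb) 0 0 0 (φ en) (φ es) 0 0,
    el (φ eww) ((φ ey - φ ew) / q) (φ ey) (φ et) 0 0 (φ eaba) (φ ea) 0 0,
    by apply ext <;> simp, by apply ext <;> simp, fun c => ?_⟩
  conv_rhs => rw [basis_sum c]
  simp
  field_simp
  ring

def cd : CD K (CA q) where
  χ := χ
  t := et
  a := ea
  b := eb
  m := em
  ℓ := ell
  f₁ := cbab
  f₂ := cww
  tt := by apply ext <;> simp
  χt := rfl
  χa := rfl
  ℓt j := by apply ext <;> simp [ell]
  tℓ j := by apply ext <;> simp [ell]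
  ℓℓ j := by
    apply ext <;> simp [ell]
    rw [qn_succ q (j + 1)]; ring
  ℓex := ℓex hn
  ℓa := by apply ext <;> simp [ell, qn_one]
  Jex := Jex hn
  Jsurj := Jsurj
  inj := inj'
  bt := by apply ext <;> simp
  mt := by apply ext <;> simp [em]
  bm := by apply ext <;> simp [em]
  αinj := αinj
  αex := αex hq
  γβ x := by simp [em]; ring
  βex := βex hq
  γsurj := γsurj hq
  η := η
  κ := κ
  cocycle := cocycle
  mulη := mulη
  θ := caba
  z := eaba
  s := es
  θℓ c := by simp [ell, qn_one]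
  θz := rfl
  χs := rfl
  κa := by simp [κ]
  ηℓa := by simp [η_apply, ηf, ell, qn_one]

/-- The semisimple quotient of `C`. -/
def πC : CA q →ₐ[K] K × K :=
  AlgHom.ofLinearMap (ct.prod cs) rfl fun _ _ => rfl

def deg (k : ℕ) : Submodule K (CA q) where
  carrier := {x | (0 < k → ct x = 0 ∧ cs x = 0) ∧ (1 < k → ca x = 0 ∧ cb x = 0) ∧
    (2 < k → cy x = 0 ∧ cw x = 0 ∧ cn x = 0) ∧ (3 < k → caba x = 0 ∧ cbab x = 0) ∧
    (4 < k → cww x = 0)}
  add_mem' := by
    rintro a b ⟨h0, h1, h2, h3, h4⟩ ⟨g0, g1, g2, g3, g4⟩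
    exact ⟨fun h => by simp [h0 h, g0 h], fun h => by simp [h1 h, g1 h],
      fun h => by simp [h2 h, g2 h], fun h => by simp [h3 h, g3 h], fun h => by simp [h4 h, g4 h]⟩
  zero_mem' := by simp
  smul_mem' := by
    rintro c a ⟨h0, h1, h2, h3, h4⟩
    exact ⟨fun h => by simp [h0 h], fun h => by simp [h1 h], fun h => by simp [h2 h],
      fun h => by simp [h3 h], fun h => by simp [h4 h]⟩

theorem nk_πC : NK (πC : CA q →ₐ[K] K × K) := by
  refine ⟨fun x => ⟨el x.1 0 0 0 0 0 0 0 x.2 0, rfl⟩, 6, ?_⟩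
  have key : ∀ k : ℕ, LinearMap.ker (πC : CA q →ₐ[K] K × K).toLinearMap ^ (k + 1) ≤ deg k := by
    intro k
    induction k with
    | zero => intro x _; simp [deg]
    | succ k ih =>
      rw [pow_succ, Submodule.mul_le]
      intro x hx z hz
      have hx0 : x ∈ LinearMap.ker (πC : CA q →ₐ[K] K × K).toLinearMap := by
        have : LinearMap.ker (πC : CA q →ₐ[K] K × K).toLinearMap ^ (k + 1) ≤
            LinearMap.ker (πC : CA q →ₐ[K] K × K).toLinearMap := by
          rw [pow_succ, Submodule.mul_le]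
          intro a _ b hb
          exact (map_mul πC a b).trans (by rw [show πC b = 0 from hb, mul_zero])
        exact this hx
      obtain ⟨h0, h1, h2, h3, h4⟩ := ih hx
      have xt : ct x = 0 := congrArg Prod.fst (show πC x = 0 from hx0)
      have xs : cs x = 0 := congrArg Prod.snd (show πC x = 0 from hx0)
      have zt : ct z = 0 := congrArg Prod.fst (show πC z = 0 from hz)
      have zs : cs z = 0 := congrArg Prod.snd (show πC z = 0 from hz)
      exact ⟨fun h => by simp [xt, xs], fun h => by simp [xt, xs, zt, zs],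
        fun h => by simp [xt, xs, zt, zs, h1 (by omega)],
        fun h => by simp [xt, xs, zt, zs, h1 (by omega), h2 (by omega)],
        fun h => by simp [xt, xs, zt, zs, h1 (by omega), h2 (by omega), h3 (by omega)]⟩
  rw [Submodule.zero_eq_bot, eq_bot_iff]
  intro x hx
  obtain ⟨h0, h1, h2, h3, h4⟩ := key 5 hx
  exact ext (h0 (by omega)).1 (h2 (by omega)).1 (h2 (by omega)).2.1 (h4 (by omega))
    (h1 (by omega)).1 (h3 (by omega)).1 (h1 (by omega)).2 (h3 (by omega)).2 (h0 (by omega)).2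
    (h2 (by omega)).2.2

theorem abab : cww (ea * eb * ea * eb : CA q) = 1 := by simp

end CA

end

end Crest.Agent.R186
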