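import Crest.Agent.R186.Sym
import Crest.Prelude.Def_Tilting

/-!
The endomorphism algebra of `A × M` and the four statements that follow from `TData`.
-/

set_option autoImplicit false

namespace Crest.Agent.R186

noncomputable section

universe u

open CategoryTheory Crest.AlgebraR

/-! ### Consequences of a coresolution by a projective-injective module -/

section CD

variable {K Γ : Type u} [Field K] [Ring Γ] [Algebra K Γ]

variable (K Γ) in
/-- A coresolution of the regular module by sums of a projective-injective module `W`, none of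
whose steps splits, and a proper left ideal that annihilates no element of `W`. -/
structure CData where
  W : Mod K Γ
  pj : PJ Γ W
  inj : Module.Injective Γ W
  C : ℕ → Mod K Γ
  I : ℕ → Mod K Γ
  ι : ∀ n, C n →ₗ[Γ] I n
  π : ∀ n, I n →ₗ[Γ] C (n + 1)
  ses : ∀ n, SES (ι n) (π n)
  e0 : Γ ≃ₗ[Γ] C 0
  eI : ∀ n, ∃ k : ℕ, Nonempty (I n ≃ₗ[Γ] (Fin k → W))
  nsplit : ∀ n, ¬ ∃ r : I n →ₗ[Γ] C n, ∀ x, r (ι n x) = x
  J : Ideal Γ
  ne : J ≠ ⊤
  ann : ∀ w : W, (∀ γ ∈ J, γ • w = 0) → w = 0

namespace CData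

variable (D : CData K Γ)

theorem thruI (n : ℕ) : Thru D.W (LinearMap.id : D.I n →ₗ[Γ] D.I n) := by
  obtain ⟨k, ⟨e⟩⟩ := D.eI n
  exact (Thru.pi Thru.refl).equiv e

theorem pjI (n : ℕ) : PJ Γ (D.I n) := (D.thruI n).trans D.pj

theorem projI (n : ℕ) : Module.Projective Γ (D.I n) := (D.pjI n).projective

theorem injI (n : ℕ) : Module.Injective Γ (D.I n) := (D.thruI n).injective D.inj

theorem injObj (n : ℕ) : Injective (ModuleCat.of Γ (D.I n)) :=
  have := D.injI n
  Module.injective_object_of_injective_module Γ _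

theorem projObj (n : ℕ) : Projective (ModuleCat.of Γ (D.I n)) :=
  have := D.projI n
  inferInstance

theorem not_inj (n : ℕ) : ¬ Module.Injective Γ (D.C n) := fun h => by
  obtain ⟨r, hr⟩ := h.out (D.ι n) (D.ses n).inj LinearMap.id
  exact D.nsplit n ⟨r, hr⟩

theorem not_proj (n : ℕ) : ¬ Module.Projective Γ (D.C (n + 1)) := fun h => by
  obtain ⟨s, hs⟩ := Module.projective_lifting_property (D.π n) LinearMap.id (D.ses n).surj
  obtain ⟨k, hk⟩ := (D.ses n).lift (LinearMap.id - s ∘ₗ D.π n) fun y => by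
    have := LinearMap.congr_fun hs (D.π n y)
    simp only [LinearMap.comp_apply, LinearMap.id_apply] at this
    simp [this]
  refine D.nsplit n ⟨k, fun x => (D.ses n).inj ?_⟩
  have := LinearMap.congr_fun hk (D.ι n x)
  simpa [(D.ses n).comp] using this

theorem not_injDim (m n : ℕ) : ¬ HasInjectiveDimensionLT (ModuleCat.of Γ (D.C n)) (m + 1) := by
  induction m generalizing n with
  | zero =>
    intro h
    have : Injective (ModuleCat.of Γ (D.C n)) := injective_iff_hasInjectiveDimensionLT_one.2 h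
    exact D.not_inj n (Module.injective_module_of_injective_object Γ _)
  | succ m ih =>
    intro h
    exact ih (n + 1)
      (((D.ses n).shortExact.hasInjectiveDimensionLT_X₃_iff m (D.injObj n)).2 h)

include D in
theorem ni (n : ℕ) : ¬ HasInjectiveDimensionLT (ModuleCat.of Γ Γ) n := fun h => by
  have := hasInjectiveDimensionLT_of_iso D.e0.toModuleIso n
  exact D.not_injDim n 0 (hasInjectiveDimensionLT_of_ge _ n _ n.le_succ)

theorem pd_le (n : ℕ) : HasProjectiveDimensionLT (ModuleCat.of Γ (D.C n)) (n + 1) := by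
  induction n with
  | zero =>
    have : Module.Projective Γ (D.C 0) := Module.Projective.of_equiv D.e0
    infer_instance
  | succ n ih => exact ((D.ses n).shortExact.hasProjectiveDimensionLT_X₃_iff n (D.projObj n)).2 ih

theorem pd_ge (n : ℕ) : ¬ HasProjectiveDimensionLT (ModuleCat.of Γ (D.C (n + 1))) (n + 1) := by
  induction n with
  | zero =>
    intro h
    have : Projective (ModuleCat.of Γ (D.C 1)) := projective_iff_hasProjectiveDimensionLT_one.2 h
    exact D.not_proj 0 ((IsProjective.iff_projective _).2 this)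
  | succ n ih =>
    intro h
    exact ih (((D.ses (n + 1)).shortExact.hasProjectiveDimensionLT_X₃_iff n (D.projObj _)).1 h)

include D in
theorem s0283 (n : ℕ) (hn : 1 ≤ n) : ∃ C : ModuleCat.{u} Γ, Module.Finite Γ C ∧
    projectiveDimension C = (n : WithBot ℕ∞) := by
  obtain ⟨n, rfl⟩ : ∃ m, n = m + 1 := ⟨n - 1, by omega⟩
  exact ⟨ModuleCat.of Γ (D.C (n + 1)), (D.C (n + 1)).finite,
    le_antisymm ((projectiveDimension_le_iff _ _).2 (D.pd_le _))
      ((projectiveDimension_ge_iff _ _).2 (D.pd_ge n))⟩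

def ε : Γ →ₗ[Γ] D.I 0 := D.ι 0 ∘ₗ D.e0.toLinearMap

def d (j : ℕ) : D.I j →ₗ[Γ] D.I (j + 1) := D.ι (j + 1) ∘ₗ D.π j

theorem ε_inj : Function.Injective D.ε := (D.ses 0).inj.comp D.e0.injective

theorem d_eq_zero {j : ℕ} (x : D.I j) : D.d j x = 0 ↔ ∃ y, D.ι j y = x := by
  constructor
  · intro h
    exact (D.ses j).exact x ((D.ses (j + 1)).inj (h.trans (map_zero _).symm))
  · rintro ⟨y, rfl⟩
    change D.ι (j + 1) (D.π j (D.ι j y)) = 0
    rw [(D.ses j).comp, map_zero]

theorem exact0 : Function.Exact D.ε (D.d 0) := fun x => by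
  rw [d_eq_zero]
  constructor
  · rintro ⟨y, rfl⟩
    exact ⟨D.e0.symm y, congrArg (D.ι 0) (D.e0.apply_symm_apply y)⟩
  · rintro ⟨y, rfl⟩
    exact ⟨D.e0 y, rfl⟩

theorem exactd (j : ℕ) : Function.Exact (D.d j) (D.d (j + 1)) := fun x => by
  rw [d_eq_zero]
  constructor
  · rintro ⟨y, rfl⟩
    obtain ⟨z, rfl⟩ := (D.ses j).surj y
    exact ⟨z, rfl⟩
  · rintro ⟨y, rfl⟩
    exact ⟨D.π j y, rfl⟩

include D in
theorem s0284 : ∃ (I : ℕ → ModuleCat.{u} Γ) (ε : Γ →ₗ[Γ] I 0) (d : ∀ j : ℕ, I j →ₗ[Γ] I (j + 1)),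
    Function.Injective ε ∧ Function.Exact ε (d 0) ∧ (∀ j, Function.Exact (d j) (d (j + 1))) ∧
    ∀ j, Module.Projective Γ (I j) ∧ Module.Injective Γ (I j) :=
  ⟨fun j => ModuleCat.of Γ (D.I j), D.ε, D.d, D.ε_inj, D.exact0, D.exactd,
    fun j => ⟨D.projI j, D.injI j⟩⟩

include D in
theorem s0282 : ∃ S : ModuleCat.{u} Γ, IsSimpleModule Γ S ∧
    ∀ i : ℕ, Subsingleton (Abelian.Ext S (ModuleCat.of Γ Γ) i) := by
  obtain ⟨m, hm, hJ⟩ := Ideal.exists_le_maximal D.J D.ne
  have h0 : rk K Γ (Γ ⧸ m) D.W 0 = 0 := rk0_of_hom fun φ => by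
    have h1 : φ (m.mkQ 1) = 0 := D.ann _ fun γ hγ => by
      rw [← map_smul, ← map_smul, smul_eq_mul, mul_one, Submodule.mkQ_apply,
        (Submodule.Quotient.mk_eq_zero _).2 (hJ hγ), map_zero]
    refine cancel_surj m.mkQ_surjective (LinearMap.ext_ring ?_)
    exact h1
  have h : ∀ i n, rk K Γ (Γ ⧸ m) (D.C n) i = 0 := by
    intro i
    induction i with
    | zero =>
      intro n
      have := (D.ses n).v₀ K (Γ ⧸ m)
      rwa [(D.thruI n).rk_post h0, nonpos_iff_eq_zero] at this
    | succ i ih =>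
      intro n
      have := (D.ses n).v₁ K (Γ ⧸ m) i
      rwa [ih, rk_inj (D.injI n), add_zero, nonpos_iff_eq_zero] at this
  refine ⟨ModuleCat.of Γ (Γ ⧸ m), isSimpleModule_iff_isCoatom.2 hm.out, fun i => ?_⟩
  have := rk_equiv_post (K := K) (U := Γ ⧸ m) (j := i) D.e0
  rw [h, nonpos_iff_eq_zero] at this
  exact subsingleton_of_rk this

theorem hom_exact {X Y Z W : Type u} [AddCommGroup X] [AddCommGroup Y] [AddCommGroup Z]
    [AddCommGroup W] [Module Γ X] [Module Γ Y] [Module Γ Z] [Module Γ W]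
    (hW : Module.Injective Γ W) {a : X →ₗ[Γ] Y} {b : Y →ₗ[Γ] Z} (h : Function.Exact a b) :
    Function.Exact (fun f : Z →ₗ[Γ] W => f ∘ₗ b) (fun f : Y →ₗ[Γ] W => f ∘ₗ a) := fun f => by
  constructor
  · intro hf
    exact inj_ext hW b f fun y hy => by
      obtain ⟨x, rfl⟩ := (h y).1 hy
      exact LinearMap.congr_fun hf x
  · rintro ⟨g, rfl⟩
    refine LinearMap.ext fun x => ?_
    change g (b (a x)) = 0
    rw [h.apply_apply_eq_zero, map_zero]

theorem selfOrth : IsSelfOrthogonal Γ D.W := fun i hi => by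
  obtain ⟨i, rfl⟩ : ∃ m, i = m + 1 := ⟨i - 1, by omega⟩
  exact subsingleton_of_rk (K := K) (rk_inj D.inj i)

theorem wak : IsWakamatsuTilting Γ D.W := by
  refine ⟨D.selfOrth, fun j => D.I j, inferInstance, inferInstance, D.ε, D.d,
    ⟨fun j => ?_, D.ε_inj, D.exact0, D.exactd⟩, fun g => ?_, hom_exact D.inj D.exact0,
    fun j => hom_exact D.inj (D.exactd j)⟩
  · obtain ⟨k, ⟨e⟩⟩ := D.eI j
    exact ⟨k, PUnit, inferInstance, inferInstance, ⟨LinearEquiv.prodUnique.trans e⟩⟩
  · obtain ⟨f, hf⟩ := D.inj.out D.ε D.ε_inj g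
    exact ⟨f, LinearMap.ext hf⟩

theorem not_tilting : ¬ IsTilting Γ D.W := by
  rintro ⟨-, -, C, _, _, ε, d, r, ⟨hadd, hε, h0, hd⟩, hr⟩
  have hinj : ∀ j, Injective (ModuleCat.of Γ (C j)) := fun j => by
    obtain ⟨n, Y, _, _, ⟨e⟩⟩ := hadd j
    have : Module.Injective Γ (C j) :=
      Thru.injective D.inj (((Thru.pi Thru.refl).equiv e).retract (LinearMap.inl Γ _ Y)
        (LinearMap.fst Γ _ Y) fun _ => rfl)
    exact Module.injective_object_of_injective_module Γ _
  have ses : ∀ j, SES (LinearMap.ker (d j)).subtype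
      ((d j).codRestrict (LinearMap.ker (d (j + 1))) fun x => (hd j).apply_apply_eq_zero x) :=
    fun j => ⟨Subtype.val_injective, fun t => Subtype.ext t.2,
      fun t ht => ⟨⟨t, congrArg Subtype.val ht⟩, rfl⟩, fun t => by
        obtain ⟨x, hx⟩ := (hd j t.1).1 t.2
        exact ⟨x, Subtype.ext hx⟩⟩
  have key : ∀ m j, r < j + m →
      HasInjectiveDimensionLT (ModuleCat.of Γ (LinearMap.ker (d j))) m := by
    intro m
    induction m with
    | zero =>
      intro j hj
      have := hr j hj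
      exact (ModuleCat.isZero_of_subsingleton _).hasInjectiveDimensionLT_zero
    | succ m ih =>
      intro j hj
      have := hinj j
      exact (ses j).shortExact.hasInjectiveDimensionLT_X₁ m (ih (j + 1) (by omega))
        (hasInjectiveDimensionLT_of_ge (ModuleCat.of Γ (C j)) 1 _ (by omega))
  have := key (r + 1) 0 (by omega)
  let e : Γ ≃ₗ[Γ] LinearMap.ker (d 0) := LinearEquiv.ofBijective
    (ε.codRestrict _ fun x => h0.apply_apply_eq_zero x)
    ⟨fun x y hxy => hε (congrArg Subtype.val hxy), fun t => by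
      obtain ⟨x, hx⟩ := (h0 t.1).1 t.2
      exact ⟨x, Subtype.ext hx⟩⟩
  exact D.ni (r + 1) (hasInjectiveDimensionLT_of_iso e.symm.toModuleIso _)

include D in
theorem s0285 : ∃ (W : Type u) (_ : AddCommGroup W) (_ : Module Γ W), Module.Finite Γ W ∧
    Module.Projective Γ W ∧ Module.Injective Γ W ∧ IsWakamatsuTilting Γ W ∧ ¬ IsTilting Γ W :=
  ⟨D.W, inferInstance, inferInstance, D.W.finite, D.pj.projective, D.inj, D.wak, D.not_tilting⟩

end CData

end CD

/-! ### The functor `Hom(G, -)` to modules over the opposite endomorphism algebra -/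

section H

variable {K A : Type u} [Field K] [Ring A] [Algebra K A]

/-- The opposite endomorphism algebra. -/
abbrev Gam (G : Mod K A) : Type u := (Module.End A G)ᵐᵒᵖ

instance (G : Mod K A) : FiniteDimensional K (Gam G) :=
  have : FiniteDimensional K (Module.End A G) := finHom
  Module.Finite.equiv (MulOpposite.opLinearEquiv K (M := Module.End A G))

/-- Homomorphisms out of `G`. -/
def HM (G Y : Mod K A) : Type u := G →ₗ[A] Y

namespace HM

variable {G Y Y' : Mod K A}

instance : AddCommGroup (HM G Y) := inferInstanceAs (AddCommGroup (G →ₗ[A] Y))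

instance : Module K (HM G Y) := inferInstanceAs (Module K (G →ₗ[A] Y))

instance : FiniteDimensional K (HM G Y) := finHom (R := A) (X := G) (Y := Y)

def hom (f : HM G Y) : G →ₗ[A] Y := f

def mk (f : G →ₗ[A] Y) : HM G Y := f

theorem ext {f g : HM G Y} (h : ∀ x, f.hom x = g.hom x) : f = g := LinearMap.ext h

instance : SMul (Gam G) (HM G Y) := ⟨fun γ f => mk (f.hom ∘ₗ γ.unop)⟩

@[simp] theorem smul_hom (γ : Gam G) (f : HM G Y) (x : G) : (γ • f).hom x = f.hom (γ.unop x) := rfl

@[simp] theorem mk_hom (f : G →ₗ[A] Y) : (mk f).hom = f := rfl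

@[simp] theorem add_hom (f g : HM G Y) (x : G) : (f + g).hom x = f.hom x + g.hom x := rfl

@[simp] theorem zero_hom (x : G) : (0 : HM G Y).hom x = 0 := rfl

@[simp] theorem ksmul_hom (c : K) (f : HM G Y) (x : G) : (c • f).hom x = c • f.hom x := rfl

instance : Module (Gam G) (HM G Y) where
  one_smul _ := rfl
  mul_smul _ _ _ := rfl
  smul_zero _ := rfl
  smul_add _ _ _ := rfl
  add_smul a b f := ext fun x => f.hom.map_add _ _
  zero_smul f := ext fun _ => f.hom.map_zero

instance : IsScalarTower K (Gam G) (HM G Y) :=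
  ⟨fun c γ f => ext fun x => f.hom.map_smul_of_tower c (γ.unop x)⟩

end HM

/-- The functor `Hom(G, -)`. -/
def H (G : Mod K A) : LF K A (Gam G) where
  obj Y := Mod.of K (Gam G) (HM G Y)
  map {U V} :=
    { toFun := fun f =>
        { toFun := fun g => HM.mk (f ∘ₗ g.hom)
          map_add' := fun a b => HM.ext fun x => f.map_add _ _
          map_smul' := fun _ _ => rfl }
      map_add' := fun _ _ => rfl
      map_smul' := fun _ _ => rfl }
  map_id _ := rfl
  map_comp _ _ := rfl

variable {G : Mod K A}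

/-- The map on `Hom(G, -)`, with the types unfolded. -/
def Hm (G : Mod K A) {U V : Mod K A} (f : U →ₗ[A] V) : HM G U →ₗ[Gam G] HM G V := (H G).map f

@[simp] theorem Hm_hom {U V : Mod K A} (f : U →ₗ[A] V) (g : HM G U) (x : G) :
    (Hm G f g).hom x = f (g.hom x) := rfl

theorem Hm_ses {U V W : Mod K A} {f : U →ₗ[A] V} {g : V →ₗ[A] W} (h : SES f g)
    (hz : rk K A G U 1 = 0) : SES (Hm G f) (Hm G g) where
  inj := fun a b hab => HM.ext fun x => h.inj (congrArg (fun t => t.hom x) hab)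
  comp := fun t => HM.ext fun x => h.comp _
  exact := fun t ht => by
    obtain ⟨k, hk⟩ := h.lift t.hom fun w => congrArg (fun t => t.hom w) ht
    exact ⟨HM.mk k, hk⟩
  surj := fun t => by
    obtain ⟨k, hk⟩ := h.lift' hz t.hom
    exact ⟨HM.mk k, hk⟩

variable (G) in
def selfEquiv : Gam G ≃ₗ[Gam G] HM G G where
  toFun γ := HM.mk γ.unop
  invFun f := MulOpposite.op f.hom
  map_add' _ _ := rfl
  map_smul' _ _ := rfl
  left_inv _ := rfl
  right_inv _ := rfl

variable [FiniteDimensional K A]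

variable (G) in
def piEquiv (k : ℕ) :
    HM G (Mod.of K A (Fin k → A)) ≃ₗ[Gam G] (Fin k → HM G (Mod.self K A)) where
  toFun f i := HM.mk (LinearMap.proj i ∘ₗ f.hom)
  invFun f := HM.mk (LinearMap.pi fun i => (f i).hom)
  map_add' _ _ := rfl
  map_smul' _ _ := rfl
  left_inv _ := rfl
  right_inv _ := rfl

variable (b : G →ₗ[A] A) (e : G) (he : b e = 1)

/-- The map `x ↦ b x • y`. -/
def via {Y : Mod K A} : Y →ₗ[K] HM G Y where
  toFun y := HM.mk (LinearMap.toSpanSingleton A Y y ∘ₗ b)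
  map_add' y y' := HM.ext fun x => smul_add (b x) y y'
  map_smul' c y := HM.ext fun x => smul_comm (b x) c y

omit [FiniteDimensional K A] in
@[simp] theorem via_hom {Y : Mod K A} (y : Y) (x : G) : (via b y).hom x = b x • y := rfl

/-- The element `x ↦ b x • y` of the opposite endomorphism algebra. -/
def gam : G →ₗ[K] Gam G where
  toFun y := MulOpposite.op (via b y).hom
  map_add' y y' := by rw [map_add]; rfl
  map_smul' c y := by rw [map_smul]; rfl

omit [FiniteDimensional K A] in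
@[simp] theorem gam_unop (y x : G) : (gam b y).unop x = b x • y := rfl

omit [FiniteDimensional K A] in
theorem gam_mul (y : G) (δ : Gam G) : gam b y * δ = gam b (δ.unop y) :=
  MulOpposite.unop_injective (LinearMap.ext fun x => δ.unop.map_smul (b x) y)

include he

omit [FiniteDimensional K A] in
theorem split_of_Hm {U V : Mod K A} (f : U →ₗ[A] V) (r : HM G V →ₗ[Gam G] HM G U)
    (hr : ∀ x, r (Hm G f x) = x) : ∃ s : V →ₗ[A] U, ∀ x, s (f x) = x := by
  refine ⟨⟨⟨fun y => (r (via b y)).hom e, fun y y' => by rw [map_add, map_add]; rfl⟩,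
    fun c y => ?_⟩, fun x => ?_⟩
  · have : via b (c • y) = gam b (c • e) • via b y := HM.ext fun x => by
      simp [he, mul_smul]
    change (r (via b (c • y))).hom e = c • (r (via b y)).hom e
    rw [this, map_smul]
    simp [he]
  · have : via b (f x) = Hm G f (via b x) := HM.ext fun z => by simp
    change (r (via b (f x))).hom e = x
    rw [this, hr]
    simp [he]

theorem pj_W : PJ (Gam G) (HM G (Mod.self K A)) := by
  have h1 : Thru G (LinearMap.id : A →ₗ[A] A) :=
    Thru.refl.retract (LinearMap.toSpanSingleton A G e) b fun x => by simp [he]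
  exact ((H G).thru_id (Y := G) (U := Mod.self K A) h1).trans
    (Thru.refl.equiv (selfEquiv G).symm)

theorem inj_W (σ : SymForm K A) : Module.Injective (Gam G) (HM G (Mod.self K A)) where
  out := fun X Y _ _ _ _ i hi g => by
    let : Module K X := Module.compHom X (algebraMap K (Gam G))
    let : Module K Y := Module.compHom Y (algebraMap K (Gam G))
    have : IsScalarTower K (Gam G) X := ⟨fun c r x => by rw [Algebra.smul_def, mul_smul]; rfl⟩
    have : IsScalarTower K (Gam G) Y := ⟨fun c r x => by rw [Algebra.smul_def, mul_smul]; rfl⟩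
    let ev : HM G (Mod.self K A) →ₗ[K] A :=
      { toFun := fun f => f.hom e, map_add' := fun _ _ => rfl, map_smul' := fun _ _ => rfl }
    obtain ⟨φ, hφ⟩ := LinearMap.dualMap_surjective_of_injective (f := i.restrictScalars K) hi
      (σ.l ∘ₗ ev ∘ₗ g.restrictScalars K)
    have hφ' : ∀ x, φ (i x) = σ.l ((g x).hom e) := fun x => LinearMap.congr_fun hφ x
    let F : Y → HM G (Mod.self K A) := fun y => HM.mk (σ.hom
      (φ ∘ₗ (LinearMap.toSpanSingleton (Gam G) Y y).restrictScalars K ∘ₗ gam b))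
    have hF : ∀ y (c : A) (x : G), σ.l (c * (F y).hom x) = φ (gam b (c • x) • y) :=
      fun y c x => σ.l_hom _ c x
    refine ⟨⟨⟨F, fun y y' => HM.ext fun x => σ.ext' fun c => ?_⟩,
      fun δ y => HM.ext fun x => σ.ext' fun c => ?_⟩, fun x => HM.ext fun z => σ.ext' fun c => ?_⟩
    · rw [HM.add_hom, mul_add, map_add, hF, hF, hF, smul_add, map_add]
    · change σ.l (c * (F (δ • y)).hom x) = σ.l (c * (F y).hom (δ.unop x))
      rw [hF, hF, ← mul_smul, gam_mul, map_smul δ.unop]
    · change σ.l (c * (F (i x)).hom z) = _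
      rw [hF, ← map_smul, hφ', map_smul, HM.smul_hom, gam_unop, he, one_smul, map_smul]
      rfl

end H

/-! ### Cosyzygies and the construction -/

section Co

variable {K A : Type u} [Field K] [Ring A] [Algebra K A] [FiniteDimensional K A]

namespace SymForm

variable (σ : SymForm K A)

def coN (U : Mod K A) : ℕ := (σ.exists_embed U).choose

abbrev coI (U : Mod K A) : Mod K A := Mod.of K A (Fin (σ.coN U) → A)

def coι (U : Mod K A) : U →ₗ[A] σ.coI U := (σ.exists_embed U).choose_spec.choose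

theorem coι_inj (U : Mod K A) : Function.Injective (σ.coι U) :=
  (σ.exists_embed U).choose_spec.choose_spec

def co (U : Mod K A) : Mod K A := Mod.quot (LinearMap.range (σ.coι U))

def coπ (U : Mod K A) : σ.coI U →ₗ[A] σ.co U := (LinearMap.range (σ.coι U)).mkQ

theorem co_ses (U : Mod K A) : SES (σ.coι U) (σ.coπ U) := SES.of_inj _ (σ.coι_inj U)

theorem coI_pj (U : Mod K A) : PJ A (σ.coI U) := Thru.pi Thru.refl

def coG (G : Mod K A) : ℕ → Mod K A
  | 0 => G
  | n + 1 => σ.co (coG G n)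

theorem coG_pj (G : Mod K A) (n : ℕ) (h : PJ A (σ.coG G n)) : PJ A G := by
  induction n with
  | zero => exact h
  | succ n ih => exact ih ((σ.co_ses _).pj_left (σ.coI_pj _) h)

theorem coG_rk (G : Mod K A) (h : ∀ j, rk K A G G (j + 1) = 0) (n j : ℕ) :
    rk K A G (σ.coG G n) (j + 1) = 0 := by
  induction n generalizing j with
  | zero => exact h j
  | succ n ih =>
    have := (σ.co_ses (σ.coG G n)).v₃ K G (j + 1)
    rwa [ih, rk_inj ((σ.coI_pj _).injective σ.injective), add_zero, nonpos_iff_eq_zero] at this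

/-- The coresolution data attached to a nonprojective generator without self-extensions. -/
def cdata (G : Mod K A) (b : G →ₗ[A] A) (e : G) (he : b e = 1)
    (h : ∀ j, rk K A G G (j + 1) = 0) (hG : ¬ PJ A G) : CData K (Gam G) where
  W := Mod.of K (Gam G) (HM G (Mod.self K A))
  pj := pj_W b e he
  inj := inj_W b e he σ
  C n := Mod.of K (Gam G) (HM G (σ.coG G n))
  I n := Mod.of K (Gam G) (HM G (σ.coI (σ.coG G n)))
  ι n := Hm G (σ.coι (σ.coG G n))
  π n := Hm G (σ.coπ (σ.coG G n))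
  ses n := Hm_ses (σ.co_ses _) (σ.coG_rk G h n 0)
  e0 := selfEquiv G
  eI n := ⟨_, ⟨piEquiv G _⟩⟩
  nsplit n := fun ⟨r, hr⟩ => by
    obtain ⟨s, hs⟩ := split_of_Hm b e he _ r hr
    exact hG (σ.coG_pj G n ((σ.coI_pj _).retract _ s hs))
  J :=
    { carrier := {γ | SZ (γ.unop : G →ₗ[A] G)}
      add_mem' := fun h1 h2 => Thru.add h1 h2
      zero_mem' := Thru.zero
      smul_mem' := fun δ _ h1 => Thru.pre h1 δ.unop }
  ne := fun h1 => hG ((Ideal.eq_top_iff_one _).1 h1)
  ann := fun w hw => HM.ext fun x => by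
    have h1 : HM.hom w (b e • x) = 0 := congrArg (fun t => HM.hom t e) (hw (gam b x)
      (Thru.comp b (LinearMap.toSpanSingleton A G x)))
    rwa [he, one_smul] at h1

end SymForm

namespace TData

variable (T : TData K A)

abbrev G : Mod K A := (Mod.self K A).prod (T.Z 0)

theorem G_ses : SES (LinearMap.inl A A (T.Z 0)) (LinearMap.snd A A (T.Z 0)) :=
  ⟨LinearMap.inl_injective, fun _ => rfl, fun t ht => ⟨t.1, Prod.ext rfl ht.symm⟩,
    LinearMap.snd_surjective⟩

theorem G_rk (j : ℕ) : rk K A T.G T.G (j + 1) = 0 := by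
  have h1 := T.G_ses.v₂ K (T.Z 0) (j + 1)
  rw [rk_inj T.sym.injective, T.rk_eq, add_zero, nonpos_iff_eq_zero] at h1
  have h2 := T.G_ses.c₂ K T.G (j + 1)
  rwa [rk_proj (U := A), h1, add_zero, nonpos_iff_eq_zero] at h2

theorem G_npj : ¬ PJ A T.G := fun h =>
  T.nproj (h.retract (LinearMap.inr A A (T.Z 0)) (LinearMap.snd A A (T.Z 0)) fun _ => rfl)

def cdata : CData K (Gam T.G) :=
  T.sym.cdata T.G (LinearMap.fst A A (T.Z 0)) (1, 0) rfl T.G_rk T.G_npj

include T

theorem s0282 :
    ∃ (Γ : Type u) (_ : Ring Γ) (_ : Algebra K Γ), FiniteDimensional K Γ ∧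
      ∃ S : ModuleCat.{u} Γ, IsSimpleModule Γ S ∧
        ∀ i : ℕ, Subsingleton (Abelian.Ext S (ModuleCat.of Γ Γ) i) :=
  ⟨Gam T.G, inferInstance, inferInstance, inferInstance, T.cdata.s0282⟩

theorem s0283 :
    ∃ (Γ : Type u) (_ : Ring Γ) (_ : Algebra K Γ), FiniteDimensional K Γ ∧
      ∀ n : ℕ, 1 ≤ n → ∃ C : ModuleCat.{u} Γ, Module.Finite Γ C ∧
        projectiveDimension C = (n : WithBot ℕ∞) :=
  ⟨Gam T.G, inferInstance, inferInstance, inferInstance, T.cdata.s0283⟩

theorem s0284 :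
    ∃ (Γ : Type u) (_ : Ring Γ) (_ : Algebra K Γ), FiniteDimensional K Γ ∧
      (∃ (I : ℕ → ModuleCat.{u} Γ) (ε : Γ →ₗ[Γ] I 0) (d : ∀ j : ℕ, I j →ₗ[Γ] I (j + 1)),
        Function.Injective ε ∧ Function.Exact ε (d 0) ∧ (∀ j, Function.Exact (d j) (d (j + 1))) ∧
        ∀ j, Module.Projective Γ (I j) ∧ Module.Injective Γ (I j)) ∧
      ∀ n : ℕ, ¬ HasInjectiveDimensionLT (ModuleCat.of Γ Γ) n :=
  ⟨Gam T.G, inferInstance, inferInstance, inferInstance, T.cdata.s0284, T.cdata.ni⟩

theorem s0285 :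
    ∃ (Γ : Type u) (_ : Ring Γ) (_ : Algebra K Γ), FiniteDimensional K Γ ∧
      ∃ (W : Type u) (_ : AddCommGroup W) (_ : Module Γ W), Module.Finite Γ W ∧
        Module.Projective Γ W ∧ Module.Injective Γ W ∧
        IsWakamatsuTilting Γ W ∧ ¬ IsTilting Γ W :=
  ⟨Gam T.G, inferInstance, inferInstance, inferInstance, T.cdata.s0285⟩

end TData

end Co

end

end Crest.Agent.R186
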