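import Crest.Agent.R186.FFun

/-!
The triple over the triangular algebra and the vanishing of its stable homomorphism groups.
-/

set_option autoImplicit false
set_option linter.unusedSectionVars false

namespace Crest.Agent.R186

noncomputable section

universe u

open scoped TensorProduct

variable {K : Type u} [Field K] {B : Type u} [Ring B] [Algebra K B] [FiniteDimensional K B]

attribute [local irreducible] BData.F BData.ι₁ BData.ι₂ BData.pr BData.p₁ BData.p₂ BData.ξ₁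
  BData.gcan AF adj Om omι frπ

theorem fd_lemma {V : Type u} [AddCommGroup V] [Module K V] [FiniteDimensional K V]
    (L : V →ₗ[K] V) (S V' : Submodule K V) (hS : ∀ x ∈ S, L x ∈ S) (hV : ∀ x ∈ V', L x ∈ V')
    (hi : ∀ x ∈ V', L x = 0 → x = 0) (hs : ∀ x, ∃ y ∈ V', x - y ∈ S) :
    (∀ γ, ∃ α, L α - γ ∈ S) ∧ ∀ α, L α ∈ S → α ∈ S := by
  have h1 : ∀ γ, ∃ α, L α - γ ∈ S := fun γ => by
    obtain ⟨y, hy, hy'⟩ := hs γ
    obtain ⟨x, hx⟩ := LinearMap.surjective_of_injective (f := L.restrict hV)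
      ((injective_iff_map_eq_zero _).2 fun x hx =>
        Subtype.ext (hi x x.2 (congrArg Subtype.val hx))) ⟨y, hy⟩
    refine ⟨x, ?_⟩
    rw [show L x = y from congrArg Subtype.val hx, ← neg_sub]
    exact neg_mem hy'
  refine ⟨h1, fun α hα => ?_⟩
  have h2 : Function.Surjective (S.mapQ S L hS) := fun q => by
    obtain ⟨γ, rfl⟩ := S.mkQ_surjective q
    obtain ⟨a, ha⟩ := h1 γ
    exact ⟨S.mkQ a, (Submodule.Quotient.eq S).2 ha⟩
  have h3 := LinearMap.injective_iff_surjective.2 h2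
  exact (Submodule.Quotient.mk_eq_zero S).1 (h3 (((Submodule.Quotient.mk_eq_zero S).2 hα).trans
    (map_zero (S.mapQ S L hS)).symm))

def szSub {R : Type u} [Ring R] [Algebra K R] (U V : Mod K R) : Submodule K (U →ₗ[R] V) where
  carrier := {f | SZ f}
  add_mem' := Thru.add
  zero_mem' := Thru.zero
  smul_mem' := fun c _ h => Thru.smul c h

namespace Lvl

variable {H : K} {U U' : Mod K (TE K B)} {V V' : Mod K B} (L : Lvl H U V) (L' : Lvl H U' V')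

def φE : U ≃ₗ[TE K B] (teTw H).obj U :=
  LinearEquiv.ofBijective (resTo _ L.φ L.φ_smul)
    ⟨L.φ_inj, LinearMap.surjective_of_injective L.φ_inj⟩

def φF : Mod.fr K (TE K B) U →ₗ[TE K B] (teTw H).obj (Mod.fr K (TE K B) U) :=
  resTo _ (U := Mod.fr K (TE K B) U) (TensorProduct.map ((dualBim K B).scale H).toLinearMap L.φ)
    (map_smul_semi _ L.φ)

theorem φ_sq (hH : H ≠ 0) (hD : PD K B (DM K B) 4) :
    Sq (omι U) (frπ U) ((teTw H).map (omι U)) ((teTw H).map (frπ U))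
      (L.step hH hD).φE.toLinearMap L.φF L.φE.toLinearMap :=
  ⟨fun x => omι_omS _ L.φ L.φ_smul x, fun x => frπ_semi _ L.φ L.φ_smul x⟩

def T : (U →ₗ[TE K B] U') →ₗ[K] (U →ₗ[TE K B] U') :=
  LinearMap.compRight K L'.φE.symm.toLinearMap ∘ₗ LinearMap.lcomp K _ L.φE.toLinearMap ∘ₗ
    (teTw H).map

theorem φE_T (α : U →ₗ[TE K B] U') :
    L'.φE.toLinearMap ∘ₗ L.T L' α = (teTw H).map α ∘ₗ L.φE.toLinearMap :=
  LinearMap.ext fun _ => L'.φE.apply_symm_apply _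

theorem φ_T (α : U →ₗ[TE K B] U') (u : U) : L'.φ (L.T L' α u) = α (L.φ u) :=
  LinearMap.congr_fun (L.φE_T L' α) u

theorem T_sz (hH : H ≠ 0) {α : U →ₗ[TE K B] U'} (h : SZ α) : SZ (L.T L' α) :=
  (((teTw_pp hH).sz h).pre L.φE.toLinearMap).post L'.φE.symm.toLinearMap

def BT : Prop :=
  (∀ γ : U →ₗ[TE K B] U', ∃ α, SZ (α - L.T L' α - γ)) ∧ ∀ α, SZ (α - L.T L' α) → SZ α

theorem bt_of (hH : H ≠ 0) (W : Submodule K (U →ₗ[TE K B] U')) (hV : ∀ x ∈ W, L.T L' x ∈ W)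
    (hi : ∀ x ∈ W, x = L.T L' x → x = 0) (hs : ∀ x, ∃ y ∈ W, SZ (x - y)) : L.BT L' := by
  have := fd_lemma (LinearMap.id - L.T L') (szSub U U') W
    (fun _ hx => Thru.sub hx (L.T_sz L' hH hx))
    (fun x hx => sub_mem hx (hV x hx)) (fun x hx h => hi x hx (sub_eq_zero.1 h)) hs
  exact ⟨this.1, this.2⟩

theorem exists_sub (u : U) (hu : L.r u = 0) : ∃ w, L.φ w - w = u := by
  obtain ⟨w, hw⟩ := LinearMap.surjective_of_injective
    (f := (L.φ - LinearMap.id).restrict (p := LinearMap.ker L.r) (q := LinearMap.ker L.r)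
      fun x hx => by simp [L.rφ])
    ((injective_iff_map_eq_zero _).2 fun x hx =>
      Subtype.ext (L.inv₀ x (sub_eq_zero.1 (congrArg Subtype.val hx)) x.2)) ⟨u, hu⟩
  exact ⟨w, congrArg Subtype.val hw⟩

end Lvl

namespace BData

variable (β : BData K B)

abbrev X : Mod K B := chiMod β.χ

abbrev X₀ : Mod K (TE K B) := (teInf K B).obj β.X

def xe : β.X ≃ₗ[K] β.X₀ := toRes _ _

theorem smul_xe (e : TE K B) (x : β.X) : e • β.xe x = β.xe ((dualBim K B).fst e • x) := rfl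

def L₀ : Lvl β.H β.X₀ β.X where
  φ := LinearMap.id
  r := β.xe.symm.toLinearMap
  j := β.xe.toLinearMap
  φ_smul e u := by
    obtain ⟨u, rfl⟩ := β.xe.surjective u
    rw [LinearMap.id_apply, LinearMap.id_apply, smul_xe, smul_xe, Bim.fst_scale]
  r_smul _ _ := rfl
  j_smul _ _ := rfl
  φ_inj := fun _ _ h => h
  rj _ := rfl
  φj _ := rfl
  rφ _ := rfl
  inv₁ k u h := by
    have : (β.H ^ (k + 1) - 1) • u = 0 := by rw [sub_smul, one_smul]; exact sub_eq_zero.2 h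
    exact (smul_eq_zero_iff_right (sub_ne_zero.2 (β.hH k))).1 this
  inv₀ _ _ h := h
  pd := ⟨0, PJ.pd (Thru.zero.of_ext fun x => Subtype.ext x.2) 0⟩

theorem ξ_gcan (x : (GF K B).obj β.X₀) :
    (Om K _).map β.L₀.φE.symm.toLinearMap (β.ξ₁.app _ (β.gcan β.X₀ x)) = β.ξ₁.app _ x := by
  rw [← β.ξ₁.nat]
  unfold gcan
  refine congrArg _ ((((AF K B).comp (Om4 K B)).map_map (can β.H β.X₀)
    ((teRes K B).map β.L₀.φE.symm.toLinearMap) x).trans ?_)
  rw [show (teRes K B).map β.L₀.φE.symm.toLinearMap ∘ₗ can β.H β.X₀ = LinearMap.id from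
    LinearMap.ext fun y => β.L₀.φE.symm_apply_apply y, LF.map_id_apply]

def ψa : β.F.obj β.X₀ →ₗ[TE K B] (Om2 K _).obj β.X₀ :=
  omCod (β.p₁ _ - (Fr K _).map ((Om K _).map β.L₀.φE.symm.toLinearMap) ∘ₗ β.p₂ _) fun w => by
    rw [LinearMap.sub_apply, map_sub, LinearMap.comp_apply, frπ_nat,
      eq_neg_of_add_eq_zero_right (β.rel₁ w), eq_neg_of_add_eq_zero_right (β.rel₂ w), map_neg,
      ξ_gcan, sub_self]

theorem ψa_ι₁ (w : (Om2 K _).obj β.X₀) : β.ψa (β.ι₁ _ w) = w :=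
  (om_ses _).inj (by
    rw [ψa, omι_omCod, LinearMap.sub_apply, LinearMap.comp_apply, p₁_ι₁, p₂_ι₁, map_zero,
      sub_zero])

theorem ψa_ι₂ (w : (Om2 K _).obj ((teTw β.H).obj β.X₀)) :
    β.ψa (β.ι₂ _ w) = -(Om K _).map ((Om K _).map β.L₀.φE.symm.toLinearMap) w :=
  (om_ses _).inj (by
    rw [ψa, omι_omCod, LinearMap.sub_apply, LinearMap.comp_apply, p₁_ι₂, p₂_ι₂, zero_sub,
      ← omι_map, map_neg])

def nE : ℕ := ((teSym K B).exists_embed (β.F.obj β.X₀)).choose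

def emb : β.F.obj β.X₀ →ₗ[TE K B] (Fin β.nE → TE K B) :=
  ((teSym K B).exists_embed (β.F.obj β.X₀)).choose_spec.choose

theorem emb_inj : Function.Injective β.emb :=
  ((teSym K B).exists_embed (β.F.obj β.X₀)).choose_spec.choose_spec

abbrev T₀ : Trip β.F :=
  ⟨β.X₀, ((Om2 K _).obj β.X₀).prod (Mod.of K _ (Fin β.nE → TE K B)), β.ψa.prod β.emb⟩

theorem T₀_inj : Function.Injective β.T₀.ψ := fun _ _ h => β.emb_inj (congrArg Prod.snd h)

abbrev xs (m : ℕ) : Mod K (TE K B) := (β.T₀.zs m).N₁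

def lv : ∀ m, Lvl β.H (β.xs m) (oms β.X m)
  | 0 => β.L₀
  | m + 1 => (lv m).step β.H0 β.pdD

def o2 {U V : Mod K (TE K B)} :
    (U →ₗ[TE K B] V) →ₗ[K] ((Om2 K _).obj U →ₗ[TE K B] (Om2 K _).obj V) := (Om2 K _).map

def τ {U : Mod K (TE K B)} {V : Mod K B} (L : Lvl β.H U V) :
    (Om2 K _).obj U →ₗ[TE K B] β.F.obj U := β.ι₁ _ + β.ι₂ _ ∘ₗ o2 L.φE.toLinearMap

theorem τ_apply {U : Mod K (TE K B)} {V : Mod K B} (L : Lvl β.H U V) (x : (Om2 K _).obj U) :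
    dsimp% only (β.τ L x = β.ι₁ _ x + β.ι₂ _ (o2 L.φE.toLinearMap x)) := rfl

/-- The invariants of a triple that pass to syzygies. -/
structure Good (T : Trip β.F) {V : Mod K B} (L : Lvl β.H T.N₁ V) : Prop where
  si : SI (T.ψ ∘ₗ β.ι₁ _)
  sz : SZ (T.ψ ∘ₗ β.τ L)

theorem ψa_τ (w : (Om2 K _).obj β.X₀) : β.ψa (β.τ β.L₀ w) = 0 := by
  rw [τ_apply, map_add, ψa_ι₁, ψa_ι₂, add_neg_eq_zero]
  exact (((Om2 K _).equiv β.L₀.φE).symm_apply_apply w).symm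

theorem good₀ : β.Good β.T₀ β.L₀ := by
  have hI : PJ (TE K B) (Fin β.nE → TE K B) := Thru.pi Thru.refl
  refine ⟨⟨LinearMap.fst _ _ _, Thru.zero.of_ext fun x => sub_eq_zero.2 (β.ψa_ι₁ x), ?_⟩, ?_⟩
  · refine ((hI.tgt (β.emb ∘ₗ β.ι₁ _ ∘ₗ LinearMap.fst _ _ (Fin β.nE → TE K B) -
      LinearMap.snd _ _ _)).post (LinearMap.inr _ ((Om2 K _).obj β.X₀) _)).of_ext fun x =>
        Prod.ext (sub_eq_zero.2 (β.ψa_ι₁ x.1)) rfl
  · exact ((hI.tgt (β.emb ∘ₗ β.τ β.L₀)).post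
      (LinearMap.inr _ ((Om2 K _).obj β.X₀) _)).of_ext fun x => Prod.ext (β.ψa_τ x) rfl

theorem sq_ι₁ {N P U : Mod K (TE K B)} (i : N →ₗ[TE K B] P) (p : P →ₗ[TE K B] U) :
    Sq ((Om2 K _).map i) ((Om2 K _).map p) (β.F.map i) (β.F.map p) (β.ι₁ N) (β.ι₁ P) (β.ι₁ U) :=
  ⟨β.F_ι₁ i, β.F_ι₁ p⟩

theorem sq_ι₂ {N P U : Mod K (TE K B)} (i : N →ₗ[TE K B] P) (p : P →ₗ[TE K B] U) :
    Sq ((Om2 K _).map ((teTw β.H).map i)) ((Om2 K _).map ((teTw β.H).map p)) (β.F.map i)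
      (β.F.map p) (β.ι₂ N) (β.ι₂ P) (β.ι₂ U) :=
  ⟨β.F_ι₂ i, β.F_ι₂ p⟩

variable {β} in
theorem Good.step {T : Trip β.F} {V : Mod K B} {L : Lvl β.H T.N₁ V} (h : β.Good T L) :
    β.Good T.syz (L.step β.H0 β.pdD) := by
  have h1 := Om2_exact (om_ses T.N₁)
  have h2 := Om2_pp (Mod.fr K (TE K B) T.N₁) (pj_fr K (TE K B) T.N₁)
  exact ⟨(T.sq_ψ.comp (β.sq_ι₁ _ _)).si h1 T.ses₂ h2 (T.P₂_pj β.F_pp) h.si,
    (T.sq_ψ.comp ((β.sq_ι₁ _ _).add ((β.sq_ι₂ _ _).comp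
      ((Om2 K _).sq (L.φ_sq β.H0 β.pdD))))).fwd h1 T.ses₂ h2 h.sz⟩

theorem good : ∀ m, β.Good (β.T₀.zs m) (β.lv m)
  | 0 => β.good₀
  | m + 1 => (good m).step

theorem om2_faithful {U V : Mod K (TE K B)} {f : U →ₗ[TE K B] V} (h : SZ (o2 f)) :
    SZ f := om_faithful (teSym K B).injective (om_faithful (teSym K B).injective h)

theorem om2_full {U V : Mod K (TE K B)} (g : (Om2 K _).obj U →ₗ[TE K B] (Om2 K _).obj V) :
    ∃ f : U →ₗ[TE K B] V, SZ (o2 f - g) := by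
  obtain ⟨f₁, h₁⟩ := om_full (teSym K B).injective g
  obtain ⟨f, h⟩ := om_full (teSym K B).injective f₁
  refine ⟨f, ((Om_pp.sz h).add h₁).of_eq ?_⟩
  rw [map_sub, sub_add_sub_cancel]; rfl

theorem o2_sz {U V : Mod K (TE K B)} {f : U →ₗ[TE K B] V} (h : SZ f) : SZ (o2 f) := Om2_pp.sz h

theorem o2_id {U : Mod K (TE K B)} : o2 (LinearMap.id : U →ₗ[TE K B] U) = LinearMap.id :=
  (Om2 K _).map_id U

theorem F_ι₁' {U V : Mod K (TE K B)} (α : U →ₗ[TE K B] V) (x : (Om2 K _).obj U) :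
    dsimp% only (β.F.map α (β.ι₁ _ x) = β.ι₁ _ (o2 α x)) := β.F_ι₁ α x

theorem F_τ {U U' : Mod K (TE K B)} {V V' : Mod K B} (L : Lvl β.H U V) (L' : Lvl β.H U' V')
    (α : U →ₗ[TE K B] U') (x : (Om2 K _).obj U) : β.F.map α (β.τ L x) =
      β.ι₁ _ (o2 α x) - β.ι₁ _ (o2 (L.T L' α) x) + β.τ L' (o2 (L.T L' α) x) := by
  rw [τ_apply, τ_apply, map_add, F_ι₁', F_ι₂, ← add_assoc, sub_add_cancel, o2, o2, o2,
    LF.map_map, LF.map_map, Lvl.φE_T]

theorem sz_ι₂ {U : Mod K (TE K B)} {V : Mod K B} (L : Lvl β.H U V) {Y : Type u} [AddCommGroup Y]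
    [Module (TE K B) Y] (D : β.F.obj U →ₗ[TE K B] Y) (h₁ : SZ (D ∘ₗ β.ι₁ U))
    (h₂ : SZ (D ∘ₗ β.τ L)) : SZ (D ∘ₗ β.ι₂ U) :=
  ((h₂.sub h₁).pre ((Om2 K _).equiv L.φE).symm.toLinearMap).of_ext fun x => by
    obtain ⟨x, rfl⟩ := ((Om2 K _).equiv L.φE).surjective x
    rw [LinearMap.comp_apply (D ∘ₗ β.τ L - D ∘ₗ β.ι₁ U), LinearEquiv.coe_coe,
      LinearEquiv.symm_apply_apply, LinearMap.sub_apply, LinearMap.comp_apply, LinearMap.comp_apply,
      LinearMap.comp_apply, τ_apply, map_add, add_sub_cancel_left]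
    rfl

attribute [local irreducible] o2 τ

section

variable {β} {T T' : Trip β.F} {V V' : Mod K B} {L : Lvl β.H T.N₁ V} {L' : Lvl β.H T'.N₁ V'}

theorem iz_of (h : β.Good T L) (h' : β.Good T' L') (hb : L.BT L') : T.IZ T' := fun α b hc => by
  have hα : SZ α := by
    refine hb.2 α (om2_faithful (h'.si.cancel_left ?_))
    refine ((h.sz.post b).sub (h'.sz.pre (o2 (L.T L' α)))).of_ext fun x => ?_
    simp only [LinearMap.comp_apply, LinearMap.sub_apply, map_sub, map_add, ← hc, β.F_τ L L']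
    abel
  refine ⟨hα, h.si.cancel_right ?_⟩
  refine ((o2_sz hα).post (T'.ψ ∘ₗ β.ι₁ _)).of_ext fun x => ?_
  simp only [LinearMap.comp_apply, ← hc, F_ι₁']

theorem ds_of (h : β.Good T L) (h' : β.Good T' L')
    (hb : ∀ (D : β.F.obj T.N₁ →ₗ[TE K B] T'.N₂) (γ : T.N₁ →ₗ[TE K B] T'.N₁),
      SZ ((T'.ψ ∘ₗ β.ι₁ _) ∘ₗ o2 γ - D ∘ₗ β.τ L) → ∃ α, SZ (α - L.T L' α - γ))
    (hG : ∀ D : (GF K B).obj T.N₁ →ₗ[TE K B] (Om2 K _).obj T'.N₁, SZ (D ∘ₗ β.pr _)) :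
    T.DS T' := fun D => by
  obtain ⟨g, hg⟩ := h'.si.solve_left (D ∘ₗ β.τ L)
  obtain ⟨γ, hγ⟩ := om2_full g
  have hγ' : SZ ((T'.ψ ∘ₗ β.ι₁ _) ∘ₗ o2 γ - D ∘ₗ β.τ L) :=
    ((hγ.post (T'.ψ ∘ₗ β.ι₁ _)).add hg).of_eq (by rw [LinearMap.comp_sub, sub_add_sub_cancel])
  obtain ⟨α, hα⟩ := hb D γ hγ'
  obtain ⟨b, hb'⟩ := h.si.solve_right ((T'.ψ ∘ₗ β.ι₁ _) ∘ₗ o2 α - D ∘ₗ β.ι₁ _)
  have e₁ : SZ ((T'.ψ ∘ₗ β.F.map α - b ∘ₗ T.ψ - D) ∘ₗ β.ι₁ _) := hb'.neg.of_ext fun x => by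
    simp only [LinearMap.comp_apply, LinearMap.sub_apply, LinearMap.neg_apply, F_ι₁']
    abel
  refine ⟨α, b, β.finish _ e₁ (β.sz_ι₂ L _ e₁ ?_) fun D' => ?_⟩
  · refine ((((h'.sz.pre (o2 (L.T L' α))).sub (h.sz.post b)).add
      ((o2_sz hα).post (T'.ψ ∘ₗ β.ι₁ _))).add hγ').of_ext fun x => ?_
    simp only [LinearMap.comp_apply, LinearMap.sub_apply, LinearMap.add_apply, map_sub, map_add,
      β.F_τ L L']
    abel
  · obtain ⟨D₀, hD₀⟩ := h'.si.solve_left D'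
    exact (((hG D₀).post (T'.ψ ∘ₗ β.ι₁ _)).sub (hD₀.pre (β.pr _))).of_ext fun x => by
      simp only [LinearMap.comp_apply, LinearMap.sub_apply]
      abel

theorem ds_aux (h : β.Good T L)
    (hc : ∀ (u : β.F.obj T.N₁ →ₗ[TE K B] (Om2 K _).obj T.N₁) (c : K), SZ (u ∘ₗ β.ι₁ _) →
      SZ (u ∘ₗ β.τ L - c • LinearMap.id) → c = 0)
    (D : β.F.obj T.N₁ →ₗ[TE K B] T.N₂) (c : K)
    (hD : SZ ((T.ψ ∘ₗ β.ι₁ _) ∘ₗ o2 (c • LinearMap.id) - D ∘ₗ β.τ L)) : c = 0 := by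
  obtain ⟨b, hb⟩ := h.si.solve_right (-(D ∘ₗ β.ι₁ _))
  obtain ⟨σ, hσ, -⟩ := h.si
  refine hc (σ ∘ₗ (D + b ∘ₗ T.ψ)) c ((hb.post σ).of_ext fun x => ?_) ?_
  · simp only [LinearMap.comp_apply, LinearMap.sub_apply, LinearMap.add_apply,
      LinearMap.neg_apply, map_sub, map_add, map_neg]
    abel
  · rw [map_smul, o2_id] at hD
    refine ((((h.sz.post b).sub hD).post σ).add (hσ.smul c)).of_ext fun x => ?_
    simp only [LinearMap.comp_apply, LinearMap.sub_apply, LinearMap.add_apply,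
      LinearMap.neg_apply, map_sub, map_add, map_neg, LinearMap.smul_apply, LinearMap.id_apply,
      LinearMap.map_smul_of_tower, smul_sub]
    abel

end

theorem bt_left {U : Mod K (TE K B)} {V : Mod K B} (L : Lvl β.H U V) (hV : rk K B V β.X 1 = 0) :
    (L.step β.H0 β.pdD).BT β.L₀ := by
  set L' := L.step β.H0 β.pdD
  refine L'.bt_of β.L₀ β.H0
    { carrier := {α | ∀ v, α (L'.j v) = 0}
      add_mem' := fun ha hb v => by rw [LinearMap.add_apply, ha, hb, add_zero]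
      zero_mem' := fun _ => rfl
      smul_mem' := fun c _ ha v => by rw [LinearMap.smul_apply, ha, smul_zero] }
    (fun α hα v => (L'.φ_T β.L₀ α _).trans (by rw [L'.φj]; exact hα v))
    (fun α hα h => LinearMap.ext fun u => ?_) fun α => ?_
  · obtain ⟨w, hw⟩ := L'.exists_sub (u - L'.j (L'.r u)) (by rw [map_sub, L'.rj, sub_self])
    have h1 : α w = α (L'.φ w) := (LinearMap.congr_fun h w).trans (L'.φ_T β.L₀ α w)
    have h2 := congrArg α hw
    rwa [map_sub, ← h1, sub_self, map_sub, hα, sub_zero, eq_comm] at h2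
  · obtain ⟨g, hg⟩ := (om_ses V).extend hV (mkLin (β.xe.symm.toLinearMap ∘ₗ α.restrictScalars K ∘ₗ
      L'.j) fun b v => by
        simp only [LinearMap.comp_apply, L'.j_smul, LinearMap.coe_restrictScalars, map_smul]
        rfl)
    let g' : Mod.fr K (TE K B) U →ₗ[TE K B] β.X₀ := resTo _ (g.restrictScalars K ∘ₗ
      TensorProduct.map (dualBim K B).fst.toLinearMap L.r) fun e w => by
        simp only [LinearMap.comp_apply, map_smul_semi, LinearMap.coe_restrictScalars, map_smul]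
    refine ⟨α - g' ∘ₗ omι U, fun v => sub_eq_zero.2 ?_, ?_⟩
    · have h1 := LinearMap.congr_fun hg (L'.r (L'.j v))
      rw [mkLin_apply, L'.rj] at h1
      conv_lhs at h1 => rw [← L'.rj v]
      exact h1.symm.trans (congrArg g (omι_omS _ L.r L.r_smul _))
    · rw [sub_sub_cancel]
      exact ((pj_fr K _ U).src g').pre _

theorem bt_right {U : Mod K (TE K B)} {V : Mod K B} (L : Lvl β.H U V) :
    β.L₀.BT (L.step β.H0 β.pdD) := by
  set L' := L.step β.H0 β.pdD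
  refine β.L₀.bt_of L' β.H0 ⊤ (fun _ _ => trivial) (fun α _ h => LinearMap.ext fun u => ?_)
    fun α => ⟨α, trivial, by rw [sub_self]; exact Thru.zero⟩
  refine L'.inv₀ _ ?_ ((om_ses V).inj ?_)
  · conv_lhs => rw [h]
    exact β.L₀.φ_T L' α u
  · have := β.hom V (omι V ∘ₗ L'.rB ∘ₗ (teRes K B).map α ∘ₗ resTo _ β.xe.toLinearMap fun _ _ => rfl)
    exact (LinearMap.congr_fun this (β.xe.symm u)).trans (map_zero _).symm

theorem nv₀ : ¬ SZ (β.ξ₁.app β.X₀) := fun h => by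
  obtain ⟨Q, q, hq, hn⟩ := β.nv
  let L' := β.L₀.step β.H0 β.pdD
  obtain ⟨k, -, hk⟩ := (h.post (resTo _ L'.r L'.r_smul)).lift ((teInf K B).map q) hq
  let c : β.X →ₗ[B] (teRes K B).obj β.X₀ := resTo _ β.xe.toLinearMap fun _ _ => rfl
  refine hn ⟨resFrom _ (toRes (dualBim K B).fst Q).symm.toLinearMap (fun _ _ => rfl) ∘ₗ
    (teRes K B).map k ∘ₗ aun _ ∘ₗ (Om4 K B).map c, LinearMap.ext fun w => ?_⟩
  have h1 := LinearMap.congr_fun hk (afE _ ((Om4 K B).map c w, 0))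
  have h2 := β.ξ₁_aun β.X₀ ((Om4 K B).map c w)
  rw [β.ξ.nat] at h2
  refine h1.trans ((congrArg L'.r h2).trans ((om_ses β.X).inj ?_))
  generalize β.ξ.app _ w = z
  refine (omι_omS _ β.L₀.r β.L₀.r_smul _).trans ?_
  refine (congrArg _ (omι_omS (dualBim K B).inl (toRes _ β.X₀).symm.toLinearMap
    (fun _ _ => rfl) _)).trans ?_
  rw [omι_map]
  generalize omι _ z = y
  induction y using TensorProduct.induction_on with
  | zero => simp only [map_zero]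
  | tmul a b => rfl
  | add a b ha hb => simp only [map_add, ha, hb]

theorem nv_step (U : Mod K (TE K B)) (h : SZ (β.ξ₁.app ((Om K _).obj U))) : SZ (β.ξ₁.app U) :=
  Sq.bwd ⟨fun x => (β.ξ₁.nat (omι U) x).symm, fun x => (β.ξ₁.nat (frπ U) x).symm⟩
    (teSym K B).injective (β.GF_exact (om_ses U)) (Om_exact (om_ses U))
    (Om_pp (Mod.fr K _ U) (pj_fr K _ U)) h

theorem nv₁ : ¬ SZ (β.ξ₁.app (β.xs 1)) := fun h => β.nv₀ (β.nv_step _ h)

theorem rk_xs (W : Mod K B) (i j : ℕ) (hj : 4 < j) :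
    rk K B ((teRes K B).obj (β.xs i)) W j ≤ rk K B β.X W (j + i) := by
  induction i generalizing j with
  | zero =>
    exact rk_retract_pre (resFrom _ β.xe.symm.toLinearMap fun _ _ => rfl)
      (resTo _ β.xe.toLinearMap fun _ _ => rfl) fun _ => rfl
  | succ i ih =>
    have := (Res_exact (dualBim K B).inl (om_ses (β.xs i))).c₁ K W j
    rw [pd_res β.pdD (P := Mod.fr K _ (β.xs i)) (pj_fr K _ _) W j hj, zero_add] at this
    refine this.trans ((ih _ (by omega)).trans ?_)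
    rw [add_assoc, add_comm 1 i]

theorem rk_G (i k : ℕ) : rk K B ((Om4 K B).obj ((teRes K B).obj (β.xs i)))
    ((teRes K B).obj (β.xs k)) 1 ≤ rk K B β.X (oms β.X k) (5 + i) :=
  (rk_om4_le _ 0).trans ((β.rk_xs _ i 5 (by omega)).trans
    ((β.lv k).rk_le (β.idB β.X) _ (by omega)))

theorem rk_oms (i j : ℕ) : rk K B (oms β.X i) β.X (j + 1) = 0 := by
  induction i generalizing j with
  | zero => exact β.self j
  | succ i ih => exact nonpos_iff_eq_zero.1 ((rk_om_le _ j).trans (ih (j + 1)).le)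

theorem gz_left (i : ℕ) (D : (GF K B).obj (β.xs i) →ₗ[TE K B] (Om2 K _).obj β.X₀) :
    SZ (D ∘ₗ β.pr _) := by
  by_cases hi : i = 1
  · subst hi
    obtain ⟨c, hc⟩ := gz_one ((β.rk_G 1 3).trans β.n3') (β.ξ₁.app (β.xs 1)) D β.nv₁
    exact ((hc.pre (β.pr _)).add ((β.sz_ξ_pr _).smul c)).of_ext fun x =>
      (sub_add_cancel _ _).symm
  · exact (gz_zero (nonpos_iff_eq_zero.1 ((β.rk_G i 3).trans (β.n3 i hi).le)) D).pre _

theorem end_X₀ (γ : β.X₀ →ₗ[TE K B] β.X₀) : ∃ c : K, γ = c • LinearMap.id :=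
  ⟨γ (1 : K), LinearMap.ext fun x : K => by
    have := γ.map_smul_of_tower x (1 : K)
    exact (congrArg γ (mul_one x).symm).trans (this.trans (mul_comm x _))⟩

theorem c_zero (u : β.F.obj β.X₀ →ₗ[TE K B] (Om2 K _).obj β.X₀) (c : K) (h₁ : SZ (u ∘ₗ β.ι₁ _))
    (h₂ : SZ (u ∘ₗ β.τ β.L₀ - c • LinearMap.id)) : c = 0 := by
  by_contra hc
  let θ := (Om K _).map β.L₀.φE.symm.toLinearMap
  have h : SZ (u ∘ₗ (β.ι₁ _).coprod (β.ι₂ _) - c • (Om K _).map θ ∘ₗ LinearMap.snd _ _ _) := by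
    refine ((h₁.pre (LinearMap.fst _ _ _)).add ((h₂.sub h₁).pre ((Om K _).map θ ∘ₗ
      LinearMap.snd _ _ _))).of_ext fun x => ?_
    have : o2 β.L₀.φE.toLinearMap ((Om K _).map θ x.2) = x.2 := by
      unfold o2
      exact ((Om2 K _).equiv β.L₀.φE).apply_symm_apply x.2
    simp only [LinearMap.comp_apply, LinearMap.sub_apply, LinearMap.add_apply, map_add,
      LinearMap.coprod_apply, LinearMap.fst_apply, LinearMap.snd_apply, LinearMap.smul_apply,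
      LinearMap.id_apply, τ_apply, this]
    abel
  obtain ⟨s, -, e⟩ := h.extend (teSym K B).injective _ (β.F_ses β.X₀).inj
  obtain ⟨v, hv⟩ := (β.F_ses β.X₀).desc (omι _ ∘ₗ (u - s) - c • (Fr K _).map θ ∘ₗ β.p₂ _)
    fun x => by
      have := LinearMap.congr_fun e x
      rw [LinearMap.comp_apply] at this
      rw [LinearMap.sub_apply, LinearMap.comp_apply, LinearMap.sub_apply, this, LinearMap.sub_apply,
        LinearMap.comp_apply, sub_sub_cancel, LinearMap.smul_apply, LinearMap.smul_apply,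
        LinearMap.comp_apply, LinearMap.comp_apply, LinearMap.coprod_apply, map_add, p₂_ι₁, p₂_ι₂,
        zero_add, LinearMap.map_smul_of_tower, omι_map]
      exact sub_self _
  refine β.nv₀ ((((pj_fr K _ _).tgt v).post (frπ _)).smul c⁻¹ |>.of_eq
    (cancel_surj (β.F_ses β.X₀).surj (LinearMap.ext fun x => ?_)))
  have := congrArg (frπ _) (LinearMap.congr_fun hv x)
  rw [LinearMap.comp_apply, LinearMap.sub_apply, map_sub, LinearMap.comp_apply, (om_ses _).comp,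
    zero_sub, LinearMap.smul_apply, LinearMap.map_smul_of_tower, LinearMap.comp_apply, frπ_nat,
    eq_neg_of_add_eq_zero_right (β.rel₂ x), map_neg, ξ_gcan, smul_neg, neg_neg] at this
  rw [LinearMap.comp_apply, LinearMap.comp_apply, LinearMap.smul_apply, LinearMap.comp_apply, this,
    inv_smul_smul₀ hc]

theorem ds₀ : β.T₀.DS β.T₀ := by
  refine ds_of β.good₀ β.good₀ (fun D γ h => ⟨0, ?_⟩) (β.gz_left 0)
  obtain ⟨c, rfl⟩ := β.end_X₀ γ
  obtain rfl := ds_aux β.good₀ β.c_zero D c h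
  rw [map_zero, zero_smul, sub_zero, sub_zero]
  exact Thru.zero

theorem bt_l (i : ℕ) : (β.lv (i + 1)).BT β.L₀ := β.bt_left (β.lv i) (β.rk_oms i 0)

theorem bt_r (i : ℕ) : β.L₀.BT (β.lv (i + 1)) := β.bt_right (β.lv i)

theorem ds_left : ∀ i, (β.T₀.zs i).DS β.T₀
  | 0 => β.ds₀
  | i + 1 => ds_of (β.good (i + 1)) β.good₀ (fun _ γ _ => (β.bt_l i).1 γ) (β.gz_left (i + 1))

theorem ds_right (m : ℕ) : β.T₀.DS (β.T₀.zs (m + 3)) :=
  ds_of β.good₀ (β.good (m + 3)) (fun _ γ _ => (β.bt_r (m + 2)).1 γ) fun D =>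
    (gz_zero (nonpos_iff_eq_zero.1 ((β.rk_G 0 (m + 6)).trans (β.n6 m).le)) D).pre _

def tdata : TData K (TE K (Lam β.F)) :=
  tdataOfTrip (teSym K B).injective β.F_exact β.F_pp β.T₀ β.T₀_inj
    (fun i => iz_of (β.good (i + 1)) β.good₀ (β.bt_l i)) β.ds_left
    (fun m => iz_of β.good₀ (β.good (m + 2)) (β.bt_r (m + 1))) β.ds_right
    fun h => β.nv₀ ((Om_pp _ h).tgt _)

end BData

end

end Crest.Agent.R186
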