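import Crest.Agent.R186.Fun

/-!
Ranks of `Ext` groups along short exact sequences.
-/

set_option autoImplicit false

namespace Crest.Agent.R186

noncomputable section

universe u

open CategoryTheory Abelian
open scoped ModuleCat.Algebra

variable {K : Type u} [Field K] {R : Type u} [Ring R] [Algebra K R]
variable {X Y Z U V W : Type u}
  [AddCommGroup X] [AddCommGroup Y] [AddCommGroup Z] [AddCommGroup U] [AddCommGroup V]
  [AddCommGroup W]
  [Module R X] [Module R Y] [Module R Z] [Module R U] [Module R V] [Module R W]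

abbrev SES.sc {f : X →ₗ[R] Y} {g : Y →ₗ[R] Z} (h : SES f g) : ShortComplex (ModuleCat.{u} R) :=
  ModuleCat.shortComplexOfCompEqZero f g h.comp'

theorem SES.shortExact {f : X →ₗ[R] Y} {g : Y →ₗ[R] Z} (h : SES f g) : h.sc.ShortExact :=
  ModuleCat.shortComplex_shortExact _ h.fexact h.inj h.surj

variable (R U W) in
abbrev EX (j : ℕ) : Type u := Ext.{u} (ModuleCat.of R U) (ModuleCat.of R W) j

variable (K R U W) in
/-- The dimension of `Ext^j(U, W)`. -/
def rk (j : ℕ) : Cardinal.{u} := Module.rank K (EX R U W j)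

theorem rk_zero_iff {j : ℕ} : rk K R U W j = 0 ↔ ∀ e : EX R U W j, e = 0 :=
  rank_zero_iff_forall_zero

theorem subsingleton_of_rk {j : ℕ} (h : rk K R U W j = 0) : Subsingleton (EX R U W j) :=
  subsingleton_of_forall_eq 0 (rk_zero_iff.1 h)

theorem rank_le_add {A B C : Type u} [AddCommGroup A] [AddCommGroup B] [AddCommGroup C]
    [Module K A] [Module K B] [Module K C] (f : A →ₗ[K] B) (g : B →ₗ[K] C)
    (h : ∀ b, g b = 0 → ∃ a, f a = b) : Module.rank K B ≤ Module.rank K A + Module.rank K C := by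
  rw [← g.rank_range_add_rank_ker, add_comm]
  exact add_le_add ((Submodule.rank_mono (fun b hb => h b hb)).trans (rank_range_le f))
    (Submodule.rank_le _)

section

variable (K) {f : X →ₗ[R] Y} {g : Y →ₗ[R] Z} (h : SES f g)
include h

variable (W) in
theorem SES.c₁ (j : ℕ) : rk K R X W j ≤ rk K R Y W j + rk K R Z W (j + 1) :=
  rank_le_add ((Ext.mk₀ h.sc.f).precompOfLinear K _ (zero_add j))
    (h.shortExact.extClass.precompOfLinear K _ (add_comm 1 j))
    fun e he => Ext.contravariant_sequence_exact₁ h.shortExact _ e (add_comm 1 j) he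

variable (W) in
theorem SES.c₂ (j : ℕ) : rk K R Y W j ≤ rk K R Z W j + rk K R X W j :=
  rank_le_add ((Ext.mk₀ h.sc.g).precompOfLinear K _ (zero_add j))
    ((Ext.mk₀ h.sc.f).precompOfLinear K _ (zero_add j))
    fun e he => Ext.contravariant_sequence_exact₂ h.shortExact _ e he

variable (W) in
theorem SES.c₃ (j : ℕ) : rk K R Z W (j + 1) ≤ rk K R X W j + rk K R Y W (j + 1) :=
  rank_le_add (h.shortExact.extClass.precompOfLinear K _ (add_comm 1 j))
    ((Ext.mk₀ h.sc.g).precompOfLinear K _ (zero_add _))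
    fun e he => Ext.contravariant_sequence_exact₃ h.shortExact _ e he (add_comm 1 j)

variable (W) in
theorem SES.c₀ : rk K R Z W 0 ≤ rk K R Y W 0 :=
  have := h.shortExact.epi_g
  LinearMap.rank_le_of_injective ((Ext.mk₀ h.sc.g).precompOfLinear K _ (zero_add 0))
    (Ext.precomp_mk₀_injective_of_epi _ h.sc.g)

variable (U) in
theorem SES.v₁ (j : ℕ) : rk K R U X (j + 1) ≤ rk K R U Z j + rk K R U Y (j + 1) :=
  rank_le_add (h.shortExact.extClass.postcompOfLinear K _ rfl)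
    ((Ext.mk₀ h.sc.f).postcompOfLinear K _ (add_zero _))
    fun e he => Ext.covariant_sequence_exact₁ _ h.shortExact e he rfl

variable (U) in
theorem SES.v₂ (j : ℕ) : rk K R U Y j ≤ rk K R U X j + rk K R U Z j :=
  rank_le_add ((Ext.mk₀ h.sc.f).postcompOfLinear K _ (add_zero _))
    ((Ext.mk₀ h.sc.g).postcompOfLinear K _ (add_zero _))
    fun e he => Ext.covariant_sequence_exact₂ _ h.shortExact e he

variable (U) in
theorem SES.v₃ (j : ℕ) : rk K R U Z j ≤ rk K R U Y j + rk K R U X (j + 1) :=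
  rank_le_add ((Ext.mk₀ h.sc.g).postcompOfLinear K _ (add_zero _))
    (h.shortExact.extClass.postcompOfLinear K _ rfl)
    fun e he => Ext.covariant_sequence_exact₃ _ h.shortExact e rfl he

variable (U) in
theorem SES.v₀ : rk K R U X 0 ≤ rk K R U Y 0 :=
  have := h.shortExact.mono_f
  LinearMap.rank_le_of_injective ((Ext.mk₀ h.sc.f).postcompOfLinear K _ (add_zero 0))
    (Ext.postcomp_mk₀_injective_of_mono _ h.sc.f)

end

theorem thru_post {j : ℕ} (hY : rk K R U Y j = 0) {f : V →ₗ[R] W} (h : Thru Y f)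
    (e : EX R U V j) : e.comp (Ext.mk₀ (ModuleCat.ofHom f)) (add_zero j) = 0 := by
  induction h with
  | zero => exact (by simp : e.comp (Ext.mk₀ (0 : ModuleCat.of R V ⟶ ModuleCat.of R W)) (add_zero j) = 0)
  | comp a b =>
    rw [ModuleCat.ofHom_comp, ← Ext.mk₀_comp_mk₀, ← Ext.comp_assoc_of_second_deg_zero,
      rk_zero_iff.1 hY (e.comp _ _), Ext.zero_comp]
  | add _ _ h1 h2 => rw [ModuleCat.ofHom_add, Ext.mk₀_add, Ext.comp_add, h1, h2, add_zero]

theorem thru_pre {j : ℕ} (hY : rk K R Y W j = 0) {f : U →ₗ[R] V} (h : Thru Y f)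
    (e : EX R V W j) : (Ext.mk₀ (ModuleCat.ofHom f)).comp e (zero_add j) = 0 := by
  induction h with
  | zero => exact (by simp : (Ext.mk₀ (0 : ModuleCat.of R U ⟶ ModuleCat.of R V)).comp e (zero_add j) = 0)
  | comp a b =>
    rw [ModuleCat.ofHom_comp, ← Ext.mk₀_comp_mk₀_assoc,
      rk_zero_iff.1 hY ((Ext.mk₀ (ModuleCat.ofHom b)).comp e _), Ext.comp_zero]
  | add _ _ h1 h2 => rw [ModuleCat.ofHom_add, Ext.mk₀_add, Ext.add_comp, h1, h2, add_zero]

theorem rk_le_post {j : ℕ} (hY : rk K R U Y j = 0) (a : V →ₗ[R] W) (b : W →ₗ[R] V)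
    (h : Thru Y (b ∘ₗ a - LinearMap.id)) : rk K R U V j ≤ rk K R U W j := by
  refine LinearMap.rank_le_of_injective
    ((Ext.mk₀ (ModuleCat.ofHom a)).postcompOfLinear K _ (add_zero j))
    ((injective_iff_map_eq_zero _).2 fun e he => ?_)
  have he' : e.comp (Ext.mk₀ (ModuleCat.ofHom a)) (add_zero j) = 0 := he
  have h1 := thru_post hY h.neg e
  have h2 : ModuleCat.ofHom (-(b ∘ₗ a - LinearMap.id)) =
      𝟙 _ + -(ModuleCat.ofHom a ≫ ModuleCat.ofHom b) := by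
    ext x; simp [sub_eq_add_neg]
  rwa [h2, Ext.mk₀_add, Ext.comp_add, Ext.comp_mk₀_id, Ext.mk₀_neg, Ext.comp_neg,
    ← Ext.mk₀_comp_mk₀, ← Ext.comp_assoc_of_second_deg_zero, he', Ext.zero_comp, neg_zero,
    add_zero] at h1

theorem rk_le_pre {j : ℕ} (hY : rk K R Y W j = 0) (a : U →ₗ[R] V) (b : V →ₗ[R] U)
    (h : Thru Y (b ∘ₗ a - LinearMap.id)) : rk K R U W j ≤ rk K R V W j := by
  refine LinearMap.rank_le_of_injective
    ((Ext.mk₀ (ModuleCat.ofHom b)).precompOfLinear K _ (zero_add j))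
    ((injective_iff_map_eq_zero _).2 fun e he => ?_)
  have he' : (Ext.mk₀ (ModuleCat.ofHom b)).comp e (zero_add j) = 0 := he
  have h1 := thru_pre hY h.neg e
  have h2 : ModuleCat.ofHom (-(b ∘ₗ a - LinearMap.id)) =
      𝟙 _ + -(ModuleCat.ofHom a ≫ ModuleCat.ofHom b) := by
    ext x; simp [sub_eq_add_neg]
  rwa [h2, Ext.mk₀_add, Ext.add_comp, Ext.mk₀_id_comp, Ext.mk₀_neg, Ext.neg_comp,
    ← Ext.mk₀_comp_mk₀_assoc, he', Ext.comp_zero, neg_zero, add_zero] at h1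

theorem Thru.rk_post {j : ℕ} (h : Thru Y (LinearMap.id : W →ₗ[R] W)) (hY : rk K R U Y j = 0) :
    rk K R U W j = 0 :=
  rk_zero_iff.2 fun e => by
    have := thru_post hY h e
    rwa [ModuleCat.ofHom_id, Ext.comp_mk₀_id] at this

theorem Thru.rk_pre {j : ℕ} (h : Thru Y (LinearMap.id : U →ₗ[R] U)) (hY : rk K R Y W j = 0) :
    rk K R U W j = 0 :=
  rk_zero_iff.2 fun e => by
    have := thru_pre hY h e
    rwa [ModuleCat.ofHom_id, Ext.mk₀_id_comp] at this

theorem rk_proj [Module.Projective R U] (j : ℕ) : rk K R U W (j + 1) = 0 :=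
  rk_zero_iff.2 fun e => Ext.eq_zero_of_projective e

theorem PJ.rk (h : PJ R U) (j : ℕ) : rk K R U W (j + 1) = 0 :=
  have := h.projective
  rk_proj j

theorem rk_inj (h : Module.Injective R W) (j : ℕ) : rk K R U W (j + 1) = 0 :=
  rk_zero_iff.2 fun e =>
    have : Injective (ModuleCat.of R W) := Module.injective_object_of_injective_module R W
    Ext.eq_zero_of_injective e

theorem rk0_of_hom (h : ∀ φ : U →ₗ[R] W, φ = 0) : rk K R U W 0 = 0 :=
  rk_zero_iff.2 fun e => by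
    rw [← Ext.mk₀_homEquiv₀_apply e, Ext.mk₀_eq_zero_iff]
    exact ModuleCat.hom_ext (h _)

theorem hom_of_rk0 (h : rk K R U W 0 = 0) (φ : U →ₗ[R] W) : φ = 0 := by
  have := rk_zero_iff.1 h (Ext.mk₀ (ModuleCat.ofHom φ))
  rw [Ext.mk₀_eq_zero_iff] at this
  exact congrArg ModuleCat.Hom.hom this

theorem rk_retract_post {j : ℕ} (a : V →ₗ[R] W) (b : W →ₗ[R] V) (h : ∀ x, b (a x) = x) :
    rk K R U V j ≤ rk K R U W j := by
  refine LinearMap.rank_le_of_injective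
    ((Ext.mk₀ (ModuleCat.ofHom a)).postcompOfLinear K _ (add_zero j))
    ((injective_iff_map_eq_zero _).2 fun e he => ?_)
  have he' : e.comp (Ext.mk₀ (ModuleCat.ofHom a)) (add_zero j) = 0 := he
  have h2 : ModuleCat.ofHom a ≫ ModuleCat.ofHom b = 𝟙 _ := ModuleCat.hom_ext (LinearMap.ext h)
  rw [← e.comp_mk₀_id, ← h2, ← Ext.mk₀_comp_mk₀, ← Ext.comp_assoc_of_second_deg_zero, he',
    Ext.zero_comp]

theorem rk_retract_pre {j : ℕ} (a : U →ₗ[R] V) (b : V →ₗ[R] U) (h : ∀ x, b (a x) = x) :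
    rk K R U W j ≤ rk K R V W j := by
  refine LinearMap.rank_le_of_injective
    ((Ext.mk₀ (ModuleCat.ofHom b)).precompOfLinear K _ (zero_add j))
    ((injective_iff_map_eq_zero _).2 fun e he => ?_)
  have he' : (Ext.mk₀ (ModuleCat.ofHom b)).comp e (zero_add j) = 0 := he
  have h2 : ModuleCat.ofHom a ≫ ModuleCat.ofHom b = 𝟙 _ := ModuleCat.hom_ext (LinearMap.ext h)
  rw [← e.mk₀_id_comp, ← h2, ← Ext.mk₀_comp_mk₀_assoc, he', Ext.comp_zero]

theorem rk_equiv_post {j : ℕ} (e : V ≃ₗ[R] W) : rk K R U V j ≤ rk K R U W j :=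
  rk_retract_post e.toLinearMap e.symm.toLinearMap e.symm_apply_apply

theorem rk_equiv_pre {j : ℕ} (e : U ≃ₗ[R] V) : rk K R U W j ≤ rk K R V W j :=
  rk_retract_pre e.toLinearMap e.symm.toLinearMap e.symm_apply_apply

theorem ofHom_smul [Module K W] [IsScalarTower K R W] (c : K) (φ : U →ₗ[R] W) :
    ModuleCat.ofHom (c • φ) = (Linear.homModule (R := K) (ModuleCat.of R U)
      (ModuleCat.of R W)).toSMul.smul c (ModuleCat.ofHom φ) := by
  ext x
  exact (algebraMap_smul R c (φ x)).symm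

theorem mk₀_ofHom_smul [Module K W] [IsScalarTower K R W] (c : K) (φ : U →ₗ[R] W) :
    (Ext.mk₀ (ModuleCat.ofHom (c • φ)) : EX R U W 0) = c • Ext.mk₀ (ModuleCat.ofHom φ) := by
  rw [ofHom_smul]
  exact Ext.mk₀_smul c _

theorem rk0_le [Module K W] [IsScalarTower K R W] :
    rk K R U W 0 ≤ Module.rank K (U →ₗ[R] W) := by
  refine LinearMap.rank_le_of_surjective
    { toFun := fun φ : U →ₗ[R] W => (Ext.mk₀ (ModuleCat.ofHom φ) : EX R U W 0)
      map_add' := fun a b => by rw [ModuleCat.ofHom_add, Ext.mk₀_add]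
      map_smul' := mk₀_ofHom_smul } fun e => ⟨(Ext.homEquiv₀ e).hom, Ext.mk₀_homEquiv₀_apply e⟩

section

variable {f : X →ₗ[R] Y} {g : Y →ₗ[R] Z} (h : SES f g)
include h

theorem SES.extend_iff (k : X →ₗ[R] W) :
    h.shortExact.extClass.comp (Ext.mk₀ (ModuleCat.ofHom k)) (add_zero 1) = 0 ↔
      ∃ k' : Y →ₗ[R] W, k' ∘ₗ f = k := by
  constructor
  · intro hk
    obtain ⟨x, hx⟩ := Ext.contravariant_sequence_exact₁ h.shortExact _ _ (add_zero 1) hk
    rw [← Ext.mk₀_homEquiv₀_apply x, Ext.mk₀_comp_mk₀] at hx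
    exact ⟨(Ext.homEquiv₀ x).hom, congrArg ModuleCat.Hom.hom ((Ext.mk₀_bijective _ _).1 hx)⟩
  · rintro ⟨k', rfl⟩
    rw [ModuleCat.ofHom_comp, ← Ext.mk₀_comp_mk₀]
    exact h.shortExact.extClass_comp_assoc _

theorem SES.lift_iff (k : U →ₗ[R] Z) :
    (Ext.mk₀ (ModuleCat.ofHom k)).comp h.shortExact.extClass (zero_add 1) = 0 ↔
      ∃ k' : U →ₗ[R] Y, g ∘ₗ k' = k := by
  constructor
  · intro hk
    obtain ⟨x, hx⟩ := Ext.covariant_sequence_exact₃ _ h.shortExact _ (zero_add 1) hk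
    rw [← Ext.mk₀_homEquiv₀_apply x, Ext.mk₀_comp_mk₀] at hx
    exact ⟨(Ext.homEquiv₀ x).hom, congrArg ModuleCat.Hom.hom ((Ext.mk₀_bijective _ _).1 hx)⟩
  · rintro ⟨k', rfl⟩
    rw [ModuleCat.ofHom_comp, ← Ext.mk₀_comp_mk₀_assoc]
    exact (congrArg (fun t => (Ext.mk₀ (ModuleCat.ofHom k')).comp t (zero_add 1))
      h.shortExact.comp_extClass).trans (Ext.comp_zero _ _ _ _ _)

theorem SES.extend (hz : rk K R Z W 1 = 0) (k : X →ₗ[R] W) : ∃ k' : Y →ₗ[R] W, k' ∘ₗ f = k :=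
  (h.extend_iff k).1 (rk_zero_iff.1 hz _)

theorem SES.lift' (hz : rk K R U X 1 = 0) (k : U →ₗ[R] Z) : ∃ k' : U →ₗ[R] Y, g ∘ₗ k' = k :=
  (h.lift_iff k).1 (rk_zero_iff.1 hz _)

theorem SES.lift_rank_one [Module K Z] [IsScalarTower K R Z] (hz : rk K R U X 1 ≤ 1)
    (k₁ k₂ : U →ₗ[R] Z) (hk : ¬ ∃ k' : U →ₗ[R] Y, g ∘ₗ k' = k₁) :
    ∃ (c : K) (k' : U →ₗ[R] Y), g ∘ₗ k' = k₂ - c • k₁ := by
  rw [← h.lift_iff] at hk
  obtain ⟨v, hv⟩ := rank_le_one_iff.1 hz
  obtain ⟨c₁, h₁⟩ := hv ((Ext.mk₀ (ModuleCat.ofHom k₁)).comp h.shortExact.extClass (zero_add 1))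
  obtain ⟨c₂, h₂⟩ := hv ((Ext.mk₀ (ModuleCat.ofHom k₂)).comp h.shortExact.extClass (zero_add 1))
  have hc : c₁ ≠ 0 := by
    rintro rfl
    exact hk (by rw [← h₁, zero_smul])
  refine ⟨c₂ / c₁, (h.lift_iff _).1 ?_⟩
  have e : ModuleCat.ofHom (k₂ - (c₂ / c₁) • k₁) =
      ModuleCat.ofHom k₂ + -ModuleCat.ofHom ((c₂ / c₁) • k₁) := by
    ext x; simp [sub_eq_add_neg]
  rw [e, Ext.mk₀_add, Ext.add_comp, Ext.mk₀_neg, Ext.neg_comp, mk₀_ofHom_smul, Ext.smul_comp,
    ← h₁, ← h₂, smul_smul, div_mul_cancel₀ _ hc, add_neg_cancel]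

theorem SES.rk1_of_extend (hY : rk K R Y W 1 = 0)
    (hk : ∀ k : X →ₗ[R] W, ∃ k' : Y →ₗ[R] W, k' ∘ₗ f = k) : rk K R Z W 1 = 0 :=
  rk_zero_iff.2 fun e => by
    obtain ⟨x, rfl⟩ := Ext.contravariant_sequence_exact₃ h.shortExact _ e
      (rk_zero_iff.1 hY _) (add_zero 1)
    rw [← Ext.mk₀_homEquiv₀_apply x]
    exact (h.extend_iff (Ext.homEquiv₀ x).hom).2 (hk _)

end

/-- A module is projective when its extension by the syzygy splits. -/
theorem pj_of_rk [FiniteDimensional K R] (U : Mod K R)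
    (h : rk K R U ((Om K R).obj U) 1 = 0) : PJ R U := by
  obtain ⟨s, hs⟩ := (om_ses U).lift' h LinearMap.id
  exact (pj_fr K R U).retract s (frπ U) (LinearMap.congr_fun hs)

end

end Crest.Agent.R186
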