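import Crest.Agent.R186.Lvl

/-!
The exact functor on modules over `E = T(B)` that defines the triangular algebra.
-/

set_option autoImplicit false
set_option linter.unusedSectionVars false

namespace Crest.Agent.R186

noncomputable section

universe u

open scoped TensorProduct

variable {K : Type u} [Field K] {B : Type u} [Ring B] [Algebra K B] [FiniteDimensional K B]

variable (K B) in
abbrev GF : LF K (TE K B) (TE K B) := (AF K B).comp ((Om4 K B).comp (teRes K B))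

def cB (U : Mod K (TE K B)) :
    (Om K B).obj ((teRes K B).obj U) →ₗ[B] (teRes K B).obj ((Om K (TE K B)).obj U) :=
  resTo _ (omS (dualBim K B).inl (toRes _ U).symm.toLinearMap fun _ _ => rfl) (omS_smul _ _ _)

theorem cB_nat {U V : Mod K (TE K B)} (f : U →ₗ[TE K B] V)
    (x : (Om K B).obj ((teRes K B).obj U)) :
    cB V ((Om K B).map ((teRes K B).map f) x) =
      (teRes K B).map ((Om K (TE K B)).map f) (cB U x) := by
  rw [cB, cB, resTo_apply, resTo_apply, Res_map]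
  refine congrArg _ ((om_ses V).inj ?_)
  rw [omι_map, omι_omS, omι_omS, omι_map, Fr_map_eq, Fr_map_eq, LinearMap.lTensor_map,
    LinearMap.map_lTensor]
  rfl

def can (H : K) (U : Mod K (TE K B)) :
    (teRes K B).obj U →ₗ[B] (teRes K B).obj ((teTw H).obj U) :=
  resTo _ ((toRes _ U).toLinearMap ∘ₗ (toRes _ U).symm.toLinearMap) fun b w => by
    change toRes _ U ((dualBim K B).inl b • _) =
      toRes _ U ((dualBim K B).scale H ((dualBim K B).inl b) • _)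
    rw [Bim.scale_inl]
    rfl

namespace BData

variable (β : BData K B)

include β in
theorem GF_exact : (GF K B).Exact := fun {U V W f g} h => by
  have h1 := Om4_exact (Res_exact (dualBim K B).inl h)
  have h2 := AF_ses h1 (h1.extend (K := K)
    (nonpos_iff_eq_zero.1 ((rk_om4_le _ 0).trans (β.idB _ _ (by omega)).le)))
  exact h2

include β in
theorem GF_pp : (GF K B).PP := fun _ hP => AF_pp _ (pd_res β.pdD hP).om.om.om.om.pj

def ξ₁ : NT (GF K B) (Om K (TE K B)) where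
  app U := adj (cB U ∘ₗ β.ξ.app ((teRes K B).obj U))
  nat {U V} f := LinearMap.congr_fun (AF_hom_ext
    (g := adj (cB V ∘ₗ β.ξ.app ((teRes K B).obj V)) ∘ₗ (GF K B).map f)
    (g' := (Om K (TE K B)).map f ∘ₗ adj (cB U ∘ₗ β.ξ.app ((teRes K B).obj U))) fun u => by
      rw [← LF.map_map, ← LF.map_map, adj_aun]
      refine (congrArg _ (aun_nat ((Om4 K B).map ((teRes K B).map f)) u)).trans ?_
      rw [adj_aun, LinearMap.comp_apply (cB U), LinearMap.comp_apply (cB V), ← cB_nat]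
      exact congrArg _ (β.ξ.nat _ _))

theorem ξ₁_aun (U : Mod K (TE K B)) (u : (Om4 K B).obj ((teRes K B).obj U)) :
    (teRes K B).map (β.ξ₁.app U) (aun _ u) = cB U (β.ξ.app _ u) := adj_aun _ _

def gcan (U : Mod K (TE K B)) : (GF K B).obj U →ₗ[TE K B] (GF K B).obj ((teTw β.H).obj U) :=
  ((AF K B).comp (Om4 K B)).map (can β.H U)

def ξ₂ : NT (GF K B) ((Om K (TE K B)).comp (teTw β.H)) where
  app U := β.ξ₁.app ((teTw β.H).obj U) ∘ₗ β.gcan U
  nat {U V} f x := by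
    refine Eq.trans ?_ (β.ξ₁.nat ((teTw β.H).map f) _)
    refine congrArg (β.ξ₁.app _) ?_
    exact (((AF K B).comp (Om4 K B)).map_map ((teRes K B).map f) (can β.H V) x).trans
      (((AF K B).comp (Om4 K B)).map_map (can β.H U) ((teRes K B).map ((teTw β.H).map f)) x).symm

def fNT : NT ((GF K B).prod (((Fr K _).comp (Om K _)).prod
    ((Fr K _).comp ((Om K _).comp (teTw β.H))))) ((Om K _).prod ((Om K _).comp (teTw β.H))) where
  app U := ((β.ξ₁.app U).prod (β.ξ₂.app U)).coprod ((frπ _).prodMap (frπ _))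
  nat f x := Prod.ext
    ((congrArg₂ (· + ·) (β.ξ₁.nat f x.1) (frπ_nat _ x.2.1)).trans (map_add _ _ _).symm)
    ((congrArg₂ (· + ·) (β.ξ₂.nat f x.1) (frπ_nat _ x.2.2)).trans (map_add _ _ _).symm)

theorem fNT_surj (U : Mod K (TE K B)) : Function.Surjective (β.fNT.app U) := fun y => by
  obtain ⟨a, ha⟩ := frπ_surj _ y.1
  obtain ⟨b, hb⟩ := frπ_surj _ y.2
  exact ⟨(0, a, b), Prod.ext ((congrArg (· + _) (map_zero _)).trans ((zero_add _).trans ha))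
    ((congrArg (· + _) (map_zero _)).trans ((zero_add _).trans hb))⟩

def F : LF K (TE K B) (TE K B) := β.fNT.ker

theorem F_exact : β.F.Exact :=
  β.fNT.ker_exact β.fNT_surj
    (LF.Exact.prod β.GF_exact (LF.Exact.prod (LF.Exact.comp Fr_exact Om_exact)
      (LF.Exact.comp Fr_exact (LF.Exact.comp Om_exact (Res_exact _)))))
    (LF.Exact.prod Om_exact (LF.Exact.comp Om_exact (Res_exact _)))

theorem F_pp : β.F.PP :=
  β.fNT.ker_pp β.fNT_surj (β.GF_pp.prod ((Fr_pp.comp Om_pp).prod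
    (Fr_pp.comp (Om_pp.comp (teTw_pp β.H0))))) (Om_pp.prod (Om_pp.comp (teTw_pp β.H0)))

def pr (U : Mod K (TE K B)) : β.F.obj U →ₗ[TE K B] (GF K B).obj U :=
  LinearMap.fst _ _ _ ∘ₗ β.fNT.ι U

def p₁ (U : Mod K (TE K B)) : β.F.obj U →ₗ[TE K B] Mod.fr K (TE K B) ((Om K _).obj U) :=
  LinearMap.fst _ _ _ ∘ₗ LinearMap.snd _ _ _ ∘ₗ β.fNT.ι U

def p₂ (U : Mod K (TE K B)) :
    β.F.obj U →ₗ[TE K B] Mod.fr K (TE K B) ((Om K _).obj ((teTw β.H).obj U)) :=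
  LinearMap.snd _ _ _ ∘ₗ LinearMap.snd _ _ _ ∘ₗ β.fNT.ι U

theorem F_ext {U : Mod K (TE K B)} {x y : β.F.obj U} (h : β.pr U x = β.pr U y)
    (h₁ : β.p₁ U x = β.p₁ U y) (h₂ : β.p₂ U x = β.p₂ U y) : x = y :=
  β.fNT.ι_inj U (Prod.ext h (Prod.ext h₁ h₂))

theorem rel₁ {U : Mod K (TE K B)} (x : β.F.obj U) :
    β.ξ₁.app U (β.pr U x) + frπ _ (β.p₁ U x) = 0 := congrArg Prod.fst (β.fNT.app_ι U x)

theorem rel₂ {U : Mod K (TE K B)} (x : β.F.obj U) :
    β.ξ₁.app _ (β.gcan U (β.pr U x)) + frπ _ (β.p₂ U x) = 0 := congrArg Prod.snd (β.fNT.app_ι U x)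

theorem exists_F {U : Mod K (TE K B)} (g : (GF K B).obj U) (a : Mod.fr K (TE K B) ((Om K _).obj U))
    (b : Mod.fr K (TE K B) ((Om K _).obj ((teTw β.H).obj U))) (h₁ : β.ξ₁.app U g + frπ _ a = 0)
    (h₂ : β.ξ₁.app _ (β.gcan U g) + frπ _ b = 0) :
    ∃ x : β.F.obj U, β.pr U x = g ∧ β.p₁ U x = a ∧ β.p₂ U x = b :=
  ⟨β.fNT.el (g, a, b) (Prod.ext h₁ h₂), rfl, rfl, rfl⟩

def ι₁ (U : Mod K (TE K B)) : (Om2 K _).obj U →ₗ[TE K B] β.F.obj U :=
  β.fNT.cod (LinearMap.inr _ _ _ ∘ₗ LinearMap.inl _ _ _ ∘ₗ omι _) fun w => Prod.ext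
    ((congrArg₂ (· + ·) (map_zero (β.ξ₁.app U)) ((om_ses _).comp w)).trans (add_zero _))
    ((congrArg₂ (· + ·) (map_zero (β.ξ₂.app U)) (map_zero (frπ _))).trans (add_zero _))

def ι₂ (U : Mod K (TE K B)) : (Om2 K _).obj ((teTw β.H).obj U) →ₗ[TE K B] β.F.obj U :=
  β.fNT.cod (LinearMap.inr _ _ _ ∘ₗ LinearMap.inr _ _ _ ∘ₗ omι _) fun w => Prod.ext
    ((congrArg₂ (· + ·) (map_zero (β.ξ₁.app U)) (map_zero (frπ _))).trans (add_zero _))
    ((congrArg₂ (· + ·) (map_zero (β.ξ₂.app U)) ((om_ses _).comp w)).trans (add_zero _))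

section

variable (U : Mod K (TE K B)) (w : (Om2 K _).obj U) (w' : (Om2 K _).obj ((teTw β.H).obj U))

theorem pr_ι₁ : β.pr U (β.ι₁ U w) = 0 := rfl
theorem p₁_ι₁ : β.p₁ U (β.ι₁ U w) = omι _ w := rfl
theorem p₂_ι₁ : β.p₂ U (β.ι₁ U w) = 0 := rfl
theorem pr_ι₂ : β.pr U (β.ι₂ U w') = 0 := rfl
theorem p₁_ι₂ : β.p₁ U (β.ι₂ U w') = 0 := rfl
theorem p₂_ι₂ : β.p₂ U (β.ι₂ U w') = omι _ w' := rfl

end

theorem F_ι₁ {U V : Mod K (TE K B)} (f : U →ₗ[TE K B] V) (w : (Om2 K _).obj U) :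
    β.F.map f (β.ι₁ U w) = β.ι₁ V ((Om2 K _).map f w) :=
  β.F_ext (map_zero ((GF K B).map f)) rfl
    (map_zero (((Fr K _).comp ((Om K _).comp (teTw β.H))).map f))

theorem F_ι₂ {U V : Mod K (TE K B)} (f : U →ₗ[TE K B] V) (w : (Om2 K _).obj ((teTw β.H).obj U)) :
    β.F.map f (β.ι₂ U w) = β.ι₂ V ((Om2 K _).map ((teTw β.H).map f) w) :=
  β.F_ext (map_zero ((GF K B).map f)) (map_zero (((Fr K _).comp (Om K _)).map f)) rfl

theorem F_ses (U : Mod K (TE K B)) : SES ((β.ι₁ U).coprod (β.ι₂ U)) (β.pr U) := by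
  refine ⟨(injective_iff_map_eq_zero _).2 fun x hx => ?_, fun x => ?_, fun t ht => ?_, fun g => ?_⟩
  · have h1 := congrArg (β.p₁ U) hx
    have h2 := congrArg (β.p₂ U) hx
    rw [LinearMap.coprod_apply, map_add, map_zero] at h1 h2
    rw [p₁_ι₁, p₁_ι₂, add_zero, map_eq_zero_iff _ (om_ses _).inj] at h1
    rw [p₂_ι₁, p₂_ι₂, zero_add, map_eq_zero_iff _ (om_ses _).inj] at h2
    exact Prod.ext h1 h2
  · rw [LinearMap.coprod_apply, map_add, pr_ι₁, pr_ι₂, add_zero]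
  · have h1 := β.rel₁ t
    have h2 := β.rel₂ t
    rw [ht, map_zero, zero_add] at h1
    rw [ht, map_zero, map_zero, zero_add] at h2
    refine ⟨(omEl _ h1, omEl _ h2), β.F_ext ?_ ?_ ?_⟩
    · rw [LinearMap.coprod_apply, map_add, pr_ι₁, pr_ι₂, add_zero, ht]
    · rw [LinearMap.coprod_apply, map_add, p₁_ι₁, p₁_ι₂, add_zero]; rfl
    · rw [LinearMap.coprod_apply, map_add, p₂_ι₁, p₂_ι₂, zero_add]; rfl
  · obtain ⟨a, ha⟩ := frπ_surj _ (-β.ξ₁.app U g)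
    obtain ⟨b, hb⟩ := frπ_surj _ (-β.ξ₁.app _ (β.gcan U g))
    obtain ⟨x, hx, -⟩ := β.exists_F g a b (by rw [ha, add_neg_cancel]) (by rw [hb, add_neg_cancel])
    exact ⟨x, hx⟩

theorem sz_ξ_pr (U : Mod K (TE K B)) : SZ (β.ξ₁.app U ∘ₗ β.pr U) :=
  (((pj_fr K _ _).src (frπ _)).pre (β.p₁ U)).neg.of_ext fun x =>
    eq_neg_of_add_eq_zero_left (β.rel₁ x)

theorem finish {U : Mod K (TE K B)} {Y : Type u} [AddCommGroup Y] [Module (TE K B) Y]
    (D : β.F.obj U →ₗ[TE K B] Y) (h₁ : SZ (D ∘ₗ β.ι₁ U)) (h₂ : SZ (D ∘ₗ β.ι₂ U))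
    (hG : ∀ D' : (GF K B).obj U →ₗ[TE K B] Y, SZ (D' ∘ₗ β.pr U)) : SZ D := by
  have h : SZ (D ∘ₗ (β.ι₁ U).coprod (β.ι₂ U)) :=
    ((h₁.pre (LinearMap.fst _ _ _)).add (h₂.pre (LinearMap.snd _ _ _))).of_ext fun x => by
      rw [LinearMap.comp_apply, LinearMap.coprod_apply, map_add]; rfl
  obtain ⟨s, hs, e⟩ := h.extend (teSym K B).injective _ (β.F_ses U).inj
  obtain ⟨D', hD'⟩ := (β.F_ses U).desc (D - s) fun x =>
    sub_eq_zero.2 (LinearMap.congr_fun e x).symm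
  exact ((hG D').add hs).of_eq (by rw [hD', sub_add_cancel])

end BData

/-- Maps out of `G U` into a module with a free cover are controlled by `Ext¹` over `B`. -/
theorem sz_of_lift {U W : Mod K (TE K B)} (D : (GF K B).obj U →ₗ[TE K B] W)
    (h : ∃ k, (teRes K B).map (frπ W) ∘ₗ k = (teRes K B).map D ∘ₗ aun _) : SZ D := by
  obtain ⟨k, hk⟩ := h
  refine (((pj_fr K _ _).src (frπ W)).pre (adj (W := Mod.fr K _ W) k)).of_eq
    (AF_hom_ext fun u => ?_)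
  rw [LF.map_comp (V := Mod.fr K _ W), LinearMap.comp_apply, adj_aun]
  exact (LinearMap.congr_fun hk u).symm

theorem gz_zero {U W : Mod K (TE K B)}
    (h : rk K B ((Om4 K B).obj ((teRes K B).obj U)) ((teRes K B).obj ((Om K _).obj W)) 1 = 0)
    (D : (GF K B).obj U →ₗ[TE K B] W) : SZ D :=
  sz_of_lift D ((Res_exact _ (om_ses W)).lift' h _)

theorem gz_one {U W : Mod K (TE K B)}
    (h : rk K B ((Om4 K B).obj ((teRes K B).obj U)) ((teRes K B).obj ((Om K _).obj W)) 1 ≤ 1)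
    (D₁ D : (GF K B).obj U →ₗ[TE K B] W) (h₁ : ¬ SZ D₁) : ∃ c : K, SZ (D - c • D₁) := by
  obtain ⟨c, k, hk⟩ := (Res_exact _ (om_ses W)).lift_rank_one h ((teRes K B).map D₁ ∘ₗ aun _)
    ((teRes K B).map D ∘ₗ aun _) fun h => h₁ (sz_of_lift D₁ h)
  exact ⟨c, sz_of_lift _ ⟨k, hk⟩⟩

end

end Crest.Agent.R186
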