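import Crest.Agent.R186.CFacts
import Crest.Agent.R186.EPart
import Crest.Agent.R186.Conseq
import Crest.Agent.R186.BaseChange

/-!
Assembly: the symmetric algebra over the rational function field.
-/

set_option autoImplicit false

namespace Crest.Agent.R186

noncomputable section

universe u

open scoped TensorProduct

section

variable {K : Type u} [Field K]

def eight : (((K × K) × (K × K)) × ((K × K) × (K × K))) ≃ₐ[K] (Fin 8 → K) where
  toFun x := ![x.1.1.1, x.1.1.2, x.1.2.1, x.1.2.2, x.2.1.1, x.2.1.2, x.2.2.1, x.2.2.2]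
  invFun f := (((f 0, f 1), (f 2, f 3)), ((f 4, f 5), (f 6, f 7)))
  left_inv _ := rfl
  right_inv f := by funext i; fin_cases i <;> rfl
  map_mul' x y := by funext i; fin_cases i <;> rfl
  map_add' x y := by funext i; fin_cases i <;> rfl
  commutes' c := by funext i; fin_cases i <;> rfl

def four : ((K × K) ⊗[K] (K × K)) ≃ₐ[K] ((K × K) × (K × K)) :=
  (Algebra.TensorProduct.prodRight K K (K × K) K K).trans
    (AlgEquiv.prodCongr (Algebra.TensorProduct.rid K K (K × K))
      (Algebra.TensorProduct.rid K K (K × K)))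

variable {q : K}

def πB : CA q ⊗[K] CA q →ₐ[K] (K × K) × (K × K) :=
  four.toAlgHom.comp ((Algebra.TensorProduct.map (AlgHom.id K (K × K)) CA.πC).comp
    (Algebra.TensorProduct.map CA.πC (AlgHom.id K (CA q))))

theorem nk_πB : NK (πB : CA q ⊗[K] CA q →ₐ[K] _) :=
  (NK.equiv (four (K := K))).comp ((CA.nk_πC.lTensor _).comp (CA.nk_πC.rTensor _))

theorem πB_tmul {c : CA q} (h : CA.πC c = 0) : πB (c ⊗ₜ[K] (1 : CA q)) = 0 := by
  simp [πB, h]

def rdataOf {B : Type u} [Ring B] [Algebra K B] [FiniteDimensional K B]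
    (F : LF K (TE K B) (TE K B)) (π : B →ₐ[K] (K × K) × (K × K)) (h : NK π) (a b : B)
    (ha : π a = 0) (hb : π b = 0) (hab : a * b * a * b ≠ 0) : RData K (TE K (Lam F)) :=
  let π' : TE K B →ₐ[K] _ := π.comp (dualBim K B).fst
  have h' : NK π' := h.comp (dualBim K B).nk
  let p : TE K (Lam F) →ₐ[K] (Fin 8 → K) := eight.toAlgHom.comp ((π'.prodMap π').comp
    ((triBim F).fst.comp (dualBim K (Lam F)).fst))
  have hp : NK p := (NK.equiv eight).comp ((h'.prod h').comp
    ((triBim F).nk.comp (dualBim K (Lam F)).nk))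
  let j : B → TE K (Lam F) := fun x =>
    (dualBim K (Lam F)).inl ((triBim F).inl ((dualBim K B).inl x, 0))
  have hj : ∀ x, π x = 0 → p (j x) = 0 := fun x hx => by
    change eight (π x, π' 0) = 0
    rw [hx, map_zero π']
    exact map_zero eight
  { π := p
    surj := hp.surj
    nil := hp.nil
    four := ⟨j a, j b, j a, j b, hj a ha, hj b hb, hj a ha, hj b hb, fun h0 => hab
      (congrArg (fun x => (dualBim K B).fst ((triBim F).fst ((dualBim K (Lam F)).fst x)).1) h0)⟩ }

theorem abab_ne : ((CA.ea : CA q) ⊗ₜ[K] (1 : CA q)) * (CA.eb ⊗ₜ 1) * (CA.ea ⊗ₜ 1) *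
    (CA.eb ⊗ₜ 1) ≠ 0 := fun h => by
  have := congrArg (TensorProduct.lift (LinearMap.mul K K ∘ₗ CA.cww |>.compl₂ CA.cs)) h
  simp at this

theorem exists_of_bdata {B : Type u} [Ring B] [Algebra K B] [FiniteDimensional K B]
    (β : BData K B) (π : B →ₐ[K] (K × K) × (K × K)) (h : NK π) (a b : B)
    (ha : π a = 0) (hb : π b = 0) (hab : a * b * a * b ≠ 0) :
    ∃ (A : Type u) (_ : Ring A) (_ : Algebra K A) (_ : FiniteDimensional K A),
      Nonempty (TData K A) ∧ Nonempty (RData K A) :=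
  ⟨TE K (Lam β.F), inferInstance, inferInstance, inferInstance, ⟨β.tdata⟩,
    ⟨rdataOf β.F π h a b ha hb hab⟩⟩

theorem πC_ea : CA.πC (CA.ea : CA q) = 0 := rfl

theorem πC_eb : CA.πC (CA.eb : CA q) = 0 := rfl

theorem exists_data (hq : q ≠ 0) (hq' : ∀ k : ℕ, q ^ (k + 1) ≠ 1) :
    ∃ (A : Type u) (_ : Ring A) (_ : Algebra K A) (_ : FiniteDimensional K A),
      Nonempty (TData K A) ∧ Nonempty (RData K A) := by
  have hn : ∀ j, qn q (j + 1) ≠ 0 := fun j h => hq' j (by
    have := mul_geom_sum q (j + 1)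
    rw [show ∑ i ∈ Finset.range (j + 1), q ^ i = 0 from h, mul_zero] at this
    exact sub_eq_zero.1 this.symm)
  have β : BData K (CA q ⊗[K] CA q) := (CA.cd hq hn).bdata q hq hq'
  exact exists_of_bdata β πB nk_πB _ _ (πB_tmul πC_ea) (πB_tmul πC_eb) abab_ne

end

abbrev k₀ : Type := FractionRing (MvPolynomial (Fin 3) (ZMod 2))

theorem exists_data₀ : ∃ (A : Type) (_ : Ring A) (_ : Algebra k₀ A) (_ : FiniteDimensional k₀ A),
    Nonempty (TData k₀ A) ∧ Nonempty (RData k₀ A) := by
  have hi := IsFractionRing.injective (MvPolynomial (Fin 3) (ZMod 2)) k₀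
  refine exists_data (q := algebraMap (MvPolynomial (Fin 3) (ZMod 2)) k₀ (MvPolynomial.X 0))
    (fun h => MvPolynomial.X_ne_zero (R := ZMod 2) (0 : Fin 3) (hi (h.trans (map_zero _).symm)))
    fun k h => ?_
  rw [← map_pow, ← map_one (algebraMap (MvPolynomial (Fin 3) (ZMod 2)) k₀)] at h
  have := congrArg MvPolynomial.constantCoeff (hi h)
  simp at this

theorem exists_tdata (K : Type u) [Field K] [Algebra k₀ K] :
    ∃ (A : Type u) (_ : Ring A) (_ : Algebra K A) (_ : FiniteDimensional K A),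
      Nonempty (TData K A) := by
  obtain ⟨A, _, _, _, ⟨T⟩, -⟩ := exists_data₀
  exact ⟨K ⊗[k₀] A, inferInstance, inferInstance, inferInstance, ⟨T.bc K⟩⟩

end

end Crest.Agent.R186
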