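import Crest.Agent.R186.Basic

/-!
Bundled finite-dimensional modules, linear functors, the standard syzygy.
-/

set_option autoImplicit false

namespace Crest.Agent.R186

noncomputable section

universe u

open scoped TensorProduct

structure Mod (K : Type u) [Field K] (R : Type u) [Ring R] [Algebra K R] where
  carrier : Type u
  [acg : AddCommGroup carrier]
  [modK : Module K carrier]
  [modR : Module R carrier]
  [tower : IsScalarTower K R carrier]
  [fin : FiniteDimensional K carrier]

attribute [instance] Mod.acg Mod.modK Mod.modR Mod.tower Mod.fin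

variable {K : Type u} [Field K] {R S T : Type u} [Ring R] [Algebra K R] [Ring S] [Algebra K S]
  [Ring T] [Algebra K T]

instance : CoeSort (Mod K R) (Type u) := ⟨Mod.carrier⟩

variable (K R) in
abbrev Mod.of (X : Type u) [AddCommGroup X] [Module K X] [Module R X] [IsScalarTower K R X]
    [FiniteDimensional K X] : Mod K R := ⟨X⟩

instance Mod.finite (U : Mod K R) : Module.Finite R U := Module.Finite.of_restrictScalars_finite K R U

instance finSub {X : Type u} [AddCommGroup X] [Module K X] [Module R X] [IsScalarTower K R X]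
    [FiniteDimensional K X] (p : Submodule R X) : FiniteDimensional K p :=
  Module.Finite.of_injective (p.subtype.restrictScalars K) Subtype.val_injective

instance finQuot {X : Type u} [AddCommGroup X] [Module K X] [Module R X] [IsScalarTower K R X]
    [FiniteDimensional K X] (p : Submodule R X) : FiniteDimensional K (X ⧸ p) :=
  Module.Finite.of_surjective (p.mkQ.restrictScalars K) p.mkQ_surjective

instance finHom {X Y : Type u} [AddCommGroup X] [Module K X] [Module R X] [IsScalarTower K R X]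
    [FiniteDimensional K X] [AddCommGroup Y] [Module K Y] [Module R Y] [IsScalarTower K R Y]
    [FiniteDimensional K Y] : FiniteDimensional K (X →ₗ[R] Y) :=
  Module.Finite.of_injective (LinearMap.restrictScalarsₗ K R X Y K)
    (LinearMap.restrictScalars_injective K)

abbrev Mod.sub {U : Mod K R} (p : Submodule R U) : Mod K R := Mod.of K R p

abbrev Mod.quot {U : Mod K R} (p : Submodule R U) : Mod K R := Mod.of K R (U ⧸ p)

abbrev Mod.prod (U V : Mod K R) : Mod K R := Mod.of K R (U × V)

variable (K R) in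
abbrev Mod.self [FiniteDimensional K R] : Mod K R := Mod.of K R R

variable (K R) in
abbrev Mod.fr [FiniteDimensional K R] (V : Type u) [AddCommGroup V] [Module K V]
    [FiniteDimensional K V] : Mod K R := Mod.of K R (R ⊗[K] V)

variable (K R) in
theorem pj_fr [FiniteDimensional K R] (V : Type u) [AddCommGroup V] [Module K V]
    [FiniteDimensional K V] : PJ R (R ⊗[K] V) := by
  have : Module.Free R (R ⊗[K] V) :=
    Module.Free.of_basis (Algebra.TensorProduct.basis R (Module.Free.chooseBasis K V))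
  have : Module.Finite R (R ⊗[K] V) := (Mod.fr K R V).finite
  exact PJ.of_projective

variable (K R S) in
structure LF where
  obj : Mod K R → Mod K S
  map : ∀ {U V : Mod K R}, (U →ₗ[R] V) →ₗ[K] (obj U →ₗ[S] obj V)
  map_id : ∀ U : Mod K R, map (LinearMap.id : U →ₗ[R] U) = LinearMap.id
  map_comp : ∀ {U V W : Mod K R} (f : U →ₗ[R] V) (g : V →ₗ[R] W),
    map (g ∘ₗ f) = map g ∘ₗ map f

namespace LF

def Exact (F : LF K R S) : Prop :=
  ∀ {U V W : Mod K R} {f : U →ₗ[R] V} {g : V →ₗ[R] W}, SES f g → SES (F.map f) (F.map g)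

def PP (F : LF K R S) : Prop := ∀ P : Mod K R, PJ R P → PJ S (F.obj P)

theorem map_map (F : LF K R S) {U V W : Mod K R} (f : U →ₗ[R] V) (g : V →ₗ[R] W) (x : F.obj U) :
    F.map g (F.map f x) = F.map (g ∘ₗ f) x := by rw [F.map_comp]; rfl

theorem map_id_apply (F : LF K R S) {U : Mod K R} (x : F.obj U) :
    F.map (LinearMap.id : U →ₗ[R] U) x = x := by rw [F.map_id]; rfl

theorem map_congr (F : LF K R S) {U V : Mod K R} {f g : U →ₗ[R] V} (h : ∀ x, f x = g x) :
    F.map f = F.map g := congrArg F.map (LinearMap.ext h)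

theorem thru (F : LF K R S) {Y U V : Mod K R} {f : U →ₗ[R] V} (h : Thru Y f) :
    Thru (F.obj Y) (F.map f) := by
  induction h with
  | zero => rw [map_zero]; exact Thru.zero
  | comp a b => rw [F.map_comp]; exact Thru.comp _ _
  | add _ _ h1 h2 => rw [map_add]; exact Thru.add h1 h2

theorem thru_id (F : LF K R S) {Y U : Mod K R} (h : Thru Y (LinearMap.id : U →ₗ[R] U)) :
    Thru (F.obj Y) (LinearMap.id : F.obj U →ₗ[S] F.obj U) := by
  rw [← F.map_id]; exact F.thru h

theorem pp_of_self [FiniteDimensional K R] (F : LF K R S) (h : PJ S (F.obj (Mod.self K R))) :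
    F.PP := fun _ hP => (F.thru_id (Y := Mod.self K R) hP).trans h

theorem PP.sz [FiniteDimensional K R] {F : LF K R S} (hF : F.PP) {U V : Mod K R}
    {f : U →ₗ[R] V} (h : SZ f) : SZ (F.map f) :=
  (F.thru (Y := Mod.self K R) h).trans (hF (Mod.self K R) Thru.refl)

theorem Exact.inj {F : LF K R S} (hF : F.Exact) {U V : Mod K R} {f : U →ₗ[R] V}
    (h : Function.Injective f) : Function.Injective (F.map f) :=
  (hF (W := Mod.quot (LinearMap.range f)) (SES.of_inj f h)).inj

theorem Exact.surj {F : LF K R S} (hF : F.Exact) {U V : Mod K R} {f : U →ₗ[R] V}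
    (h : Function.Surjective f) : Function.Surjective (F.map f) :=
  (hF (U := Mod.sub (LinearMap.ker f)) (SES.of_surj f h)).surj

theorem sq (F : LF K R S) {N P U N' P' U' : Mod K R}
    {i : N →ₗ[R] P} {p : P →ₗ[R] U} {i' : N' →ₗ[R] P'} {p' : P' →ₗ[R] U'}
    {f₁ : N →ₗ[R] N'} {f₂ : P →ₗ[R] P'} {f₃ : U →ₗ[R] U'} (s : Sq i p i' p' f₁ f₂ f₃) :
    Sq (F.map i) (F.map p) (F.map i') (F.map p') (F.map f₁) (F.map f₂) (F.map f₃) :=
  ⟨fun x => by
    rw [map_map, map_map, F.map_congr (f := i' ∘ₗ f₁) (g := f₂ ∘ₗ i) s.l],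
   fun x => by
    rw [map_map, map_map, F.map_congr (f := p' ∘ₗ f₂) (g := f₃ ∘ₗ p) s.r]⟩

def equiv (F : LF K R S) {U V : Mod K R} (e : U ≃ₗ[R] V) : F.obj U ≃ₗ[S] F.obj V :=
  LinearEquiv.ofLinearMap (F.map e.toLinearMap) (F.map e.symm.toLinearMap)
    (by rw [← F.map_comp, ← F.map_id]; congr 1; ext; simp)
    (by rw [← F.map_comp, ← F.map_id]; congr 1; ext; simp)

variable (K R) in
abbrev id : LF K R R where
  obj U := U
  map := LinearMap.id
  map_id _ := rfl
  map_comp _ _ := rfl

theorem id_exact : (id K R).Exact := fun h => h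

theorem id_pp : (id K R).PP := fun _ h => h

/-- First `F`, then `G`. -/
abbrev comp (G : LF K S T) (F : LF K R S) : LF K R T where
  obj U := G.obj (F.obj U)
  map := G.map ∘ₗ F.map
  map_id U := by rw [LinearMap.comp_apply, F.map_id, G.map_id]
  map_comp f g := by simp only [LinearMap.comp_apply, F.map_comp, G.map_comp]

theorem Exact.comp {G : LF K S T} {F : LF K R S} (hG : G.Exact) (hF : F.Exact) :
    (G.comp F).Exact := fun h => hG (hF h)

theorem PP.comp {G : LF K S T} {F : LF K R S} (hG : G.PP) (hF : F.PP) : (G.comp F).PP :=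
  fun P h => hG _ (hF P h)

abbrev prod (F G : LF K R S) : LF K R S where
  obj U := (F.obj U).prod (G.obj U)
  map {U V} :=
    { toFun := fun f => (F.map f).prodMap (G.map f)
      map_add' := fun f g => by ext <;> simp
      map_smul' := fun c f => by ext <;> simp }
  map_id U := by ext <;> simp [map_id]
  map_comp f g := by ext <;> simp [map_comp]

theorem Exact.prod {F G : LF K R S} (hF : F.Exact) (hG : G.Exact) : (F.prod G).Exact := by
  intro U V W f g h
  have a := hF h
  have b := hG h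
  refine ⟨a.inj.prodMap b.inj, fun t => Prod.ext (a.comp _) (b.comp _), fun t ht => ?_,
    a.surj.prodMap b.surj⟩
  obtain ⟨s, hs⟩ := a.exact t.1 (congrArg Prod.fst ht)
  obtain ⟨s', hs'⟩ := b.exact t.2 (congrArg Prod.snd ht)
  exact ⟨(s, s'), Prod.ext hs hs'⟩

theorem PP.prod {F G : LF K R S} (hF : F.PP) (hG : G.PP) : (F.prod G).PP :=
  fun P h => Thru.prod (hF P h) (hG P h)

end LF

theorem nine {A B C A' B' C' A₀ B₀ C₀ : Type u} [AddCommGroup A] [AddCommGroup B] [AddCommGroup C]
    [AddCommGroup A'] [AddCommGroup B'] [AddCommGroup C'] [AddCommGroup A₀] [AddCommGroup B₀]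
    [AddCommGroup C₀] [Module R A] [Module R B] [Module R C] [Module R A'] [Module R B']
    [Module R C'] [Module R A₀] [Module R B₀] [Module R C₀]
    {f : A →ₗ[R] B} {g : B →ₗ[R] C} {f' : A' →ₗ[R] B'} {g' : B' →ₗ[R] C'}
    {f₀ : A₀ →ₗ[R] B₀} {g₀ : B₀ →ₗ[R] C₀} {a : A →ₗ[R] A'} {b : B →ₗ[R] B'} {c : C →ₗ[R] C'}
    {ia : A₀ →ₗ[R] A} {ib : B₀ →ₗ[R] B} {ic : C₀ →ₗ[R] C}
    (h : SES f g) (h' : SES f' g') (ha : SES ia a) (hb : SES ib b) (hc : SES ic c)
    (s : Sq f g f' g' a b c) (s₀ : Sq f₀ g₀ f g ia ib ic) : SES f₀ g₀ := by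
  refine ⟨fun x y hxy => ha.inj (h.inj ?_), fun t => hc.inj ?_, fun t ht => ?_, fun z => ?_⟩
  · rw [s₀.l, s₀.l, hxy]
  · rw [← s₀.r, ← s₀.l, h.comp, map_zero]
  · obtain ⟨x, hx⟩ := h.exact (ib t) (by rw [s₀.r, ht, map_zero])
    obtain ⟨x₀, rfl⟩ := ha.exact x (h'.inj (by rw [s.l, hx, hb.comp, map_zero]))
    exact ⟨x₀, hb.inj (by rw [← s₀.l, hx])⟩
  · obtain ⟨y, hy⟩ := h.surj (ic z)
    obtain ⟨x', hx'⟩ := h'.exact (b y) (by rw [s.r, hy, hc.comp])
    obtain ⟨x, rfl⟩ := ha.surj x'
    obtain ⟨y₀, hy₀⟩ := hb.exact (y - f x) (by rw [map_sub, ← s.l, hx', sub_self])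
    exact ⟨y₀, hc.inj (by rw [← s₀.r, hy₀, map_sub, h.comp, sub_zero, hy])⟩

structure NT (F G : LF K R S) where
  app : ∀ U, F.obj U →ₗ[S] G.obj U
  nat : ∀ {U V : Mod K R} (f : U →ₗ[R] V) (x : F.obj U), app V (F.map f x) = G.map f (app U x)

namespace NT

variable {F G : LF K R S}

def ker (η : NT F G) : LF K R S where
  obj U := Mod.sub (LinearMap.ker (η.app U))
  map {U V} :=
    { toFun := fun f => (F.map f).restrict (p := LinearMap.ker (η.app U))
        (q := LinearMap.ker (η.app V)) fun x hx => by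
          rw [LinearMap.mem_ker, η.nat, LinearMap.mem_ker.1 hx, map_zero]
      map_add' := fun f g => by ext; simp
      map_smul' := fun c f => by ext; simp }
  map_id U := by ext; simp [LF.map_id]
  map_comp f g := by ext; simp [LF.map_comp]

def ι (η : NT F G) (U : Mod K R) : η.ker.obj U →ₗ[S] F.obj U := (LinearMap.ker (η.app U)).subtype

theorem ι_inj (η : NT F G) (U : Mod K R) : Function.Injective (η.ι U) := Subtype.val_injective

theorem app_ι (η : NT F G) (U : Mod K R) (x : η.ker.obj U) : η.app U (η.ι U x) = 0 := x.2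

theorem ι_map (η : NT F G) {U V : Mod K R} (f : U →ₗ[R] V) (x : η.ker.obj U) :
    η.ι V (η.ker.map f x) = F.map f (η.ι U x) := rfl

def el (η : NT F G) {U : Mod K R} (x : F.obj U) (hx : η.app U x = 0) : η.ker.obj U := ⟨x, hx⟩

theorem ι_el (η : NT F G) {U : Mod K R} (x : F.obj U) (hx : η.app U x = 0) :
    η.ι U (η.el x hx) = x := rfl

def cod (η : NT F G) {U : Mod K R} {W : Type u} [AddCommGroup W] [Module S W]
    (k : W →ₗ[S] F.obj U) (hk : ∀ w, η.app U (k w) = 0) : W →ₗ[S] η.ker.obj U :=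
  k.codRestrict (LinearMap.ker (η.app U)) hk

theorem ι_cod (η : NT F G) {U : Mod K R} {W : Type u} [AddCommGroup W] [Module S W]
    (k : W →ₗ[S] F.obj U) (hk : ∀ w, η.app U (k w) = 0) (w : W) :
    η.ι U (η.cod k hk w) = k w := rfl

theorem ses (η : NT F G) (hs : ∀ U, Function.Surjective (η.app U)) (U : Mod K R) :
    SES (η.ι U) (η.app U) := SES.of_surj _ (hs U)

theorem ker_exact (η : NT F G) (hs : ∀ U, Function.Surjective (η.app U)) (hF : F.Exact)
    (hG : G.Exact) : η.ker.Exact := fun {U V W f g} h =>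
  nine (hF h) (hG h) (η.ses hs U) (η.ses hs V) (η.ses hs W)
    ⟨fun x => (η.nat f x).symm, fun x => (η.nat g x).symm⟩
    ⟨fun x => (η.ι_map f x).symm, fun x => (η.ι_map g x).symm⟩

theorem ker_pp (η : NT F G) (hs : ∀ U, Function.Surjective (η.app U)) (hF : F.PP)
    (hG : G.PP) : η.ker.PP := fun P h => (η.ses hs P).pj_left (hF P h) (hG P h)

end NT

/-! ### Restriction of scalars -/

def Res (φ : R →ₐ[K] S) : LF K S R where
  obj U :=
    letI : Module R U := Module.compHom U φ.toRingHom
    haveI : IsScalarTower K R U := ⟨fun c r u => by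
      change φ (c • r) • u = c • φ r • u
      rw [map_smul, smul_assoc]⟩
    Mod.of K R U
  map {U V} :=
    letI : Module R U := Module.compHom U φ.toRingHom
    letI : Module R V := Module.compHom V φ.toRingHom
    haveI : IsScalarTower K R V := ⟨fun c r u => by
      change φ (c • r) • u = c • φ r • u
      rw [map_smul, smul_assoc]⟩
    { toFun := fun f =>
        { toFun := f
          map_add' := f.map_add
          map_smul' := fun r u => f.map_smul (φ r) u }
      map_add' := fun _ _ => rfl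
      map_smul' := fun _ _ => rfl }
  map_id _ := rfl
  map_comp _ _ := rfl

def toRes (φ : R →ₐ[K] S) (U : Mod K S) : U ≃ₗ[K] (Res φ).obj U := LinearEquiv.refl K U

theorem smul_toRes (φ : R →ₐ[K] S) {U : Mod K S} (r : R) (u : U) :
    r • toRes φ U u = toRes φ U (φ r • u) := rfl

theorem toRes_symm_smul (φ : R →ₐ[K] S) {U : Mod K S} (r : R) (u : (Res φ).obj U) :
    (toRes φ U).symm (r • u) = φ r • (toRes φ U).symm u := rfl

theorem Res_map (φ : R →ₐ[K] S) {U V : Mod K S} (f : U →ₗ[S] V) (u : U) :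
    (Res φ).map f (toRes φ U u) = toRes φ V (f u) := rfl

theorem Res_map' (φ : R →ₐ[K] S) {U V : Mod K S} (f : U →ₗ[S] V) (u : (Res φ).obj U) :
    (Res φ).map f u = toRes φ V (f ((toRes φ U).symm u)) := rfl

theorem Res_exact (φ : R →ₐ[K] S) : (Res φ).Exact := fun h => ⟨h.inj, h.comp, h.exact, h.surj⟩

def resTo (φ : R →ₐ[K] S) {W : Type u} [AddCommGroup W] [Module K W] [Module R W] {U : Mod K S}
    (f : W →ₗ[K] U) (h : ∀ (r : R) w, f (r • w) = φ r • f w) : W →ₗ[R] (Res φ).obj U where
  toFun w := toRes φ U (f w)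
  map_add' a b := by simp
  map_smul' r w := by rw [h]; rfl

theorem resTo_apply (φ : R →ₐ[K] S) {W : Type u} [AddCommGroup W] [Module K W] [Module R W]
    {U : Mod K S} (f : W →ₗ[K] U) (h : ∀ (r : R) w, f (r • w) = φ r • f w) (w : W) :
    resTo φ f h w = toRes φ U (f w) := rfl

def resFrom (φ : R →ₐ[K] S) {W : Type u} [AddCommGroup W] [Module K W] [Module R W] {U : Mod K S}
    (f : U →ₗ[K] W) (h : ∀ (r : R) u, f (φ r • u) = r • f u) : (Res φ).obj U →ₗ[R] W where
  toFun w := f ((toRes φ U).symm w)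
  map_add' a b := by simp
  map_smul' r w := h r _

theorem resFrom_apply (φ : R →ₐ[K] S) {W : Type u} [AddCommGroup W] [Module K W] [Module R W]
    {U : Mod K S} (f : U →ₗ[K] W) (h : ∀ (r : R) u, f (φ r • u) = r • f u) (u : U) :
    resFrom φ f h (toRes φ U u) = f u := rfl

/-! ### The standard syzygy -/

section Om

variable [FiniteDimensional K R] [FiniteDimensional K S]

variable (K R) in
abbrev Fr : LF K R R where
  obj U := Mod.fr K R U
  map {U V} := TensorProduct.AlgebraTensorModule.lTensor R R ∘ₗ LinearMap.restrictScalarsₗ K R U V K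
  map_id U := by ext; simp
  map_comp f g := by ext; simp

theorem Fr_map_tmul {U V : Mod K R} (f : U →ₗ[R] V) (r : R) (u : U) :
    (Fr K R).map f (r ⊗ₜ u) = r ⊗ₜ f u := rfl

theorem Fr_map_eq {U V : Mod K R} (f : U →ₗ[R] V) (x : R ⊗[K] U) :
    (Fr K R).map f x = (f.restrictScalars K).lTensor R x := rfl

theorem ses_lTensor {A B C : Type u} [AddCommGroup A] [AddCommGroup B] [AddCommGroup C]
    [Module K A] [Module K B] [Module K C] {f : A →ₗ[K] B} {g : B →ₗ[K] C} (h : SES f g)
    (V : Type u) [AddCommGroup V] [Module K V] : SES (f.lTensor V) (g.lTensor V) :=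
  SES.mk' (Module.Flat.lTensor_preserves_injective_linearMap f h.inj)
    (lTensor_exact V h.fexact h.surj) (LinearMap.lTensor_surjective V h.surj)

theorem ses_rTensor {A B C : Type u} [AddCommGroup A] [AddCommGroup B] [AddCommGroup C]
    [Module K A] [Module K B] [Module K C] {f : A →ₗ[K] B} {g : B →ₗ[K] C} (h : SES f g)
    (V : Type u) [AddCommGroup V] [Module K V] : SES (f.rTensor V) (g.rTensor V) :=
  SES.mk' (Module.Flat.rTensor_preserves_injective_linearMap f h.inj)
    (rTensor_exact V h.fexact h.surj) (LinearMap.rTensor_surjective V h.surj)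

theorem Fr_exact : (Fr K R).Exact := fun {U V W f g} h => by
  have := ses_lTensor (f := f.restrictScalars K) (g := g.restrictScalars K)
    ⟨h.inj, h.comp, h.exact, h.surj⟩ R
  exact ⟨this.inj, this.comp, this.exact, this.surj⟩

theorem Fr_pp : (Fr K R).PP := fun P _ => pj_fr K R P

/-- The `R`-linear map out of a free module determined by a `K`-linear map. -/
def frLift {V W : Type u} [AddCommGroup V] [Module K V] [AddCommGroup W] [Module K W] [Module R W]
    [IsScalarTower K R W] (f : V →ₗ[K] W) : R ⊗[K] V →ₗ[R] W :=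
  TensorProduct.AlgebraTensorModule.lift
    { toFun := fun r => r • f
      map_add' := fun a b => add_smul a b f
      map_smul' := fun a b => mul_smul a b f }

omit [FiniteDimensional K R] in
@[simp] theorem frLift_tmul {V W : Type u} [AddCommGroup V] [Module K V] [AddCommGroup W]
    [Module K W] [Module R W] [IsScalarTower K R W] (f : V →ₗ[K] W) (r : R) (v : V) :
    frLift f (r ⊗ₜ v) = r • f v := rfl

def frπ (U : Mod K R) : Mod.fr K R U →ₗ[R] U := frLift LinearMap.id

@[simp] theorem frπ_tmul (U : Mod K R) (r : R) (u : U) :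
    dsimp% only (frπ U (r ⊗ₜ u) = r • u) := rfl

theorem frπ_surj (U : Mod K R) : Function.Surjective (frπ U) := fun u => ⟨1 ⊗ₜ u, by simp⟩

theorem frπ_nat {U V : Mod K R} (f : U →ₗ[R] V) (x : Mod.fr K R U) :
    frπ V ((Fr K R).map f x) = f (frπ U x) := by
  induction x using TensorProduct.induction_on with
  | zero => simp
  | tmul r u => rw [Fr_map_tmul]; simp
  | add a b ha hb => rw [map_add, map_add, ha, hb, map_add, map_add]

variable (K R) in
def frNT : NT (Fr K R) (LF.id K R) := ⟨frπ, frπ_nat⟩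

variable (K R) in
def Om : LF K R R := (frNT K R).ker

def omι (U : Mod K R) : (Om K R).obj U →ₗ[R] Mod.fr K R U := (frNT K R).ι U

theorem om_ses (U : Mod K R) : SES (omι U) (frπ U) := (frNT K R).ses frπ_surj U

theorem omι_map {U V : Mod K R} (f : U →ₗ[R] V) (x : (Om K R).obj U) :
    omι V ((Om K R).map f x) = (Fr K R).map f (omι U x) := rfl

theorem Om_exact : (Om K R).Exact := (frNT K R).ker_exact frπ_surj Fr_exact LF.id_exact

theorem Om_pp : (Om K R).PP := (frNT K R).ker_pp frπ_surj Fr_pp LF.id_pp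

theorem om_sq {U V : Mod K R} (f : U →ₗ[R] V) :
    Sq (omι U) (frπ U) (omι V) (frπ V) ((Om K R).map f) ((Fr K R).map f) f :=
  ⟨omι_map f, frπ_nat f⟩

def omEl {U : Mod K R} (x : Mod.fr K R U) (hx : frπ U x = 0) : (Om K R).obj U :=
  (frNT K R).el x hx

@[simp] theorem omι_omEl {U : Mod K R} (x : Mod.fr K R U) (hx : frπ U x = 0) :
    dsimp% only (omι U (omEl x hx) = x) := rfl

def omCod {U : Mod K R} {W : Type u} [AddCommGroup W] [Module R W]
    (k : W →ₗ[R] Mod.fr K R U) (hk : ∀ w, frπ U (k w) = 0) : W →ₗ[R] (Om K R).obj U :=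
  (frNT K R).cod k hk

theorem omι_omCod {U : Mod K R} {W : Type u} [AddCommGroup W] [Module R W]
    (k : W →ₗ[R] Mod.fr K R U) (hk : ∀ w, frπ U (k w) = 0) (w : W) :
    omι U (omCod k hk w) = k w := rfl

theorem om_faithful (hR : Module.Injective R R) {U V : Mod K R} {f : U →ₗ[R] V}
    (h : SZ ((Om K R).map f)) : SZ f :=
  (om_sq f).bwd hR (om_ses U) (om_ses V) (pj_fr K R V) h

theorem om_full (hR : Module.Injective R R) {U V : Mod K R}
    (g : (Om K R).obj U →ₗ[R] (Om K R).obj V) : ∃ f : U →ₗ[R] V, SZ ((Om K R).map f - g) := by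
  obtain ⟨f₂, f, s⟩ := exists_sq_of_left (om_ses U) (om_ses V) ((pj_fr K R V).injective hR) g
  refine ⟨f, ((om_sq f).sub s).fwd (om_ses U) (om_ses V) (pj_fr K R U) ?_⟩
  rw [sub_self]; exact Thru.zero

omit [FiniteDimensional K R] [FiniteDimensional K S] in
theorem map_smul_semi (φ : R →ₐ[K] S) {U : Mod K R} {V : Mod K S} (f : U →ₗ[K] V) (r : R)
    (x : R ⊗[K] U) : TensorProduct.map φ.toLinearMap f (r • x) =
      φ r • TensorProduct.map φ.toLinearMap f x := by
  induction x using TensorProduct.induction_on with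
  | zero => simp
  | tmul a u => simp [TensorProduct.smul_tmul']
  | add a b ha hb => rw [smul_add, map_add, ha, hb, map_add, smul_add]

theorem frπ_semi (φ : R →ₐ[K] S) {U : Mod K R} {V : Mod K S} (f : U →ₗ[K] V)
    (hf : ∀ (r : R) u, f (r • u) = φ r • f u) (x : R ⊗[K] U) :
    frπ V (TensorProduct.map φ.toLinearMap f x) = f (frπ U x) := by
  induction x using TensorProduct.induction_on with
  | zero => simp
  | tmul a u => simp [hf]
  | add a b ha hb => rw [map_add, map_add, ha, hb, map_add, map_add]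

/-- The syzygy of a semilinear map. -/
def omS (φ : R →ₐ[K] S) {U : Mod K R} {V : Mod K S} (f : U →ₗ[K] V)
    (hf : ∀ (r : R) u, f (r • u) = φ r • f u) : (Om K R).obj U →ₗ[K] (Om K S).obj V where
  toFun x := omEl (TensorProduct.map φ.toLinearMap f (omι U x))
    (by rw [frπ_semi φ f hf, (om_ses U).comp, map_zero])
  map_add' a b := (om_ses V).inj (by simp [omι_omEl])
  map_smul' a b := (om_ses V).inj (by simp [omι_omEl])

theorem omι_omS (φ : R →ₐ[K] S) {U : Mod K R} {V : Mod K S} (f : U →ₗ[K] V)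
    (hf : ∀ (r : R) u, f (r • u) = φ r • f u) (x : (Om K R).obj U) :
    omι V (omS φ f hf x) = TensorProduct.map φ.toLinearMap f (omι U x) := rfl

theorem omS_smul (φ : R →ₐ[K] S) {U : Mod K R} {V : Mod K S} (f : U →ₗ[K] V)
    (hf : ∀ (r : R) u, f (r • u) = φ r • f u) (r : R) (x : (Om K R).obj U) :
    omS φ f hf (r • x) = φ r • omS φ f hf x :=
  (om_ses V).inj (by rw [omι_omS, map_smul (omι U), map_smul (omι V), omι_omS, map_smul_semi])

end Om

end

end Crest.Agent.R186
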