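import Crest.Agent.R186.Tri

/-!
Syzygies over the trivial extension `E = T(B)` compared with syzygies over `B`.
-/

set_option autoImplicit false
set_option linter.unusedSectionVars false

namespace Crest.Agent.R186

noncomputable section

universe u

open scoped TensorProduct

variable {K : Type u} [Field K] {B : Type u} [Ring B] [Algebra K B] [FiniteDimensional K B]

section PD

variable {W : Type u} [AddCommGroup W] [Module B W]

theorem rk_om_le (U : Mod K B) (j : ℕ) :
    rk K B ((Om K B).obj U) W (j + 1) ≤ rk K B U W (j + 2) := by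
  have := (om_ses U).c₁ K W (j + 1)
  rwa [(pj_fr K B U).rk, zero_add] at this

theorem rk_le_om (U : Mod K B) (j : ℕ) :
    rk K B U W (j + 1) ≤ rk K B ((Om K B).obj U) W j := by
  have := (om_ses U).c₃ K W j
  rwa [(pj_fr K B U).rk, add_zero] at this

variable (K B) in
abbrev Om2 : LF K B B := (Om K B).comp (Om K B)

variable (K B) in
abbrev Om4 : LF K B B := (Om2 K B).comp (Om2 K B)

theorem Om2_exact : (Om2 K B).Exact := Om_exact.comp Om_exact

theorem Om2_pp : (Om2 K B).PP := Om_pp.comp Om_pp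

theorem Om4_exact : (Om4 K B).Exact := Om2_exact.comp Om2_exact

theorem rk_om4_le (U : Mod K B) (j : ℕ) :
    rk K B ((Om4 K B).obj U) W (j + 1) ≤ rk K B U W (j + 5) :=
  (rk_om_le _ _).trans ((rk_om_le _ _).trans ((rk_om_le _ _).trans (rk_om_le _ _)))

variable (K B W) in
/-- Projective dimension at most `n`. -/
def PD (n : ℕ) : Prop := ∀ (W' : Mod K B) (j : ℕ), n < j → rk K B W W' j = 0

theorem PD.om {U : Mod K B} {n : ℕ} (h : PD K B U (n + 1)) : PD K B ((Om K B).obj U) n :=
  fun W' j hj => by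
    obtain ⟨j, rfl⟩ : ∃ i, j = i + 1 := ⟨j - 1, by omega⟩
    exact nonpos_iff_eq_zero.1 ((rk_om_le U j).trans (h W' _ (by omega)).le)

theorem PD.pj {U : Mod K B} (h : PD K B U 0) : PJ B U := pj_of_rk U (h _ 1 one_pos)

theorem PJ.pd (h : PJ B W) (n : ℕ) : PD K B W n := fun W' j hj => by
  obtain ⟨j, rfl⟩ : ∃ i, j = i + 1 := ⟨j - 1, by omega⟩
  exact h.rk j

theorem SES.pd_left {X Y Z : Type u} [AddCommGroup X] [AddCommGroup Y] [AddCommGroup Z]
    [Module B X] [Module B Y] [Module B Z] {f : X →ₗ[B] Y} {g : Y →ₗ[B] Z} (h : SES f g)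
    {m n : ℕ} (hY : PD K B Y m) (hZ : PD K B Z n) : PD K B X (m + n) := fun W' j hj => by
  have := h.c₁ K W' j
  rwa [hY W' j (by omega), hZ W' _ (by omega), add_zero, nonpos_iff_eq_zero] at this

theorem PD.rk_eq (hW : ∀ j, 4 < j → rk K B W B j = 0) {n : ℕ} {U : Mod K B} (h : PD K B U n)
    (j : ℕ) (hj : 4 < j) : rk K B W U j = 0 := by
  induction n generalizing U j with
  | zero => exact h.pj.rk_post (hW j hj)
  | succ n ih =>
    have := (om_ses U).v₃ K W j
    rwa [(pj_fr K B U).rk_post (hW j hj), ih h.om _ (by omega), add_zero, nonpos_iff_eq_zero] at this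

end PD

def oms (X : Mod K B) : ℕ → Mod K B
  | 0 => X
  | m + 1 => (Om K B).obj (oms X m)

abbrev chiMod (χ : B →ₐ[K] K) : Mod K B := (Res χ).obj (Mod.self K K)

variable (K B) in
/-- What is needed about the algebra `B`. -/
structure BData where
  χ : B →ₐ[K] K
  H : K
  H0 : H ≠ 0
  hH : ∀ k : ℕ, H ^ (k + 1) ≠ 1
  ξ : NT (Om4 K B) (Om K B)
  self : ∀ i, rk K B (chiMod χ) (chiMod χ) (i + 1) = 0
  hom : ∀ (V : Mod K B) (f : chiMod χ →ₗ[B] Mod.fr K B V), f = 0
  idB : ∀ (U : Mod K B) (j : ℕ), 4 < j → rk K B U B j = 0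
  pdD : PD K B (DM K B) 4
  n3 : ∀ i, i ≠ 1 → rk K B (chiMod χ) (oms (chiMod χ) 3) (5 + i) = 0
  n3' : rk K B (chiMod χ) (oms (chiMod χ) 3) (5 + 1) ≤ 1
  n6 : ∀ m, rk K B (chiMod χ) (oms (chiMod χ) (m + 6)) (5 + 0) = 0
  nv : ∃ (Q : Mod K B) (q : Q →ₗ[B] (Om K B).obj (chiMod χ)), Function.Surjective q ∧
    ¬ ∃ h : (Om4 K B).obj (chiMod χ) →ₗ[B] Q, q ∘ₗ h = ξ.app (chiMod χ)

theorem pd_res (h : PD K B (DM K B) 4) {P : Mod K (TE K B)} (hP : PJ (TE K B) P) :
    PD K B ((teRes K B).obj P) 4 := fun W j hj => by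
  refine ((teRes K B).thru_id (Y := Mod.self K _) hP).rk_pre ?_
  obtain ⟨f, g, hs⟩ := te_ses (K := K) (R := B)
  have := hs.c₂ K W j
  rwa [h W j hj, PJ.pd Thru.refl 4 W j hj, add_zero, nonpos_iff_eq_zero] at this

variable (K B) in
abbrev teInf : LF K B (TE K B) := Res (dualBim K B).fst

abbrev teTw (H : K) : LF K (TE K B) (TE K B) := Res ((dualBim K B).scale H)

theorem teTw_pp {H : K} (hH : H ≠ 0) : (teTw (B := B) H).PP := by
  refine LF.pp_of_self _ (Thru.refl.retract
    (resFrom _ (U := Mod.self K (TE K B)) ((dualBim K B).scale H⁻¹).toLinearMap fun r u => ?_)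
    (resTo _ (U := Mod.self K (TE K B)) ((dualBim K B).scale H).toLinearMap fun r u =>
      map_mul ((dualBim K B).scale H) r u) fun x =>
    (dualBim K B).scale_scale (mul_inv_cancel₀ hH) x)
  change (dualBim K B).scale H⁻¹ ((dualBim K B).scale H r * u) = r * (dualBim K B).scale H⁻¹ u
  rw [map_mul, (dualBim K B).scale_scale (inv_mul_cancel₀ hH)]

/-- A syzygy over `E` with its grading operator and its degree zero part. -/
structure Lvl (H : K) (U : Mod K (TE K B)) (V : Mod K B) where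
  φ : U →ₗ[K] U
  r : U →ₗ[K] V
  j : V →ₗ[K] U
  φ_smul : ∀ (e : TE K B) u, φ (e • u) = (dualBim K B).scale H e • φ u
  r_smul : ∀ (e : TE K B) u, r (e • u) = (dualBim K B).fst e • r u
  j_smul : ∀ (b : B) v, j (b • v) = (dualBim K B).inl b • j v
  φ_inj : Function.Injective φ
  rj : ∀ v, r (j v) = v
  φj : ∀ v, φ (j v) = j v
  rφ : ∀ u, r (φ u) = r u
  inv₁ : ∀ (k : ℕ) u, H ^ (k + 1) • φ u = u → u = 0
  inv₀ : ∀ u, φ u = u → r u = 0 → u = 0
  pd : ∃ n, PD K B (LinearMap.ker (resFrom (dualBim K B).inl r (fun b u => r_smul _ u))) n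

namespace Lvl

variable {H : K} {U : Mod K (TE K B)} {V : Mod K B} (L : Lvl H U V)

def rB : (teRes K B).obj U →ₗ[B] V := resFrom (dualBim K B).inl L.r fun _ u => L.r_smul _ u

theorem rB_surj : Function.Surjective L.rB := fun v => ⟨toRes _ _ (L.j v), L.rj v⟩

include L in
theorem rk_le {W : Type u} [AddCommGroup W] [Module B W] (hW : ∀ j, 4 < j → rk K B W B j = 0)
    (j : ℕ) (hj : 4 < j) : rk K B W ((teRes K B).obj U) j ≤ rk K B W V j := by
  obtain ⟨n, hn⟩ := L.pd
  have := (SES.of_surj _ L.rB_surj).v₂ K W j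
  rwa [PD.rk_eq hW (U := Mod.sub (LinearMap.ker L.rB)) hn j hj, zero_add] at this

theorem tensor_inj {D A A' : Type u} [AddCommGroup D] [Module K D] [AddCommGroup A] [Module K A]
    [AddCommGroup A'] [Module K A'] (f : A →ₗ[K] A') (hf : ∀ a, f a = 0 → a = 0) (z : D ⊗[K] A)
    (hz : f.lTensor D z = 0) : z = 0 :=
  Module.Flat.lTensor_preserves_injective_linearMap f ((injective_iff_map_eq_zero _).2 hf)
    (hz.trans (map_zero _).symm)

theorem te_tensor_ext {A : Type u} [AddCommGroup A] [Module K A] (z : TE K B ⊗[K] A)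
    (h1 : (dualBim K B).fst.toLinearMap.rTensor A z = 0)
    (h2 : (dualBim K B).snd.rTensor A z = 0) : z = 0 := by
  have : ∀ z : TE K B ⊗[K] A, z = (dualBim K B).inl.toLinearMap.rTensor A
      ((dualBim K B).fst.toLinearMap.rTensor A z) +
      (dualBim K B).inr.rTensor A ((dualBim K B).snd.rTensor A z) := fun z => by
    induction z using TensorProduct.induction_on with
    | zero => simp
    | tmul a b => simp [← TensorProduct.add_tmul, Bim.inl_add_inr]
    | add a b ha hb =>
      simp only [map_add]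
      conv_lhs => rw [ha, hb]
      abel
  rw [this z, h1, h2]; simp

theorem fst_map (z : TE K B ⊗[K] U) : (dualBim K B).fst.toLinearMap.rTensor U
    (TensorProduct.map ((dualBim K B).scale H).toLinearMap L.φ z) =
    L.φ.lTensor B ((dualBim K B).fst.toLinearMap.rTensor U z) := by
  induction z using TensorProduct.induction_on with
  | zero => simp
  | tmul a b => simp
  | add a b ha hb => simp only [map_add, ha, hb]

theorem snd_map (z : TE K B ⊗[K] U) : (dualBim K B).snd.rTensor U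
    (TensorProduct.map ((dualBim K B).scale H).toLinearMap L.φ z) =
    H • L.φ.lTensor _ ((dualBim K B).snd.rTensor U z) := by
  induction z using TensorProduct.induction_on with
  | zero => simp
  | tmul a b => simp [TensorProduct.smul_tmul']
  | add a b ha hb => simp only [map_add, ha, hb, smul_add]

theorem t_inv₁ {D : Type u} [AddCommGroup D] [Module K D] (k : ℕ) (z : D ⊗[K] U)
    (hz : H ^ (k + 1) • L.φ.lTensor D z = z) : z = 0 :=
  tensor_inj (H ^ (k + 1) • L.φ - LinearMap.id) (fun a ha => L.inv₁ k a (sub_eq_zero.1 ha)) z (by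
    rw [LinearMap.lTensor_sub, LinearMap.lTensor_smul, LinearMap.lTensor_id]
    exact sub_eq_zero.2 hz)

theorem t_inv₀ {D : Type u} [AddCommGroup D] [Module K D] (z : D ⊗[K] U)
    (hz : L.φ.lTensor D z = z) (hr : L.r.lTensor D z = 0) : z = 0 :=
  tensor_inj ((L.φ - LinearMap.id).prod L.r)
    (fun a ha => L.inv₀ a (sub_eq_zero.1 (congrArg Prod.fst ha)) (congrArg Prod.snd ha)) z (by
    have : (L.φ - LinearMap.id).prod L.r = LinearMap.inl K _ _ ∘ₗ (L.φ - LinearMap.id) +
        LinearMap.inr K _ _ ∘ₗ L.r := by ext <;> simp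
    rw [this, LinearMap.lTensor_add, LinearMap.lTensor_comp, LinearMap.lTensor_comp,
      LinearMap.lTensor_sub, LinearMap.lTensor_id]
    simp [hz, hr])

/-- The comparison map of free covers. -/
def rF : (teRes K B).obj (Mod.fr K (TE K B) U) →ₗ[B] Mod.fr K B V :=
  resFrom _ (U := Mod.fr K (TE K B) U) (TensorProduct.map (dualBim K B).fst.toLinearMap L.r)
    fun _ u => map_smul_semi (dualBim K B).fst L.r _ u

theorem rF_surj : Function.Surjective L.rF :=
  TensorProduct.map_surjective (g := (dualBim K B).fst.toLinearMap) (g' := L.r)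
    (dualBim K B).nk.surj fun v => ⟨L.j v, L.rj v⟩

theorem map_map_eq {A₁ A₂ A₃ D₁ D₂ D₃ : Type u} [AddCommGroup A₁] [Module K A₁] [AddCommGroup A₂]
    [Module K A₂] [AddCommGroup A₃] [Module K A₃] [AddCommGroup D₁] [Module K D₁]
    [AddCommGroup D₂] [Module K D₂] [AddCommGroup D₃] [Module K D₃] (f : A₁ →ₗ[K] A₂)
    (f' : A₂ →ₗ[K] A₃) (f'' : A₁ →ₗ[K] A₃) (g : D₁ →ₗ[K] D₂) (g' : D₂ →ₗ[K] D₃)
    (g'' : D₁ →ₗ[K] D₃) (hf : ∀ a, f' (f a) = f'' a) (hg : ∀ a, g' (g a) = g'' a)
    (z : A₁ ⊗[K] D₁) :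
    TensorProduct.map f' g' (TensorProduct.map f g z) = TensorProduct.map f'' g'' z := by
  rw [TensorProduct.map_map, show f' ∘ₗ f = f'' from LinearMap.ext hf,
    show g' ∘ₗ g = g'' from LinearMap.ext hg]

def step (hH : H ≠ 0) (hD : PD K B (DM K B) 4) : Lvl H ((Om K (TE K B)).obj U) ((Om K B).obj V) where
  φ := omS _ L.φ L.φ_smul
  r := omS _ L.r L.r_smul
  j := omS _ L.j L.j_smul
  φ_smul := omS_smul _ _ _
  r_smul := omS_smul _ _ _
  j_smul := omS_smul _ _ _
  φ_inj := fun a b h => by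
    have h1 := congrArg (omι U) h
    rw [omι_omS, omι_omS, ← sub_eq_zero, ← map_sub] at h1
    refine (om_ses U).inj (sub_eq_zero.1 (te_tensor_ext _ ?_ ?_))
    · refine tensor_inj L.φ ((injective_iff_map_eq_zero _).1 L.φ_inj) _ ?_
      rw [← fst_map, h1, map_zero]
    · refine tensor_inj L.φ ((injective_iff_map_eq_zero _).1 L.φ_inj) _ ?_
      have := L.snd_map (omι U a - omι U b)
      rwa [h1, map_zero, eq_comm, smul_eq_zero_iff_right hH] at this
  rj v := (om_ses V).inj (by
    rw [omι_omS, omι_omS, map_map_eq _ _ LinearMap.id _ _ LinearMap.id (fun _ => rfl) L.rj,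
      TensorProduct.map_id, LinearMap.id_apply])
  φj v := (om_ses U).inj (by
    rw [omι_omS, omι_omS, map_map_eq _ _ (dualBim K B).inl.toLinearMap _ _ _
      ((dualBim K B).scale_inl H) L.φj])
  rφ v := (om_ses V).inj (by
    rw [omι_omS, omι_omS, omι_omS, map_map_eq _ _ (dualBim K B).fst.toLinearMap _ _ _
      ((dualBim K B).fst_scale H) L.rφ])
  inv₁ k u hu := by
    have h1 := congrArg (omι U) hu
    rw [LinearMap.map_smul_of_tower, omι_omS] at h1
    refine (om_ses U).inj ((te_tensor_ext _ ?_ ?_).trans (map_zero _).symm)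
    · refine L.t_inv₁ k _ ?_
      rw [← fst_map, ← map_smul, h1]
    · refine L.t_inv₁ (k + 1) _ ?_
      rw [pow_succ, mul_smul, ← snd_map, ← map_smul, h1]
  inv₀ u hu hr := by
    have h1 := congrArg (omι U) hu
    have h2 := congrArg (omι V) hr
    rw [omι_omS] at h1
    rw [omι_omS, map_zero, ← LinearMap.lTensor_comp_rTensor] at h2
    refine (om_ses U).inj ((te_tensor_ext _ ?_ ?_).trans (map_zero _).symm)
    · exact L.t_inv₀ _ (by rw [← fst_map, h1]) h2
    · refine L.t_inv₁ 0 _ ?_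
      rw [zero_add, pow_one, ← snd_map, h1]
  pd := by
    obtain ⟨n, hn⟩ := L.pd
    let r' := resFrom (dualBim K B).inl (omS _ L.r L.r_smul)
      fun b u => omS_smul _ L.r L.r_smul ((dualBim K B).inl b) u
    have hr' : Function.Surjective r' := fun v => ⟨toRes _ _ (omS _ L.j L.j_smul v),
      (om_ses V).inj (by
        rw [resFrom_apply, omι_omS, omι_omS,
          map_map_eq _ _ LinearMap.id _ _ LinearMap.id (fun _ => rfl) L.rj,
          TensorProduct.map_id, LinearMap.id_apply])⟩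
    have s : Sq ((teRes K B).map (omι U)) ((teRes K B).map (frπ U)) (omι V) (frπ V) r' L.rF L.rB :=
      ⟨fun _ => rfl, fun x => frπ_semi _ L.r L.r_smul x⟩
    have := nine (f₀ := ((teRes K B).map (omι U)).restrict (p := LinearMap.ker r')
        (q := LinearMap.ker L.rF) fun x hx => by
          rw [LinearMap.mem_ker, ← s.l, LinearMap.mem_ker.1 hx, map_zero])
      (g₀ := ((teRes K B).map (frπ U)).restrict (p := LinearMap.ker L.rF)
        (q := LinearMap.ker L.rB) fun x hx => by
          rw [LinearMap.mem_ker, ← s.r, LinearMap.mem_ker.1 hx, map_zero])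
      (Res_exact _ (om_ses U)) (om_ses V) (SES.of_surj _ hr') (SES.of_surj _ L.rF_surj)
      (SES.of_surj _ L.rB_surj) s ⟨fun _ => rfl, fun _ => rfl⟩
    exact ⟨_, this.pd_left ((SES.of_surj _ L.rF_surj).pd_left (pd_res hD (pj_fr _ _ _))
      ((pj_fr K B V).pd 0)) hn⟩

end Lvl

end

end Crest.Agent.R186
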