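import Crest.Agent.R186.Xi

/-!
The natural map does not extend over the free cover: evaluation on an explicit syzygy.
-/

set_option autoImplicit false
set_option linter.unusedSectionVars false

namespace Crest.Agent.R186

noncomputable section

universe u

open scoped TensorProduct
open Module

variable {K : Type u} [Field K] {C B : Type u} [Ring C] [Algebra K C] [Ring B] [Algebra K B]
  [FiniteDimensional K C] [FiniteDimensional K B]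

attribute [local irreducible] PF pE pLift Om omι frπ OE oι oCod pπ

theorem exists_om {U : Mod K B} (z : B ⊗[K] U) (hz : frπ U z = 0) :
    ∃ x : (Om K B).obj U, omι U x = z := (om_ses U).exact z hz

theorem om_smul_eq {U : Mod K B} {x : (Om K B).obj U} {b' : B} {u : U} (hx : omι U x = b' ⊗ₜ u)
    (b : B) : omι U (b • x) = (b * b') ⊗ₜ u := by
  rw [map_smul, hx]; rfl

namespace CD

variable {γ : CD K C} {χ' : B →ₐ[K] K} (τ : γ.TP χ')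

namespace TP

theorem Θ_left (c : C) (b : B) : TensorProduct.lift (LinearMap.mul K K ∘ₗ γ.θ |>.compl₂ γ.θ)
    (τ.e.symm (i₁ τ.e (γ.ℓ 0 * c) * b)) = 0 :=
  B_induction τ.e (p := fun b => TensorProduct.lift (LinearMap.mul K K ∘ₗ γ.θ |>.compl₂ γ.θ)
    (τ.e.symm (i₁ τ.e (γ.ℓ 0 * c) * b)) = 0) b (by simp)
    (fun x y => by simp [i₁_apply, mul_assoc, γ.θℓ])
    fun a b ha hb => by rw [mul_add, map_add, map_add, ha, hb, add_zero]

theorem Θ_right (c : C) (b : B) : TensorProduct.lift (LinearMap.mul K K ∘ₗ γ.θ |>.compl₂ γ.θ)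
    (τ.e.symm (i₂ τ.e (γ.ℓ 0 * c) * b)) = 0 :=
  B_induction τ.e (p := fun b => TensorProduct.lift (LinearMap.mul K K ∘ₗ γ.θ |>.compl₂ γ.θ)
    (τ.e.symm (i₂ τ.e (γ.ℓ 0 * c) * b)) = 0) b (by simp)
    (fun x y => by simp [i₂_apply, mul_assoc, γ.θℓ])
    fun a b ha hb => by rw [mul_add, map_add, map_add, ha, hb, add_zero]

def Θ : B ⊗[K] chiMod χ' →ₗ[K] K :=
  TensorProduct.lift ((LinearMap.mul K K ∘ₗ TensorProduct.lift
    (LinearMap.mul K K ∘ₗ γ.θ |>.compl₂ γ.θ) ∘ₗ τ.e.symm.toLinearMap).compl₂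
    (toRes χ' (Mod.self K K)).symm.toLinearMap)

theorem Θ_tmul (b : B) (x : chiMod χ') : τ.Θ (b ⊗ₜ x) = TensorProduct.lift
    (LinearMap.mul K K ∘ₗ γ.θ |>.compl₂ γ.θ) (τ.e.symm b) * (toRes χ' (Mod.self K K)).symm x := rfl

theorem Θ_ℓ₁ (y : B ⊗[K] chiMod χ') : τ.Θ (i₁ τ.e (γ.ℓ 0) • y) = 0 := by
  induction y using TensorProduct.induction_on with
  | zero => simp
  | tmul b x =>
    have := τ.Θ_left 1 b
    rw [mul_one] at this
    rw [TensorProduct.smul_tmul', Θ_tmul, smul_eq_mul, this, zero_mul]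
  | add a b ha hb => rw [smul_add, map_add, ha, hb, add_zero]

theorem Θ_ℓ₂ (y : B ⊗[K] chiMod χ') : τ.Θ (i₂ τ.e (γ.ℓ 0) • y) = 0 := by
  induction y using TensorProduct.induction_on with
  | zero => simp
  | tmul b x =>
    have := τ.Θ_right 1 b
    rw [mul_one] at this
    rw [TensorProduct.smul_tmul', Θ_tmul, smul_eq_mul, this, zero_mul]
  | add a b ha hb => rw [smul_add, map_add, ha, hb, add_zero]

theorem not_extend : ¬ ∃ H : Mod.fr K B (oms (chiMod χ') 3) →ₗ[B] Mod.fr K B (chiMod χ'),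
    H ∘ₗ omι _ = omι _ ∘ₗ (γ.ξ τ.e).app (chiMod χ') := by
  rintro ⟨H, hH⟩
  set e := τ.e
  set x : chiMod χ' := toRes χ' (Mod.self K K) 1 with hx
  set a₁ := i₁ e γ.a with ha₁
  set a₂ := i₂ e γ.a with ha₂
  set l₁ := i₁ e (γ.ℓ 0) with hl₁
  set l₂ := i₂ e (γ.ℓ 0) with hl₂
  have ax₁ : a₁ • x = 0 := by rw [chi_smul, τ.h₁, γ.χa, zero_smul]
  have ax₂ : a₂ • x = 0 := by rw [chi_smul, τ.h₂, γ.χa, zero_smul]
  have la₁ : l₁ * a₁ = 0 := by rw [← map_mul, γ.ℓa, map_zero]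
  have la₂ : l₂ * a₂ = 0 := by rw [← map_mul, γ.ℓa, map_zero]
  have c₁ : a₂ * a₁ = a₁ * a₂ := (i₂_mul_i₁ e _ _).trans (i₁_mul_i₂ e _ _).symm
  have c₂ : a₂ * l₁ = l₁ * a₂ := (i₂_mul_i₁ e _ _).trans (i₁_mul_i₂ e _ _).symm
  have c₃ : l₂ * a₁ = a₁ * l₂ := (i₂_mul_i₁ e _ _).trans (i₁_mul_i₂ e _ _).symm
  have c₄ : l₂ * l₁ = l₁ * l₂ := (i₂_mul_i₁ e _ _).trans (i₁_mul_i₂ e _ _).symm
  obtain ⟨g10, h10⟩ := exists_om (a₁ ⊗ₜ x) (by rw [frπ_tmul, ax₁])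
  obtain ⟨g01, h01⟩ := exists_om (a₂ ⊗ₜ x) (by rw [frπ_tmul, ax₂])
  obtain ⟨g20, h20⟩ := exists_om (l₁ ⊗ₜ g10) ((om_ses _).inj (by
    rw [frπ_tmul, om_smul_eq h10, la₁, TensorProduct.zero_tmul, map_zero]))
  obtain ⟨g02, h02⟩ := exists_om (l₂ ⊗ₜ g01) ((om_ses _).inj (by
    rw [frπ_tmul, om_smul_eq h01, la₂, TensorProduct.zero_tmul, map_zero]))
  obtain ⟨g11, h11⟩ := exists_om (a₁ ⊗ₜ g01 - a₂ ⊗ₜ g10) ((om_ses _).inj (by
    rw [map_sub, frπ_tmul, frπ_tmul, map_sub, om_smul_eq h01, om_smul_eq h10, c₁, sub_self,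
      map_zero]))
  obtain ⟨g21, h21⟩ := exists_om (l₁ ⊗ₜ g11 + a₂ ⊗ₜ g20) ((om_ses _).inj (by
    rw [map_add, frπ_tmul, frπ_tmul, map_add, om_smul_eq h20, map_smul, h11, smul_sub,
      TensorProduct.smul_tmul', TensorProduct.smul_tmul', smul_eq_mul, smul_eq_mul, la₁, c₂,
      TensorProduct.zero_tmul, zero_sub, neg_add_cancel, map_zero]))
  obtain ⟨g12, h12⟩ := exists_om (a₁ ⊗ₜ g02 - l₂ ⊗ₜ g11) ((om_ses _).inj (by
    rw [map_sub, frπ_tmul, frπ_tmul, map_sub, om_smul_eq h02, map_smul, h11, smul_sub,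
      TensorProduct.smul_tmul', TensorProduct.smul_tmul', smul_eq_mul, smul_eq_mul, la₂, c₃,
      TensorProduct.zero_tmul, sub_zero, sub_self, map_zero]))
  obtain ⟨g22, h22⟩ := exists_om (l₁ ⊗ₜ g12 + l₂ ⊗ₜ g21) ((om_ses _).inj (by
    rw [map_add, frπ_tmul, frπ_tmul, map_add, map_smul, map_smul, h12, h21, smul_sub, smul_add,
      TensorProduct.smul_tmul', TensorProduct.smul_tmul', TensorProduct.smul_tmul',
      TensorProduct.smul_tmul', smul_eq_mul, smul_eq_mul, smul_eq_mul, smul_eq_mul, la₁, la₂, c₄,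
      TensorProduct.zero_tmul, TensorProduct.zero_tmul, zero_sub, add_zero, neg_add_cancel,
      map_zero]))
  -- the comparison maps
  set k₁ := cst (sw e) (LinearMap.id : chiMod χ' →ₗ[B] chiMod χ') with hk₁
  set k₂ := cst (sw e) k₁ with hk₂
  set k₃ := cst e k₂ with hk₃
  have e10 : k₁ g10 = 0 := oι_inj _ _ (by
    rw [oι_cst, h10, Fr_map_tmul, ha₁, ← i₂_sw, cmpF_i₂, i₂_sw, LinearMap.id_apply, ax₁,
      TensorProduct.tmul_zero, map_zero, map_zero])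
  have e01 : oι _ _ (k₁ g01) = pE (sw e) _ (γ.a ⊗ₜ x) := by
    rw [oι_cst, h01, Fr_map_tmul, ha₂, ← i₁_sw, cmpF_i₁, LinearMap.id_apply]
  have s1 : ∀ c, i₁ e c • k₁ g01 = γ.χ c • k₁ g01 := fun c => oι_inj _ _ (by
    rw [map_smul, LinearMap.map_smul_of_tower, e01, ← i₂_sw, i₂_pE, LinearMap.lTensor_tmul,
      act_apply, i₂_sw, chi_smul, τ.h₁, TensorProduct.tmul_smul, map_smul])
  have e20 : k₂ g20 = 0 := oι_inj _ _ (by
    rw [oι_cst, h20, Fr_map_tmul, e10, TensorProduct.tmul_zero, map_zero, map_zero])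
  have e11 : k₂ g11 = 0 := oι_inj _ _ (by
    rw [oι_cst, h11, map_sub, Fr_map_tmul, Fr_map_tmul, e10, TensorProduct.tmul_zero, sub_zero,
      ha₁, ← i₂_sw, cmpF_i₂, i₂_sw, s1, γ.χa, zero_smul, TensorProduct.tmul_zero, map_zero,
      map_zero])
  have e02 : oι _ _ (k₂ g02) = pE (sw e) _ (γ.ℓ 0 ⊗ₜ k₁ g01) := by
    rw [oι_cst, h02, Fr_map_tmul, hl₂, ← i₁_sw, cmpF_i₁]
  have s2 : i₁ e γ.s • k₂ g02 = k₂ g02 := oι_inj _ _ (by
    rw [map_smul, e02, ← i₂_sw, i₂_pE, LinearMap.lTensor_tmul, act_apply, i₂_sw, s1, γ.χs,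
      one_smul])
  have e21 : k₃ g21 = 0 := oι_inj _ _ (by
    rw [oι_cst, h21, map_add, Fr_map_tmul, Fr_map_tmul, e11, e20, TensorProduct.tmul_zero,
      TensorProduct.tmul_zero, add_zero, map_zero, map_zero])
  have e12 : oι _ _ (k₃ g12) = pE e _ (γ.a ⊗ₜ k₂ g02) := by
    rw [oι_cst, h12, map_sub, Fr_map_tmul, Fr_map_tmul, e11, TensorProduct.tmul_zero, sub_zero,
      ha₁, cmpF_i₁]
  have e22 : oι _ _ (cmp4 e _ g22) = pE e _ (γ.ℓ 0 ⊗ₜ k₃ g12) := by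
    refine (oι_cst e k₃ g22).trans ?_
    rw [h22, map_add, Fr_map_tmul, Fr_map_tmul, e21, TensorProduct.tmul_zero, add_zero, hl₁,
      cmpF_i₁]
  have f4 : flat e _ (cmp4 e _ g22) = γ.ℓ 0 ⊗ₜ (γ.a ⊗ₜ k₂ g02) := by
    rw [flat, LinearMap.comp_apply, o₀_eq e e22, LinearMap.lTensor_tmul, o₀_eq e e12]
  have f2 : flat (sw e) _ (k₂ g02) = γ.ℓ 0 ⊗ₜ (γ.a ⊗ₜ x) := by
    rw [flat, LinearMap.comp_apply, o₀_eq _ e02, LinearMap.lTensor_tmul, o₀_eq _ e01]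
  have val : γ.ξF e _ g22 = e (γ.z ⊗ₜ γ.z) ⊗ₜ x := by
    rw [ξF_apply, ψ_apply, kh_apply, f4, ηact_tmul, γ.ηℓa, act2_tmul, s2, LinearMap.lTensor_tmul,
      κt_tmul, γ.κa, map_zero, zero_smul, TensorProduct.tmul_zero, map_zero, sub_zero, PF_map,
      LinearMap.lTensor_tmul, LinearMap.restrictScalars_apply, ψ_apply, f2, ηact_tmul, γ.ηℓa,
      act2_tmul, i₁_sw, chi_smul, τ.h₂, γ.χs, one_smul, th_tmul]
  have h1 := LinearMap.congr_fun hH g22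
  have h2 : ∀ (b : B) (g : oms (chiMod χ') 3), H (b ⊗ₜ g) = b • H (1 ⊗ₜ g) := fun b g => by
    rw [← map_smul, TensorProduct.smul_tmul', smul_eq_mul, mul_one]
  have h3 : l₁ • H (1 ⊗ₜ g12) + l₂ • H (1 ⊗ₜ g21) = e (γ.z ⊗ₜ γ.z) ⊗ₜ x :=
    ((congrArg₂ (· + ·) (h2 l₁ g12) (h2 l₂ g21)).symm.trans (H.map_add _ _).symm).trans
      ((congrArg H h22).symm.trans (h1.trans ((γ.omι_ξ e _ g22).trans val)))
  have h4 := congrArg τ.Θ h3
  rw [map_add, τ.Θ_ℓ₁, τ.Θ_ℓ₂, Θ_tmul] at h4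
  simp [γ.θz, hx, e] at h4

end TP

/-- The data over `B = C ⊗ C`. -/
def bdata (γ : CD K C) (H : K) (H0 : H ≠ 0) (hH : ∀ k : ℕ, H ^ (k + 1) ≠ 1) :
    BData K (C ⊗[K] C) :=
  let τ : γ.TP (chiB AlgEquiv.refl γ.χ) := ⟨AlgEquiv.refl, chiB_i₁ _ _, chiB_i₂ _ _⟩
  { χ := chiB AlgEquiv.refl γ.χ
    H := H
    H0 := H0
    hH := hH
    ξ := γ.ξ AlgEquiv.refl
    self := τ.self
    hom := fun V => hom_of_rk0 (τ.rk_fr V 0 (by omega))
    idB := γ.idB AlgEquiv.refl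
    pdD := γ.pdD AlgEquiv.refl
    n3 := τ.n3
    n3' := τ.n3'
    n6 := τ.n6
    nv := τ.nv _ τ.not_extend }

end CD

end

end Crest.Agent.R186
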