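import Crest.Agent.R186.Sym

/-!
Modules given by an action, square-zero extensions, nilpotent kernels.
-/

set_option autoImplicit false

namespace Crest.Agent.R186

noncomputable section

universe u

open scoped TensorProduct

variable {K : Type u} [Field K] {R S : Type u} [Ring R] [Algebra K R] [Ring S] [Algebra K S]

def mkLin {U V : Type u} [AddCommGroup U] [Module K U] [Module R U] [AddCommGroup V] [Module K V]
    [Module R V] (f : U →ₗ[K] V) (h : ∀ (r : R) u, f (r • u) = r • f u) : U →ₗ[R] V where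
  toFun := f
  map_add' := f.map_add
  map_smul' := h

omit [Algebra K R] in
@[simp] theorem mkLin_apply {U V : Type u} [AddCommGroup U] [Module K U] [Module R U]
    [AddCommGroup V] [Module K V] [Module R V] (f : U →ₗ[K] V)
    (h : ∀ (r : R) u, f (r • u) = r • f u) (u : U) : mkLin f h u = f u := rfl

variable (K R) in
/-- The action on a module as a bilinear map. -/
def act (U : Type u) [AddCommGroup U] [Module K U] [Module R U] [IsScalarTower K R U] :
    R →ₗ[K] U →ₗ[K] U := (Algebra.lsmul K K U).toLinearMap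

@[simp] theorem act_apply {U : Type u} [AddCommGroup U] [Module K U] [Module R U]
    [IsScalarTower K R U] (r : R) (u : U) : act K R U r u = r • u := rfl

variable (K R) in
structure Act (V : Type u) [AddCommGroup V] [Module K V] where
  ρ : R →ₗ[K] V →ₗ[K] V
  one : ∀ v, ρ 1 v = v
  mul : ∀ a b v, ρ (a * b) v = ρ a (ρ b v)

namespace Act

variable {V W : Type u} [AddCommGroup V] [Module K V] [FiniteDimensional K V] [AddCommGroup W]
  [Module K W] [FiniteDimensional K W]

def mod (α : Act K R V) : Mod K R :=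
  letI : SMul R V := ⟨fun r v => α.ρ r v⟩
  letI : Module R V := Module.ofMinimalAxioms (fun r x y => (α.ρ r).map_add x y)
    (fun r s x => LinearMap.congr_fun (α.ρ.map_add r s) x) α.mul α.one
  haveI : IsScalarTower K R V := ⟨fun c r v => LinearMap.congr_fun (α.ρ.map_smul c r) v⟩
  Mod.of K R V

def e (α : Act K R V) : V ≃ₗ[K] α.mod := LinearEquiv.refl K V

theorem smul_e (α : Act K R V) (r : R) (v : V) : r • α.e v = α.e (α.ρ r v) := rfl

theorem e_symm_smul (α : Act K R V) (r : R) (v : α.mod) :
    α.e.symm (r • v) = α.ρ r (α.e.symm v) := rfl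

end Act

/-! ### Square-zero extensions -/

variable (K R) in
structure Bim (M : Type u) [AddCommGroup M] [Module K M] where
  l : R →ₗ[K] M →ₗ[K] M
  r : R →ₗ[K] M →ₗ[K] M
  l_one : ∀ m, l 1 m = m
  r_one : ∀ m, r 1 m = m
  l_mul : ∀ a b m, l (a * b) m = l a (l b m)
  r_mul : ∀ a b m, r (a * b) m = r b (r a m)
  comm : ∀ a b m, l a (r b m) = r b (l a m)

namespace Bim

variable {M : Type u} [AddCommGroup M] [Module K M] (β : Bim K R M)

def Ext (_ : Bim K R M) : Type u := R × M

instance : AddCommGroup β.Ext := inferInstanceAs (AddCommGroup (R × M))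

instance : Module K β.Ext := inferInstanceAs (Module K (R × M))

instance [FiniteDimensional K R] [FiniteDimensional K M] : FiniteDimensional K β.Ext :=
  inferInstanceAs (FiniteDimensional K (R × M))

def fstL : β.Ext →ₗ[K] R := LinearMap.fst K R M

def snd : β.Ext →ₗ[K] M := LinearMap.snd K R M

def el (a : R) (m : M) : β.Ext := (a, m)

theorem ext₀ {x y : β.Ext} (h1 : β.fstL x = β.fstL y) (h2 : β.snd x = β.snd y) : x = y :=
  Prod.ext h1 h2

instance : One β.Ext := ⟨β.el 1 0⟩

instance : Mul β.Ext :=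
  ⟨fun x y => β.el (β.fstL x * β.fstL y) (β.l (β.fstL x) (β.snd y) + β.r (β.fstL y) (β.snd x))⟩

theorem fstL_mul (x y : β.Ext) : β.fstL (x * y) = β.fstL x * β.fstL y := rfl

theorem snd_mul₀ (x y : β.Ext) :
    β.snd (x * y) = β.l (β.fstL x) (β.snd y) + β.r (β.fstL y) (β.snd x) := rfl

theorem fstL_one : β.fstL 1 = 1 := rfl

@[simp] theorem snd_one : β.snd 1 = 0 := rfl

instance : Ring β.Ext :=
  { (inferInstance : AddCommGroup β.Ext), (inferInstance : One β.Ext),
    (inferInstance : Mul β.Ext) with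
    left_distrib := fun a b c => β.ext₀ (by simp [fstL_mul, mul_add])
      (by simp only [snd_mul₀, map_add, LinearMap.add_apply]; abel)
    right_distrib := fun a b c => β.ext₀ (by simp [fstL_mul, add_mul])
      (by simp only [snd_mul₀, map_add, LinearMap.add_apply]; abel)
    zero_mul := fun a => β.ext₀ (by simp [fstL_mul]) (by simp [snd_mul₀])
    mul_zero := fun a => β.ext₀ (by simp [fstL_mul]) (by simp [snd_mul₀])
    mul_assoc := fun a b c => β.ext₀ (by simp [fstL_mul, mul_assoc])
      (by simp only [snd_mul₀, fstL_mul, map_add, β.l_mul, β.r_mul, β.comm]; abel)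
    one_mul := fun a => β.ext₀ (by simp [fstL_mul, fstL_one]) (by simp [snd_mul₀, fstL_one, β.l_one])
    mul_one := fun a => β.ext₀ (by simp [fstL_mul, fstL_one])
      (by simp [snd_mul₀, fstL_one, β.r_one]) }

instance : Algebra K β.Ext :=
  Algebra.ofModule
    (fun c x y => β.ext₀ (by simp [fstL_mul]) (by simp [snd_mul₀]))
    (fun c x y => β.ext₀ (by simp [fstL_mul]) (by simp [snd_mul₀]))

def fst : β.Ext →ₐ[K] R := AlgHom.ofLinearMap β.fstL β.fstL_one β.fstL_mul

theorem ext {x y : β.Ext} (h1 : β.fst x = β.fst y) (h2 : β.snd x = β.snd y) : x = y :=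
  Prod.ext h1 h2

@[simp] theorem snd_mul (x y : β.Ext) :
    β.snd (x * y) = β.l (β.fst x) (β.snd y) + β.r (β.fst y) (β.snd x) := rfl

@[simp] theorem fst_el (a : R) (m : M) : β.fst (β.el a m) = a := rfl

@[simp] theorem snd_el (a : R) (m : M) : β.snd (β.el a m) = m := rfl

def inr : M →ₗ[K] β.Ext := LinearMap.inr K R M

@[simp] theorem fst_inr (m : M) : β.fst (β.inr m) = 0 := rfl

@[simp] theorem snd_inr (m : M) : β.snd (β.inr m) = m := rfl

def inl : R →ₐ[K] β.Ext :=
  AlgHom.ofLinearMap (LinearMap.inl K R M) rfl fun a b =>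
    β.ext rfl (show (0 : M) = β.l a 0 + β.r b 0 by simp)

@[simp] theorem fst_inl (a : R) : β.fst (β.inl a) = a := rfl

@[simp] theorem snd_inl (a : R) : β.snd (β.inl a) = 0 := rfl

theorem inl_add_inr (x : β.Ext) : β.inl (β.fst x) + β.inr (β.snd x) = x :=
  β.ext (by simp) (by simp)

theorem inl_mul_inr (a : R) (m : M) : β.inl a * β.inr m = β.inr (β.l a m) :=
  β.ext (by simp) (by simp)

theorem inr_mul (m : M) (x : β.Ext) : β.inr m * x = β.inr (β.r (β.fst x) m) :=
  β.ext (by simp) (by simp)

theorem mul_inr (m : M) (x : β.Ext) : x * β.inr m = β.inr (β.l (β.fst x) m) :=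
  β.ext (by simp) (by simp)

/-- Scaling of the square-zero part. -/
def scale (H : K) : β.Ext →ₐ[K] β.Ext :=
  AlgHom.ofLinearMap (β.inl.toLinearMap ∘ₗ β.fst.toLinearMap + H • β.inr ∘ₗ β.snd)
    (β.ext (by simp) (by simp)) fun a b => β.ext (by simp) (by simp)

@[simp] theorem fst_scale (H : K) (x : β.Ext) : β.fst (β.scale H x) = β.fst x := by
  simp [scale]

@[simp] theorem snd_scale (H : K) (x : β.Ext) : β.snd (β.scale H x) = H • β.snd x := by
  simp [scale]

theorem scale_inl (H : K) (a : R) : β.scale H (β.inl a) = β.inl a := β.ext (by simp) (by simp)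

theorem scale_scale {H H' : K} (h : H * H' = 1) (x : β.Ext) : β.scale H (β.scale H' x) = x :=
  β.ext (by simp) (by simp [smul_smul, h])

end Bim

/-! ### Nilpotent kernels -/

/-- A surjection with nilpotent kernel. -/
structure NK (π : R →ₐ[K] S) : Prop where
  surj : Function.Surjective π
  nil : IsNilpotent (LinearMap.ker π.toLinearMap)

theorem Bim.nk {M : Type u} [AddCommGroup M] [Module K M] (β : Bim K R M) : NK β.fst := by
  refine ⟨fun a => ⟨β.inl a, rfl⟩, 2, ?_⟩
  rw [pow_two, Submodule.zero_eq_bot, eq_bot_iff, Submodule.mul_le]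
  intro a ha b hb
  have ha' : β.fst a = 0 := ha
  have hb' : β.fst b = 0 := hb
  exact β.ext (by simp [ha']) (by simp [ha', hb'])

theorem map_mem_pow (π : R →ₐ[K] S) {I : Submodule K R} {J : Submodule K S}
    (h : ∀ x ∈ I, π x ∈ J) (n : ℕ) {x : R} (hx : x ∈ I ^ n) : π x ∈ J ^ n := by
  have := Submodule.mem_map_of_mem (f := π.toLinearMap) hx
  rw [Submodule.map_pow] at this
  have h2 : I.map π.toLinearMap ^ n ≤ J ^ n :=
    pow_le_pow_left' (Submodule.map_le_iff_le_comap.2 h) n
  exact h2 this

theorem NK.comp {T : Type u} [Ring T] [Algebra K T] {π : R →ₐ[K] S} {π' : S →ₐ[K] T}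
    (h' : NK π') (h : NK π) : NK (π'.comp π) := by
  obtain ⟨m, hm⟩ := h.nil
  obtain ⟨n, hn⟩ := h'.nil
  refine ⟨h'.surj.comp h.surj, n * m, ?_⟩
  rw [pow_mul, Submodule.zero_eq_bot, eq_bot_iff, ← Submodule.zero_eq_bot, ← hm]
  refine pow_le_pow_left' ?_ m
  intro x hx
  have := map_mem_pow π (J := LinearMap.ker π'.toLinearMap) (fun y hy => hy) n hx
  rw [hn] at this
  exact this

theorem NK.equiv (e : R ≃ₐ[K] S) : NK e.toAlgHom := by
  refine ⟨e.surjective, 1, ?_⟩
  rw [pow_one, Submodule.zero_eq_bot, LinearMap.ker_eq_bot]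
  exact e.injective

theorem NK.lTensor {π : R →ₐ[K] S} (h : NK π) (D : Type u) [Ring D] [Algebra K D] :
    NK (Algebra.TensorProduct.map (AlgHom.id K D) π) := by
  obtain ⟨m, hm⟩ := h.nil
  have hs := ses_lTensor (SES.of_surj π.toLinearMap h.surj) D
  refine ⟨hs.surj, m + 1, ?_⟩
  have key : ∀ n : ℕ, LinearMap.ker (Algebra.TensorProduct.map (AlgHom.id K D) π).toLinearMap ^ n ≤
      LinearMap.range ((LinearMap.ker π.toLinearMap ^ n).subtype.lTensor D) := by
    intro n
    induction n with
    | zero =>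
      rw [pow_zero, Submodule.one_le]
      exact ⟨1 ⊗ₜ ⟨1, by simp [Submodule.one_le.1 le_rfl]⟩, rfl⟩
    | succ n ih =>
      rw [pow_succ, Submodule.mul_le]
      intro a ha b hb
      obtain ⟨a, rfl⟩ := ih ha
      obtain ⟨b, rfl⟩ := hs.exact b hb
      clear ha hb
      induction a using TensorProduct.induction_on with
      | zero => simp
      | add x y hx hy => rw [map_add, add_mul]; exact add_mem hx hy
      | tmul d x =>
        induction b using TensorProduct.induction_on with
        | zero => simp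
        | add x y hx hy => rw [map_add, mul_add]; exact add_mem hx hy
        | tmul d' y =>
          exact ⟨(d * d') ⊗ₜ ⟨x * y, by rw [pow_succ]; exact Submodule.mul_mem_mul x.2 y.2⟩,
            by simp⟩
  rw [pow_succ, Submodule.zero_eq_bot, eq_bot_iff, Submodule.mul_le]
  intro a ha b _
  obtain ⟨a, rfl⟩ := key m ha
  have : (LinearMap.ker π.toLinearMap ^ m).subtype = 0 := by
    ext ⟨x, hx⟩
    rw [hm] at hx
    exact hx
  simp [this]

theorem NK.rTensor {π : R →ₐ[K] S} (h : NK π) (D : Type u) [Ring D] [Algebra K D] :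
    NK (Algebra.TensorProduct.map π (AlgHom.id K D)) := by
  have := ((NK.equiv (Algebra.TensorProduct.comm K D S)).comp (h.lTensor D)).comp
    (NK.equiv (Algebra.TensorProduct.comm K R D))
  have e : Algebra.TensorProduct.map π (AlgHom.id K D) =
      ((Algebra.TensorProduct.comm K D S).toAlgHom.comp
        (Algebra.TensorProduct.map (AlgHom.id K D) π)).comp
        (Algebra.TensorProduct.comm K R D).toAlgHom := by
    ext <;> simp
  rw [e]
  exact this

theorem NK.prod {R' S' : Type u} [Ring R'] [Algebra K R'] [Ring S'] [Algebra K S']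
    {π : R →ₐ[K] S} {π' : R' →ₐ[K] S'} (h : NK π) (h' : NK π') : NK (π.prodMap π') := by
  obtain ⟨m, hm⟩ := h.nil
  obtain ⟨n, hn⟩ := h'.nil
  refine ⟨h.surj.prodMap h'.surj, m + n, ?_⟩
  rw [Submodule.zero_eq_bot, eq_bot_iff]
  intro x hx
  have h1 := map_mem_pow (AlgHom.fst K R R') (J := LinearMap.ker π.toLinearMap)
    (fun y hy => by exact congrArg Prod.fst (LinearMap.mem_ker.1 hy)) _ hx
  have h2 := map_mem_pow (AlgHom.snd K R R') (J := LinearMap.ker π'.toLinearMap)
    (fun y hy => by exact congrArg Prod.snd (LinearMap.mem_ker.1 hy)) _ hx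
  rw [pow_add, hm, zero_mul] at h1
  rw [pow_add, hn, mul_zero] at h2
  exact Prod.ext h1 h2

end

end Crest.Agent.R186
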