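import Crest.Agent.R186.Ext

/-!
Symmetric algebras, and the data from which all six statements follow.
-/

set_option autoImplicit false

namespace Crest.Agent.R186

noncomputable section

universe u

variable {K : Type u} [Field K] {A : Type u} [Ring A] [Algebra K A]

variable (K A) in
/-- A nondegenerate trace form. -/
structure SymForm where
  l : A →ₗ[K] K
  symm : ∀ a b, l (a * b) = l (b * a)
  nondeg : ∀ a, (∀ b, l (b * a) = 0) → a = 0

namespace SymForm

variable [FiniteDimensional K A] (σ : SymForm K A)

def toDual : A →ₗ[K] Module.Dual K A := (LinearMap.mul K A).flip.compr₂ σ.l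

omit [FiniteDimensional K A] in
theorem toDual_apply (a b : A) : σ.toDual a b = σ.l (b * a) := rfl

def equiv : A ≃ₗ[K] Module.Dual K A :=
  LinearMap.linearEquivOfInjective σ.toDual
    ((injective_iff_map_eq_zero _).2 fun a ha => σ.nondeg a fun b => LinearMap.congr_fun ha b)
    Subspace.dual_finrank_eq.symm

theorem equiv_apply (a b : A) : σ.equiv a b = σ.l (b * a) := rfl

theorem l_symm (φ : Module.Dual K A) (b : A) : σ.l (b * σ.equiv.symm φ) = φ b := by
  rw [← equiv_apply, LinearEquiv.apply_symm_apply]

omit [FiniteDimensional K A] in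
theorem ext' {a a' : A} (h : ∀ b, σ.l (b * a) = σ.l (b * a')) : a = a' :=
  sub_eq_zero.1 (σ.nondeg _ fun b => by rw [mul_sub, map_sub, h, sub_self])

variable {W : Type u} [AddCommGroup W] [Module K W] [Module A W] [IsScalarTower K A W]

/-- The map to the regular module attached to a linear form. -/
def hom (φ : Module.Dual K W) : W →ₗ[A] A where
  toFun w := σ.equiv.symm (φ ∘ₗ (LinearMap.toSpanSingleton A W w).restrictScalars K)
  map_add' a b := σ.ext' fun x => by simp [mul_add, l_symm]
  map_smul' a b := σ.ext' fun x => by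
    rw [l_symm, RingHom.id_apply, smul_eq_mul, ← mul_assoc, l_symm]
    simp [mul_smul]

theorem l_hom (φ : Module.Dual K W) (x : A) (w : W) : σ.l (x * σ.hom φ w) = φ (x • w) :=
  σ.l_symm _ _

theorem hom_l (f : W →ₗ[A] A) : σ.hom (σ.l ∘ₗ f.restrictScalars K) = f :=
  LinearMap.ext fun w => σ.ext' fun x => by simp [l_hom]

include σ in
theorem separate {w : W} (h : ∀ t : W →ₗ[A] A, t w = 0) : w = 0 := by
  refine (Module.forall_dual_apply_eq_zero_iff K w).1 fun φ => ?_
  have := σ.l_hom φ 1 w
  rwa [h, mul_zero, map_zero, one_smul, eq_comm] at this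

include σ in
theorem injective : Module.Injective A A where
  out := fun X Y _ _ _ _ i hi g => by
    let : Module K X := Module.compHom X (algebraMap K A)
    let : Module K Y := Module.compHom Y (algebraMap K A)
    have : IsScalarTower K A X := ⟨fun c r x => by rw [Algebra.smul_def, mul_smul]; rfl⟩
    have : IsScalarTower K A Y := ⟨fun c r x => by rw [Algebra.smul_def, mul_smul]; rfl⟩
    obtain ⟨φ, hφ⟩ := LinearMap.dualMap_surjective_of_injective (f := i.restrictScalars K) hi
      (σ.l ∘ₗ g.restrictScalars K)
    refine ⟨σ.hom φ, fun x => σ.ext' fun b => ?_⟩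
    have := LinearMap.congr_fun hφ (b • x)
    simp only [LinearMap.dualMap_apply, LinearMap.coe_restrictScalars, map_smul,
      LinearMap.comp_apply, smul_eq_mul] at this
    rw [l_hom, this]

include σ in
/-- Every finite-dimensional module embeds in a finite free module. -/
theorem exists_embed (U : Mod K A) : ∃ (n : ℕ) (e : U →ₗ[A] (Fin n → A)), Function.Injective e := by
  let b := Module.finBasis K U
  refine ⟨_, LinearMap.pi fun i => σ.hom (b.coord i), (injective_iff_map_eq_zero _).2 fun w hw => ?_⟩
  refine b.ext_elem fun i => ?_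
  have := σ.l_hom (b.coord i) 1 w
  have h2 : σ.hom (b.coord i) w = 0 := congrFun hw i
  rw [h2, mul_zero, map_zero, one_smul] at this
  simpa using this.symm

end SymForm

variable (K A) in
/-- A symmetric algebra with a nonprojective module `Z 0` without self-extensions, given through a
projective resolution. -/
structure TData [FiniteDimensional K A] where
  sym : SymForm K A
  Z : ℕ → Mod K A
  P : ℕ → Mod K A
  ι : ∀ n, Z (n + 1) →ₗ[A] P n
  π : ∀ n, P n →ₗ[A] Z n
  ses : ∀ n, SES (ι n) (π n)
  pj : ∀ n, PJ A (P n)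
  ext : ∀ n (f : Z (n + 1) →ₗ[A] Z 0), ∃ g : P n →ₗ[A] Z 0, g ∘ₗ ι n = f
  nproj : ¬ PJ A (Z 0)

theorem TData.rk_eq [FiniteDimensional K A] (T : TData K A) (i n : ℕ) :
    rk K A (T.Z n) (T.Z 0) (i + 1) = 0 := by
  induction i generalizing n with
  | zero => exact (T.ses n).rk1_of_extend ((T.pj n).rk 0) (T.ext n)
  | succ i ih =>
    have := (T.ses n).c₃ K (T.Z 0) (i + 1)
    rwa [ih, (T.pj n).rk, add_zero, nonpos_iff_eq_zero] at this

variable (K A) in
/-- The radical has semisimple quotient `K^8` and nonzero fourth power. -/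
structure RData where
  π : A →ₐ[K] (Fin 8 → K)
  surj : Function.Surjective π
  nil : IsNilpotent (LinearMap.ker π.toLinearMap)
  four : ∃ a b c d : A, π a = 0 ∧ π b = 0 ∧ π c = 0 ∧ π d = 0 ∧ a * b * c * d ≠ 0

end

end Crest.Agent.R186
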