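import Crest.Agent.R186.Triv

/-!
The triangular algebra of an exact functor, and its modules.
-/

set_option autoImplicit false

namespace Crest.Agent.R186

noncomputable section

universe u

open scoped TensorProduct

variable {K : Type u} [Field K] {E : Type u} [Ring E] [Algebra K E] [FiniteDimensional K E]

def sig (N : Mod K E) : N →ₗ[K] (Mod.self K E →ₗ[E] N) where
  toFun n := LinearMap.toSpanSingleton E N n
  map_add' a b := by ext; simp
  map_smul' a b := by ext; simp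

@[simp] theorem sig_apply (N : Mod K E) (n : N) (e : E) : dsimp% only (sig N n e = e • n) := rfl

theorem comp_sig {N N' : Mod K E} (f : N →ₗ[E] N') (n : N) : f ∘ₗ sig N n = sig N' (f n) := by
  ext; simp

theorem sig_comp_sig (N : Mod K E) (n : N) (e : E) :
    sig N n ∘ₗ sig (Mod.self K E) e = sig N (e • n) :=
  LinearMap.ext fun x => mul_smul x e n

theorem sig_one : sig (Mod.self K E) (1 : E) = LinearMap.id := LinearMap.ext fun x => mul_one x

theorem LF.map_sig (F : LF K E E) {N N' : Mod K E} (f : N →ₗ[E] N') (n : N)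
    (m : F.obj (Mod.self K E)) :
    dsimp% only (F.map f (F.map (sig N n) m) = F.map (sig N' (f n)) m) := by
  rw [F.map_map, comp_sig]

theorem LF.map_sig_sig (F : LF K E E) (N : Mod K E) (n : N) (e : E)
    (m : F.obj (Mod.self K E)) : dsimp% only
    (F.map (sig N n) (F.map (sig (Mod.self K E) e) m) = F.map (sig N (e • n)) m) := by
  rw [F.map_map, sig_comp_sig]

theorem LF.ext_sig (F : LF K E E) (hF : F.Exact) {N : Mod K E} {W : Type u} [AddCommGroup W]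
    [Module E W] (a : F.obj N →ₗ[E] W) (h : ∀ n m, a (F.map (sig N n) m) = 0) : a = 0 := by
  have key : ∀ (f : Mod.fr K E N →ₗ[E] N), SZ f → a ∘ₗ F.map f = 0 := fun f hf => by
    induction hf with
    | zero => rw [map_zero, LinearMap.comp_zero]
    | comp u v =>
      have : v = sig N (v 1) := by ext; simp
      ext x
      rw [this, F.map_comp (V := Mod.self K E)]
      exact h _ _
    | add _ _ h1 h2 => rw [map_add, LinearMap.comp_add, h1, h2, add_zero]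
  exact cancel_surj (hF.surj (frπ_surj N)) (key _ ((pj_fr K E N).src _))

def triBim (F : LF K E E) : Bim K (E × E) (F.obj (Mod.self K E)) where
  l := act K E _ ∘ₗ LinearMap.snd K E E
  r := LinearMap.restrictScalarsₗ K E _ _ K ∘ₗ F.map ∘ₗ sig (Mod.self K E) ∘ₗ LinearMap.fst K E E
  l_one m := one_smul _ _
  r_one m := by
    change F.map (sig (Mod.self K E) (1 : E)) m = m
    rw [sig_one, F.map_id_apply]
  l_mul a b m := mul_smul _ _ _
  r_mul a b m := by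
    change F.map (sig (Mod.self K E) (a.1 * b.1)) m =
      F.map (sig (Mod.self K E) b.1) (F.map (sig (Mod.self K E) a.1) m)
    rw [F.map_map, sig_comp_sig]; rfl
  comm a b m := (map_smul (F.map (sig (Mod.self K E) b.1)) a.2 m).symm

theorem triBim_l (F : LF K E E) (a : E × E) (m : F.obj (Mod.self K E)) :
    (triBim F).l a m = a.2 • m := rfl

theorem triBim_r (F : LF K E E) (a : E × E) (m : F.obj (Mod.self K E)) :
    (triBim F).r a m = F.map (sig (Mod.self K E) a.1) m := rfl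

abbrev Lam (F : LF K E E) : Type u := (triBim F).Ext

structure Trip (F : LF K E E) where
  N₁ : Mod K E
  N₂ : Mod K E
  ψ : F.obj N₁ →ₗ[E] N₂

namespace Trip

variable {F : LF K E E}

def tact (T : Trip F) : Act K (Lam F) (T.N₁ × T.N₂) where
  ρ := LinearMap.mk₂ K (fun x n => (((triBim F).fst x).1 • n.1,
      ((triBim F).fst x).2 • n.2 + T.ψ (F.map (sig T.N₁ n.1) ((triBim F).snd x))))
    (fun a b x => by ext <;> simp [add_smul]; abel)
    (fun c a x => by ext <;> simp)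
    (fun a x y => by ext <;> simp; abel)
    (fun c a x => by ext <;> simp [smul_comm c])
  one x := by ext <;> simp
  mul a b x := by
    ext
    · simp [mul_smul]
    · simp [triBim_l, triBim_r, mul_smul, F.map_sig_sig, add_assoc]

def mod (T : Trip F) : Mod K (Lam F) := T.tact.mod

def e (T : Trip F) : (T.N₁ × T.N₂) ≃ₗ[K] T.mod := T.tact.e

theorem smul_e (T : Trip F) (x : Lam F) (n₁ : T.N₁) (n₂ : T.N₂) :
    x • T.e (n₁, n₂) = T.e (((triBim F).fst x).1 • n₁,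
      ((triBim F).fst x).2 • n₂ + T.ψ (F.map (sig T.N₁ n₁) ((triBim F).snd x))) := rfl

def hom {T T' : Trip F} (α : T.N₁ →ₗ[E] T'.N₁) (β : T.N₂ →ₗ[E] T'.N₂)
    (h : ∀ x, T'.ψ (F.map α x) = β (T.ψ x)) : T.mod →ₗ[Lam F] T'.mod :=
  mkLin (T'.e.toLinearMap ∘ₗ (α.restrictScalars K).prodMap (β.restrictScalars K) ∘ₗ
    T.e.symm.toLinearMap) fun x n => by
    obtain ⟨⟨n₁, n₂⟩, rfl⟩ := T.e.surjective n
    simp [smul_e, ← h, F.map_sig]

theorem hom_e {T T' : Trip F} (α : T.N₁ →ₗ[E] T'.N₁) (β : T.N₂ →ₗ[E] T'.N₂)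
    (h : ∀ x, T'.ψ (F.map α x) = β (T.ψ x)) (n₁ : T.N₁) (n₂ : T.N₂) :
    hom α β h (T.e (n₁, n₂)) = T'.e (α n₁, β n₂) := rfl

theorem hom_ext {T : Trip F} {W : Type u} [AddCommGroup W] [Module (Lam F) W]
    {g g' : T.mod →ₗ[Lam F] W} (h : ∀ n₁ n₂, g (T.e (n₁, n₂)) = g' (T.e (n₁, n₂))) : g = g' :=
  LinearMap.ext fun n => by
    obtain ⟨⟨n₁, n₂⟩, rfl⟩ := T.e.surjective n
    exact h n₁ n₂

theorem e_symm_smul (T : Trip F) (x : Lam F) (n : T.mod) :
    T.e.symm (x • n) = (((triBim F).fst x).1 • (T.e.symm n).1, ((triBim F).fst x).2 •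
      (T.e.symm n).2 + T.ψ (F.map (sig T.N₁ (T.e.symm n).1) ((triBim F).snd x))) := rfl

def c₁ {T T' : Trip F} (g : T.mod →ₗ[Lam F] T'.mod) : T.N₁ →ₗ[E] T'.N₁ :=
  mkLin (LinearMap.fst K _ _ ∘ₗ T'.e.symm.toLinearMap ∘ₗ g.restrictScalars K ∘ₗ
    T.e.toLinearMap ∘ₗ LinearMap.inl K _ _) fun r n => by
    have := congrArg (fun t => (T'.e.symm t).1) (g.map_smul ((triBim F).inl (r, 0)) (T.e (n, 0)))
    simpa [smul_e, e_symm_smul] using this

def c₂ {T T' : Trip F} (g : T.mod →ₗ[Lam F] T'.mod) : T.N₂ →ₗ[E] T'.N₂ :=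
  mkLin (LinearMap.snd K _ _ ∘ₗ T'.e.symm.toLinearMap ∘ₗ g.restrictScalars K ∘ₗ
    T.e.toLinearMap ∘ₗ LinearMap.inr K _ _) fun r n => by
    have := congrArg (fun t => (T'.e.symm t).2) (g.map_smul ((triBim F).inl (0, r)) (T.e (0, n)))
    simpa [smul_e, e_symm_smul] using this

theorem map_e₁ {T T' : Trip F} (g : T.mod →ₗ[Lam F] T'.mod) (n : T.N₁) :
    g (T.e (n, 0)) = T'.e (c₁ g n, 0) := by
  have := congrArg (fun t => (T'.e.symm t).2) (g.map_smul ((triBim F).inl (1, 0)) (T.e (n, 0)))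
  refine T'.e.symm.injective (Prod.ext rfl ?_)
  simpa [smul_e, e_symm_smul] using this

theorem map_e₂ {T T' : Trip F} (g : T.mod →ₗ[Lam F] T'.mod) (n : T.N₂) :
    g (T.e (0, n)) = T'.e (0, c₂ g n) := by
  have := congrArg (fun t => (T'.e.symm t).1) (g.map_smul ((triBim F).inl (0, 1)) (T.e (0, n)))
  refine T'.e.symm.injective (Prod.ext ?_ rfl)
  simpa [smul_e, e_symm_smul] using this

theorem map_e {T T' : Trip F} (g : T.mod →ₗ[Lam F] T'.mod) (n₁ : T.N₁) (n₂ : T.N₂) :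
    g (T.e (n₁, n₂)) = T'.e (c₁ g n₁, c₂ g n₂) := by
  have : T.e (n₁, n₂) = T.e (n₁, 0) + T.e (0, n₂) := by rw [← map_add]; simp
  rw [this, map_add, map_e₁, map_e₂, ← map_add]; simp

theorem c_compat (hF : F.Exact) {T T' : Trip F} (g : T.mod →ₗ[Lam F] T'.mod) (x : F.obj T.N₁) :
    T'.ψ (F.map (c₁ g) x) = c₂ g (T.ψ x) := by
  have := F.ext_sig hF (T'.ψ ∘ₗ F.map (c₁ g) - c₂ g ∘ₗ T.ψ) fun n m => by
    have := g.map_smul ((triBim F).inr m) (T.e (n, 0))
    rw [smul_e, map_e, map_e, smul_e] at this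
    have := congrArg Prod.snd (T'.e.injective this)
    simp only [Bim.fst_inr, Prod.snd_zero, zero_smul, zero_add, Bim.snd_inr] at this
    simp [this, F.map_sig]
  exact sub_eq_zero.1 (LinearMap.congr_fun this x)

abbrev cov (F : LF K E E) (P Q : Mod K E) : Trip F :=
  ⟨P, (F.obj P).prod Q, LinearMap.inl E _ _⟩

def covMap {P Q P' Q' : Mod K E} (u : P →ₗ[E] P') (v : Q →ₗ[E] Q') :
    (cov F P Q).mod →ₗ[Lam F] (cov F P' Q').mod :=
  hom (T := cov F P Q) (T' := cov F P' Q') u ((F.map u).prodMap v) fun x => by simp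

theorem covMap_add {P Q P' Q' : Mod K E} (u u' : P →ₗ[E] P') (v v' : Q →ₗ[E] Q') :
    covMap (F := F) (u + u') (v + v') = covMap u v + covMap u' v' :=
  LinearMap.ext fun _ => Prod.ext rfl
    (Prod.ext (LinearMap.congr_fun (F.map.map_add u u') _) rfl)

theorem covMap_comp {P Q P' Q' P'' Q'' : Mod K E} (u : P →ₗ[E] P') (v : Q →ₗ[E] Q')
    (u' : P' →ₗ[E] P'') (v' : Q' →ₗ[E] Q'') :
    covMap (F := F) (u' ∘ₗ u) (v' ∘ₗ v) = covMap u' v' ∘ₗ covMap u v :=
  LinearMap.ext fun _ => Prod.ext rfl (Prod.ext (F.map_map u u' _).symm rfl)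

theorem covMap_zero {P Q P' Q' : Mod K E} :
    covMap (F := F) (0 : P →ₗ[E] P') (0 : Q →ₗ[E] Q') = 0 :=
  LinearMap.ext fun _ => Prod.ext rfl (Prod.ext (LinearMap.congr_fun F.map.map_zero _) rfl)

theorem covMap_id {P Q : Mod K E} :
    covMap (F := F) (LinearMap.id : P →ₗ[E] P) (LinearMap.id : Q →ₗ[E] Q) = LinearMap.id :=
  LinearMap.ext fun _ => Prod.ext rfl (Prod.ext (F.map_id_apply _) rfl)

/-- The regular module as a triple. -/
def regEquiv (F : LF K E E) : Lam F ≃ₗ[Lam F] (cov F (Mod.self K E) (Mod.self K E)).mod :=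
  LinearEquiv.ofBijective (LinearMap.toSpanSingleton _ _ ((cov F _ _).e (1, 0, 1))) (by
    have h : ∀ x : Lam F, LinearMap.toSpanSingleton _ _
        ((cov F (Mod.self K E) (Mod.self K E)).e (1, 0, 1)) x =
        (cov F (Mod.self K E) (Mod.self K E)).e
          (((triBim F).fst x).1, (triBim F).snd x, ((triBim F).fst x).2) := fun x => by
      rw [LinearMap.toSpanSingleton_apply, smul_e, sig_one, F.map_id_apply]
      simp
    refine ⟨fun x y hxy => ?_, fun n => ?_⟩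
    · rw [h, h] at hxy
      have := (e _).injective hxy
      simp only [Prod.mk.injEq] at this
      exact (triBim F).ext (Prod.ext this.1 this.2.2) this.2.1
    · obtain ⟨⟨a, m, b⟩, rfl⟩ := (e _).surjective n
      exact ⟨(triBim F).el (a, b) m, h _⟩)

theorem cov_pj {P Q : Mod K E} (hP : PJ E P) (hQ : PJ E Q) : PJ (Lam F) (cov F P Q).mod := by
  have h1 : ∀ u : P →ₗ[E] P, SZ u → Thru (cov F (Mod.self K E) (Mod.self K E)).mod
      (covMap (F := F) u (0 : Q →ₗ[E] Q)) := fun u hu => by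
    induction hu with
    | zero => rw [covMap_zero]; exact Thru.zero
    | comp a b =>
      rw [← LinearMap.zero_comp (0 : Q →ₗ[E] Mod.self K E), covMap_comp (P' := Mod.self K E)]
      exact Thru.comp _ _
    | add _ _ h1 h2 => rw [← add_zero (0 : Q →ₗ[E] Q), covMap_add]; exact h1.add h2
  have h2 : ∀ u : Q →ₗ[E] Q, SZ u → Thru (cov F (Mod.self K E) (Mod.self K E)).mod
      (covMap (F := F) (0 : P →ₗ[E] P) u) := fun u hu => by
    induction hu with
    | zero => rw [covMap_zero]; exact Thru.zero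
    | comp a b =>
      rw [← LinearMap.zero_comp (0 : P →ₗ[E] Mod.self K E), covMap_comp (Q' := Mod.self K E)]
      exact Thru.comp _ _
    | add _ _ h1 h2 => rw [← add_zero (0 : P →ₗ[E] P), covMap_add]; exact h1.add h2
  have := (h1 _ hP).add (h2 _ hQ)
  rw [← covMap_add, add_zero, zero_add, covMap_id] at this
  exact this.trans (Thru.refl.equiv (regEquiv F).symm)

theorem pj_N₁ {T : Trip F} (h : PJ (Lam F) T.mod) : PJ E T.N₁ := by
  have key : ∀ g : T.mod →ₗ[Lam F] T.mod, Thru (cov F (Mod.self K E) (Mod.self K E)).mod g →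
      SZ (c₁ g) := fun g hg => by
    induction hg with
    | zero => exact Thru.zero
    | comp a b =>
      refine (Thru.comp (c₁ a) (c₁ b)).of_ext fun x => ?_
      have := map_e₁ (b ∘ₗ a) x
      rw [LinearMap.comp_apply, map_e₁, map_e₁] at this
      exact (congrArg Prod.fst ((e _).injective this)).symm
    | add _ _ h1 h2 => exact h1.add h2
  exact key _ (h.trans (Thru.refl.equiv (regEquiv F)))

/-! ### Syzygies -/

abbrev P (T : Trip F) : Trip F := cov F (Mod.fr K E T.N₁) (Mod.fr K E T.N₂)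

def π₂ (T : Trip F) : T.P.N₂ →ₗ[E] T.N₂ := (T.ψ ∘ₗ F.map (frπ T.N₁)).coprod (frπ T.N₂)

theorem π₂_apply (T : Trip F) (x : F.obj (Mod.fr K E T.N₁)) (y : Mod.fr K E T.N₂) :
    T.π₂ (x, y) = T.ψ (F.map (frπ T.N₁) x) + frπ T.N₂ y := rfl

theorem π₂_surj (T : Trip F) : Function.Surjective T.π₂ := fun y => by
  obtain ⟨z, rfl⟩ := frπ_surj _ y
  exact ⟨(0, z), by rw [π₂_apply]; simp⟩

theorem π₂_inl (T : Trip F) (x : F.obj ((Om K E).obj T.N₁)) :
    T.π₂ (F.map (omι T.N₁) x, 0) = 0 := by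
  rw [π₂_apply, F.map_map, (om_ses _).comp']; simp

abbrev syz (T : Trip F) : Trip F :=
  ⟨(Om K E).obj T.N₁, Mod.sub (LinearMap.ker T.π₂),
    (LinearMap.inl E _ _ ∘ₗ F.map (omι T.N₁)).codRestrict _ T.π₂_inl⟩

def ι₂ (T : Trip F) : T.syz.N₂ →ₗ[E] T.P.N₂ := (LinearMap.ker T.π₂).subtype

theorem ses₂ (T : Trip F) : SES T.ι₂ T.π₂ := SES.of_surj _ T.π₂_surj

theorem ι₂_ψ (T : Trip F) (x : F.obj T.syz.N₁) : T.ι₂ (T.syz.ψ x) = (F.map (omι T.N₁) x, 0) := rfl

theorem sq_ψ (T : Trip F) : Sq (F.map (omι T.N₁)) (F.map (frπ T.N₁)) T.ι₂ T.π₂ T.syz.ψ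
    (LinearMap.inl E _ _) T.ψ :=
  ⟨fun _ => rfl, fun x => by rw [LinearMap.inl_apply, π₂_apply]; simp⟩

def ι (T : Trip F) : T.syz.mod →ₗ[Lam F] T.P.mod :=
  hom (T := T.syz) (T' := T.P) (omι T.N₁) T.ι₂ fun _ => rfl

def π (T : Trip F) : T.P.mod →ₗ[Lam F] T.mod :=
  hom (T := T.P) (T' := T) (frπ T.N₁) T.π₂ fun x => (T.sq_ψ.r x).symm

theorem ses (T : Trip F) : SES T.ι T.π := by
  have a := om_ses T.N₁
  have b := T.ses₂
  refine ⟨a.inj.prodMap b.inj, fun t => Prod.ext (a.comp _) (b.comp _), fun t ht => ?_,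
    a.surj.prodMap b.surj⟩
  obtain ⟨s, hs⟩ := a.exact t.1 (congrArg Prod.fst ht)
  obtain ⟨s', hs'⟩ := b.exact t.2 (congrArg Prod.snd ht)
  exact ⟨(s, s'), Prod.ext hs hs'⟩

theorem P_pj (T : Trip F) : PJ (Lam F) T.P.mod := cov_pj (pj_fr _ _ _) (pj_fr _ _ _)

theorem P₂_pj (hP : F.PP) (T : Trip F) : PJ E T.P.N₂ :=
  Thru.prod (hP _ (pj_fr _ _ _)) (pj_fr _ _ _)

theorem syz_inj (hF : F.Exact) (T : Trip F) : Function.Injective T.syz.ψ := fun x y h =>
  hF.inj (om_ses T.N₁).inj (congrArg (fun t => (T.ι₂ t).1) h)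

def DS (T T' : Trip F) : Prop :=
  ∀ D : F.obj T.N₁ →ₗ[E] T'.N₂, ∃ (α : T.N₁ →ₗ[E] T'.N₁) (β : T.N₂ →ₗ[E] T'.N₂),
    SZ (T'.ψ ∘ₗ F.map α - β ∘ₗ T.ψ - D)

def IZ (T T' : Trip F) : Prop :=
  ∀ (α : T.N₁ →ₗ[E] T'.N₁) (β : T.N₂ →ₗ[E] T'.N₂), (∀ x, T'.ψ (F.map α x) = β (T.ψ x)) →
    SZ α ∧ SZ β

theorem DS.shift (hE : Module.Injective E E) (hF : F.Exact) (hP : F.PP) {T T' : Trip F}
    (h : DS T T') : DS T.syz T'.syz := fun D => by
  obtain ⟨D₂, D₃, sD⟩ := exists_sq_of_left (hF (om_ses T.N₁)) T'.ses₂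
    ((T'.P₂_pj hP).injective hE) D
  obtain ⟨α, β, hz⟩ := h D₃
  obtain ⟨β₁, β₂, sβ⟩ := exists_sq_of_right T.ses₂ T'.ses₂ (T.P₂_pj hP) β
  exact ⟨(Om K E).map α, β₁, (((T'.sq_ψ.comp (F.sq (om_sq α))).sub (sβ.comp T.sq_ψ)).sub sD).fwd
    (hF (om_ses T.N₁)) T'.ses₂ (hP _ (pj_fr _ _ _)) hz⟩

theorem sz_of (hE : Module.Injective E E) (hF : F.Exact) {T T' : Trip F}
    (hψ : Function.Injective T.ψ) (hI : IZ T T') (hD : DS T T'.syz)
    (g : T.mod →ₗ[Lam F] T'.mod) : SZ g := by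
  obtain ⟨hα, hβ⟩ := hI _ _ (c_compat hF g)
  obtain ⟨a, -, ha⟩ := hα.lift (frπ T'.N₁) (frπ_surj _)
  obtain ⟨b, -, hb⟩ := hβ.lift T'.π₂ T'.π₂_surj
  have hb' : ∀ x, T'.π₂ (b x) = c₂ g x := LinearMap.congr_fun hb
  obtain ⟨D, hD'⟩ := T'.ses₂.lift (LinearMap.inl E _ _ ∘ₗ F.map a - b ∘ₗ T.ψ) fun x => by
    rw [LinearMap.sub_apply, map_sub, LinearMap.comp_apply, T'.sq_ψ.r, F.map_map, ha,
      LinearMap.comp_apply, hb', c_compat hF, sub_self]
  obtain ⟨α, β, hz⟩ := hD D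
  obtain ⟨s, -, hs⟩ := hz.extend hE T.ψ hψ
  have hc : ∀ x, T'.P.ψ (F.map (a - omι _ ∘ₗ α) x) = (b - T'.ι₂ ∘ₗ (β + s)) (T.ψ x) := fun x => by
    have h1 := LinearMap.congr_fun hD' x
    have h2 := congrArg T'.ι₂ (LinearMap.congr_fun hs x)
    simp only [LinearMap.comp_apply, LinearMap.sub_apply, LinearMap.add_apply, map_sub, map_add,
      T'.sq_ψ.l, F.map_comp] at h1 h2 ⊢
    rw [h2, h1]; abel
  refine ((T'.P_pj.tgt (hom (T' := T'.P) _ _ hc)).post T'.π).of_eq (hom_ext fun n₁ n₂ => ?_)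
  rw [map_e, LinearMap.comp_apply, hom_e, π, hom_e, ← ha]
  simp [(om_ses _).comp, T'.ses₂.comp, hb']

theorem extend_reg (hE : Module.Injective E E) (hF : F.Exact) (hP : F.PP) {T : Trip F}
    (hψ : Function.Injective T.ψ) (g : T.syz.mod →ₗ[Lam F] Lam F) :
    ∃ g' : T.P.mod →ₗ[Lam F] Lam F, g' ∘ₗ T.ι = g := by
  let g₀ := (regEquiv F).toLinearMap ∘ₗ g
  obtain ⟨a, ha⟩ := hE.out (omι T.N₁) (om_ses _).inj (c₁ g₀)
  have ha' : a ∘ₗ omι T.N₁ = c₁ g₀ := LinearMap.ext ha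
  obtain ⟨b, hb⟩ := inj_ext ((Thru.prod (hP (Mod.self K E) Thru.refl) Thru.refl).injective hE)
    (T.ι₂.coprod (LinearMap.inl E _ _))
    ((c₂ g₀).coprod (LinearMap.inl E _ _ ∘ₗ F.map (V := Mod.self K E) a)) (by
      rintro ⟨y, x⟩ hx
      rw [LinearMap.coprod_apply, add_eq_zero_iff_neg_eq] at hx
      have h1 := congrArg T.π₂ hx
      rw [map_neg, T.ses₂.comp, neg_zero, T.sq_ψ.r, eq_comm, map_eq_zero_iff _ hψ] at h1
      obtain ⟨z, rfl⟩ := (hF (om_ses T.N₁)).exact x h1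
      rw [← T.sq_ψ.l, ← map_neg] at hx
      have h2 := T.ses₂.inj hx
      rw [LinearMap.coprod_apply, LinearMap.comp_apply, F.map_map, ha', add_eq_zero_iff_neg_eq,
        ← map_neg, h2]
      exact (c_compat hF g₀ z).symm)
  have hc : ∀ x, (cov F (Mod.self K E) (Mod.self K E)).ψ (F.map (V := Mod.self K E) a x) =
      b (T.P.ψ x) := fun x => by
    simpa using (LinearMap.congr_fun hb (0, x)).symm
  refine ⟨(regEquiv F).symm.toLinearMap ∘ₗ hom (T := T.P)
    (T' := cov F (Mod.self K E) (Mod.self K E)) a b hc, hom_ext fun n₁ n₂ => ?_⟩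
  refine (regEquiv F).injective (Eq.trans ?_ (map_e g₀ n₁ n₂).symm)
  have := LinearMap.congr_fun hb (n₂, 0)
  simp only [LinearMap.comp_apply, LinearMap.coprod_apply, map_zero, add_zero] at this
  rw [← this, ← ha]
  exact (regEquiv F).apply_symm_apply _

def zs (T : Trip F) : ℕ → Trip F
  | 0 => T
  | m + 1 => (zs T m).syz

theorem zs_inj (hF : F.Exact) {T : Trip F} (hψ : Function.Injective T.ψ) :
    ∀ m, Function.Injective (T.zs m).ψ
  | 0 => hψ
  | m + 1 => syz_inj hF (T.zs m)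

end Trip

theorem pj_of_AF {R : Type u} [Ring R] [Algebra K R] [FiniteDimensional K R] {Z : Mod K R}
    (h : PJ (TE K R) ((AF K R).obj Z)) : PJ R Z := by
  have key : ∀ g : (AF K R).obj Z →ₗ[TE K R] (AF K R).obj Z, SZ g →
      SZ (LinearMap.fst R _ _ ∘ₗ (afSplit Z).toLinearMap ∘ₗ (teRes K R).map g ∘ₗ aun Z) :=
    fun g hg => by
    induction hg with
    | zero => rw [map_zero]; exact Thru.zero
    | comp a b =>
      refine (Thru.comp (resFrom _ (U := Mod.self K (TE K R)) (dualBim K R).fst.toLinearMap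
        (fun r u => map_mul (dualBim K R).fst _ _) ∘ₗ
          (teRes K R).map (V := Mod.self K (TE K R)) a ∘ₗ aun Z)
        (LinearMap.toSpanSingleton R Z ((afE Z).symm (b 1)).1)).of_ext fun x => ?_
      have : b (a (afE Z (x, 0))) = a (afE Z (x, 0)) • b 1 := by
        rw [← map_smul, smul_eq_mul, mul_one]
      exact congrArg (fun t => ((afE Z).symm t).1) this
    | add _ _ h1 h2 => rw [map_add]; exact h1.add h2
  exact key _ h

open Trip in
/-- The trivial extension of the triangular algebra, with the induced module. -/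
def tdataOfTrip {F : LF K E E} (hE : Module.Injective E E) (hF : F.Exact) (hP : F.PP) (T : Trip F)
    (hψ : Function.Injective T.ψ) (hI : ∀ i, IZ (T.zs (i + 1)) T) (hD : ∀ i, DS (T.zs i) T)
    (hI' : ∀ m, IZ T (T.zs (m + 2))) (hD' : ∀ m, DS T (T.zs (m + 3))) (hN : ¬ PJ E T.N₁) :
    TData K (TE K (Lam F)) where
  sym := teSym K _
  Z n := (AF K _).obj (T.zs n).mod
  P n := (AF K _).obj (T.zs n).P.mod
  ι n := (AF K _).map (T.zs n).ι
  π n := (AF K _).map (T.zs n).π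
  ses n := AF_ses (T.zs n).ses (extend_reg hE hF hP (zs_inj hF hψ n))
  pj n := AF_pp _ (T.zs n).P_pj
  ext n f := by
    let f₀ := (afSplit T.mod).toLinearMap ∘ₗ (teRes K _).map f ∘ₗ aun _
    obtain ⟨g₂, hg₂⟩ := extend_DH (T.zs (n + 1)).ses (T.zs (n + 1)).P_pj (T.zs n).ι
      (T.zs n).ses.inj (sz_of hE hF hψ (hI' n) (hD' n)) (LinearMap.snd _ _ _ ∘ₗ f₀)
    have key : ∀ k : (T.zs (n + 1)).mod →ₗ[Lam F] T.mod, SZ k →
        ∃ g : (T.zs n).P.mod →ₗ[Lam F] T.mod, g ∘ₗ (T.zs n).ι = k := fun k hk => by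
      induction hk with
      | zero => exact ⟨0, rfl⟩
      | comp a b =>
        obtain ⟨a', ha⟩ := extend_reg hE hF hP (zs_inj hF hψ n) a
        exact ⟨b ∘ₗ a', by rw [← ha]; rfl⟩
      | add _ _ h1 h2 =>
        obtain ⟨g, rfl⟩ := h1
        obtain ⟨g', rfl⟩ := h2
        exact ⟨g + g', rfl⟩
    obtain ⟨g₁, hg₁⟩ := key _ (sz_of hE hF (zs_inj hF hψ (n + 1)) (hI n)
      ((hD n).shift hE hF hP) (LinearMap.fst _ _ _ ∘ₗ f₀))
    refine ⟨adj ((afSplit T.mod).symm.toLinearMap ∘ₗ g₁.prod g₂), AF_hom_ext fun u => ?_⟩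
    rw [LF.map_comp, LinearMap.comp_apply, aun_nat, adj_aun]
    exact (afSplit T.mod).symm_apply_eq.2
      (Prod.ext (LinearMap.congr_fun hg₁ u) (LinearMap.congr_fun hg₂ u))
  nproj h := hN (pj_N₁ (pj_of_AF h))

end

end Crest.Agent.R186
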