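import Crest.Agent.R186.SqZ

/-!
The trivial extension algebra `T(R) = R ⋉ D R` and induction of modules to it.
-/

set_option autoImplicit false

namespace Crest.Agent.R186

noncomputable section

universe u

open scoped TensorProduct
open Module

variable {K : Type u} [Field K] {R : Type u} [Ring R] [Algebra K R] [FiniteDimensional K R]

variable (K R) in
def dualBim : Bim K R (Dual K R) where
  l := (LinearMap.llcomp K R R K).flip ∘ₗ (LinearMap.mul K R).flip
  r := (LinearMap.llcomp K R R K).flip ∘ₗ LinearMap.mul K R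
  l_one m := by ext; simp
  r_one m := by ext; simp
  l_mul a b m := by ext; simp [mul_assoc]
  r_mul a b m := by ext; simp [mul_assoc]
  comm a b m := by ext; simp [mul_assoc]

omit [FiniteDimensional K R] in
@[simp] theorem dualBim_l (a : R) (ξ : Dual K R) (x : R) : (dualBim K R).l a ξ x = ξ (x * a) := rfl

omit [FiniteDimensional K R] in
@[simp] theorem dualBim_r (a : R) (ξ : Dual K R) (x : R) : (dualBim K R).r a ξ x = ξ (a * x) := rfl

variable (K R) in
abbrev TE : Type u := (dualBim K R).Ext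

variable (K R) in
def teSym : SymForm K (TE K R) where
  l := LinearMap.applyₗ (1 : R) ∘ₗ (dualBim K R).snd
  symm a b := by simp [add_comm]
  nondeg a h := by
    refine (dualBim K R).ext ?_ ?_
    · refine (Module.forall_dual_apply_eq_zero_iff K _).1 fun φ => ?_
      simpa using h ((dualBim K R).inr φ)
    · ext x
      simpa using h ((dualBim K R).inl x)

theorem teSym_l (x : TE K R) : (teSym K R).l x = (dualBim K R).snd x 1 := rfl

variable (K R) in
def dmAct : Act K R (Dual K R) := ⟨(dualBim K R).l, (dualBim K R).l_one, (dualBim K R).l_mul⟩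

variable (K R) in
/-- The dual of the right regular module. -/
def DM : Mod K R := (dmAct K R).mod

def dmE : Dual K R ≃ₗ[K] DM K R := (dmAct K R).e

theorem dmE_symm_smul (r : R) (ξ : DM K R) (x : R) :
    dmE.symm (r • ξ) x = dmE.symm ξ (x * r) := rfl

def dmHom {W : Type u} [AddCommGroup W] [Module K W] [Module R W] [IsScalarTower K R W]
    (φ : Dual K W) : W →ₗ[R] DM K R where
  toFun w := dmE (φ ∘ₗ (LinearMap.toSpanSingleton R W w).restrictScalars K)
  map_add' a b := by rw [← map_add]; congr 1; ext; simp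
  map_smul' a b := dmE.symm.injective (by
    ext x
    rw [RingHom.id_apply, dmE_symm_smul]
    simp [mul_smul])

theorem dmHom_apply {W : Type u} [AddCommGroup W] [Module K W] [Module R W] [IsScalarTower K R W]
    (φ : Dual K W) (w : W) (x : R) : dmE.symm (dmHom (R := R) φ w) x = φ (x • w) := rfl

theorem DM_injective : Module.Injective R (DM K R) where
  out := fun X Y _ _ _ _ i hi g => by
    let : Module K X := Module.compHom X (algebraMap K R)
    let : Module K Y := Module.compHom Y (algebraMap K R)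
    have : IsScalarTower K R X := ⟨fun c r x => by rw [Algebra.smul_def, mul_smul]; rfl⟩
    have : IsScalarTower K R Y := ⟨fun c r x => by rw [Algebra.smul_def, mul_smul]; rfl⟩
    obtain ⟨φ, hφ⟩ := LinearMap.dualMap_surjective_of_injective (f := i.restrictScalars K) hi
      (LinearMap.applyₗ (1 : R) ∘ₗ dmE.symm.toLinearMap ∘ₗ g.restrictScalars K)
    refine ⟨dmHom φ, fun x => dmE.symm.injective (LinearMap.ext fun b => ?_)⟩
    have := LinearMap.congr_fun hφ (b • x)
    simp only [LinearMap.dualMap_apply, LinearMap.coe_restrictScalars, map_smul,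
      LinearMap.comp_apply, LinearEquiv.coe_coe, LinearMap.applyₗ_apply_apply, dmE_symm_smul,
      one_mul] at this
    rw [dmHom_apply, this]

theorem exists_embed_DM (U : Mod K R) :
    ∃ (n : ℕ) (e : U →ₗ[R] (Fin n → DM K R)), Function.Injective e := by
  let b := Module.finBasis K U
  refine ⟨_, LinearMap.pi fun i => dmHom (b.coord i),
    (injective_iff_map_eq_zero _).2 fun w hw => ?_⟩
  refine b.ext_elem fun i => ?_
  have := dmHom_apply (R := R) (b.coord i) w 1
  have h2 : dmHom (R := R) (b.coord i) w = 0 := congrFun hw i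
  rw [h2, map_zero, one_smul] at this
  simpa using this.symm

variable (K R) in
abbrev teRes : LF K (TE K R) R := Res (dualBim K R).inl

/-- As an `R`-module, `T(R)` is an extension of `R` by `D R`. -/
theorem te_ses : ∃ (f : DM K R →ₗ[R] (teRes K R).obj (Mod.self K (TE K R)))
    (g : (teRes K R).obj (Mod.self K (TE K R)) →ₗ[R] R), SES f g := by
  refine ⟨resTo _ (U := Mod.self K (TE K R)) ((dualBim K R).inr ∘ₗ dmE.symm.toLinearMap)
      fun r w => ((dualBim K R).inl_mul_inr r _).symm,
    resFrom _ (U := Mod.self K (TE K R)) (dualBim K R).fst.toLinearMap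
      fun r u => map_mul (dualBim K R).fst _ _, fun a b h => ?_, fun t => rfl, fun t ht => ?_,
    fun a => ⟨toRes _ (Mod.self K (TE K R)) ((dualBim K R).inl a), rfl⟩⟩
  · exact dmE.symm.injective (congrArg (dualBim K R).snd h)
  · exact ⟨dmE ((dualBim K R).snd t), (dualBim K R).ext ht.symm rfl⟩

/-! ### Induction -/

/-- Right multiplication on `Hom(U, R)`. -/
def rmul (U : Mod K R) : R →ₗ[K] (U →ₗ[R] R) →ₗ[K] (U →ₗ[R] R) where
  toFun r := LinearMap.compRight K (LinearMap.toSpanSingleton R R r)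
  map_add' a b := by ext; simp [mul_add]
  map_smul' a b := by ext; simp

omit [FiniteDimensional K R] in
@[simp] theorem rmul_apply (U : Mod K R) (r : R) (f : U →ₗ[R] R) (u : U) :
    rmul U r f u = f u * r := rfl

def dhAct (U : Mod K R) : Act K R (Dual K (U →ₗ[R] R)) where
  ρ := (LinearMap.llcomp K _ _ K).flip ∘ₗ rmul U
  one θ := by
    ext f
    exact congrArg θ (by ext; simp)
  mul a b θ := by
    ext f
    exact congrArg θ (by ext; simp [mul_assoc])

omit [FiniteDimensional K R] in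
@[simp] theorem dhAct_ρ (U : Mod K R) (r : R) (θ : Dual K (U →ₗ[R] R)) (f : U →ₗ[R] R) :
    (dhAct U).ρ r θ f = θ (rmul U r f) := rfl

/-- The dual of `Hom(U, R)`. -/
def DH (U : Mod K R) : Mod K R := (dhAct U).mod

def dhE (U : Mod K R) : Dual K (U →ₗ[R] R) ≃ₗ[K] DH U := (dhAct U).e

theorem dhE_symm_smul (U : Mod K R) (r : R) (θ : DH U) (f : U →ₗ[R] R) :
    (dhE U).symm (r • θ) f = (dhE U).symm θ (rmul U r f) := rfl

def evU (U : Mod K R) : U →ₗ[K] (U →ₗ[R] R) →ₗ[K] R where
  toFun u := LinearMap.applyₗ' K u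
  map_add' a b := by ext; simp [LinearMap.applyₗ']
  map_smul' a b := by ext; simp [LinearMap.applyₗ']

omit [FiniteDimensional K R] in
@[simp] theorem evU_apply (U : Mod K R) (u : U) (f : U →ₗ[R] R) : evU U u f = f u := rfl

def star (U : Mod K R) : Dual K R →ₗ[K] U →ₗ[K] Dual K (U →ₗ[R] R) :=
  ((LinearMap.llcomp K _ _ K).flip ∘ₗ evU U).flip

omit [FiniteDimensional K R] in
@[simp] theorem star_apply (U : Mod K R) (ξ : Dual K R) (u : U) (f : U →ₗ[R] R) :
    star U ξ u f = ξ (f u) := rfl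

def afAct (U : Mod K R) : Act K (TE K R) (U × Dual K (U →ₗ[R] R)) where
  ρ := LinearMap.mk₂ K (fun e x => ((dualBim K R).fst e • x.1,
      (dhAct U).ρ ((dualBim K R).fst e) x.2 + star U ((dualBim K R).snd e) x.1))
    (fun a b x => by ext <;> simp [add_smul]; ring)
    (fun c a x => by ext <;> simp [mul_add])
    (fun a x y => by ext <;> simp; ring)
    (fun c a x => by ext <;> simp [smul_comm c, mul_add])
  one x := by ext <;> simp [(dhAct U).one]
  mul a b x := by
    ext
    · simp [mul_smul]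
    · simp [(dhAct U).mul]; ring

variable (K R) in
def AF : LF K R (TE K R) where
  obj U := (afAct U).mod
  map {U V} :=
    { toFun := fun g => mkLin ((afAct V).e.toLinearMap ∘ₗ
          (g.restrictScalars K).prodMap (LinearMap.lcomp K R g).dualMap ∘ₗ
          (afAct U).e.symm.toLinearMap) fun e x =>
        Prod.ext (g.map_smul _ _) (LinearMap.ext fun _ => rfl)
      map_add' := fun f g => LinearMap.ext fun x => Prod.ext rfl (LinearMap.ext fun h =>
        (congrArg x.2 (LinearMap.comp_add _ _ h)).trans (map_add x.2 _ _))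
      map_smul' := fun c f => LinearMap.ext fun x => Prod.ext rfl (LinearMap.ext fun h =>
        (congrArg x.2 (show h ∘ₗ (c • f) = c • (h ∘ₗ f) by ext; simp)).trans
          (map_smul x.2 _ _)) }
  map_id U := rfl
  map_comp f g := rfl

def afE (U : Mod K R) : (U × Dual K (U →ₗ[R] R)) ≃ₗ[K] (AF K R).obj U := (afAct U).e

theorem smul_afE (U : Mod K R) (e : TE K R) (u : U) (θ : Dual K (U →ₗ[R] R)) :
    e • afE U (u, θ) = afE U ((dualBim K R).fst e • u,
      (dhAct U).ρ ((dualBim K R).fst e) θ + star U ((dualBim K R).snd e) u) := rfl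

theorem AF_map {U V : Mod K R} (g : U →ₗ[R] V) (u : U) (θ : Dual K (U →ₗ[R] R)) :
    (AF K R).map g (afE U (u, θ)) = afE V (g u, (LinearMap.lcomp K R g).dualMap θ) := rfl

theorem star_surj (U : Mod K R) : Function.Surjective (TensorProduct.lift (star U)) := by
  refine (LinearMap.dualMap_injective_iff (K := K) (V₁ := Dual K R ⊗[K] U)
    (V₂ := Dual K (U →ₗ[R] R)) (f := TensorProduct.lift (star U))).1
    ((injective_iff_map_eq_zero _).2 fun φ hφ => ?_)
  obtain ⟨f, rfl⟩ := (Module.evalEquiv K (U →ₗ[R] R)).surjective φ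
  have : f = 0 := LinearMap.ext fun u => (Module.forall_dual_apply_eq_zero_iff K _).1 fun ξ => by
    simpa using LinearMap.congr_fun hφ (ξ ⊗ₜ u)
  rw [this, map_zero]

def aun (U : Mod K R) : U →ₗ[R] (teRes K R).obj ((AF K R).obj U) :=
  resTo _ ((afE U).toLinearMap ∘ₗ LinearMap.inl K _ _) fun r u => by
    simp [smul_afE]

theorem aun_apply (U : Mod K R) (u : U) : aun U u = toRes _ _ (afE U (u, 0)) := rfl

theorem aun_nat {U V : Mod K R} (g : U →ₗ[R] V) (u : U) :
    (teRes K R).map ((AF K R).map g) (aun U u) = aun V (g u) := by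
  rw [aun_apply, Res_map, AF_map, map_zero, aun_apply]

theorem inr_smul_afE (U : Mod K R) (ξ : Dual K R) (u : U) :
    (dualBim K R).inr ξ • afE U (u, 0) = afE U (0, star U ξ u) := by
  simp [smul_afE]

theorem AF_hom_ext {U : Mod K R} {W : Mod K (TE K R)} {g g' : (AF K R).obj U →ₗ[TE K R] W}
    (h : ∀ u, (teRes K R).map g (aun U u) = (teRes K R).map g' (aun U u)) : g = g' := by
  have h' : ∀ u, g (afE U (u, 0)) = g' (afE U (u, 0)) := h
  ext x
  obtain ⟨⟨u, θ⟩, rfl⟩ := (afE U).surjective x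
  obtain ⟨t, rfl⟩ := star_surj U θ
  have e : ∀ θ, afE U (u, θ) = afE U (u, 0) + afE U (0, θ) := fun θ => by
    rw [← map_add]; simp
  rw [e, map_add, map_add, h']
  congr 1
  induction t using TensorProduct.induction_on with
  | zero => simp only [map_zero]; rw [show ((0 : U), (0 : Dual K (U →ₗ[R] R))) = 0 from rfl]; simp
  | tmul ξ v => rw [TensorProduct.lift.tmul, ← inr_smul_afE, map_smul, map_smul, h']
  | add a b ha hb =>
    have e' : ∀ θ θ', afE U (0, θ + θ') = afE U (0, θ) + afE U (0, θ') := fun θ θ' => by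
      rw [← map_add]; simp
    rw [map_add, e', map_add, map_add, ha, hb]

theorem exists_adj {U : Mod K R} {W : Mod K (TE K R)} (f : U →ₗ[R] (teRes K R).obj W) :
    ∃ g : (AF K R).obj U →ₗ[TE K R] W, ∀ u, (teRes K R).map g (aun U u) = f u := by
  let f₀ : U →ₗ[K] W := (toRes _ W).symm.toLinearMap ∘ₗ f.restrictScalars K
  have hf : ∀ (r : R) u, f₀ (r • u) = (dualBim K R).inl r • f₀ u := fun r u => f.map_smul r u
  let k : Dual K R ⊗[K] U →ₗ[K] W :=
    TensorProduct.lift ((act K (TE K R) W ∘ₗ (dualBim K R).inr).compl₂ f₀)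
  have hk : ∀ ξ u, k (ξ ⊗ₜ u) = (dualBim K R).inr ξ • f₀ u := fun _ _ => rfl
  have key : ∀ (t : W →ₗ[TE K R] TE K R) (y : Dual K R ⊗[K] U), (dualBim K R).fst (t (k y)) = 0 ∧
      ∀ x : R, (dualBim K R).snd (t (k y)) x = TensorProduct.lift (star U) y
        (rmul U x (mkLin ((dualBim K R).fst.toLinearMap ∘ₗ t.restrictScalars K ∘ₗ f₀)
          fun r u => by simp [hf])) := fun t y => by
    induction y using TensorProduct.induction_on with
    | zero => simp
    | tmul ξ u => simp [hk]
    | add a b ha hb => simp [ha.1, hb.1, ha.2, hb.2]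
  obtain ⟨g₂, hg₂⟩ := exists_desc_of_ker (star_surj U) k fun y hy =>
    (teSym K R).separate fun t => (dualBim K R).ext (key t y).1 (LinearMap.ext fun x => by
      rw [(key t y).2, hy]; simp)
  have hg : ∀ ξ u, g₂ (star U ξ u) = (dualBim K R).inr ξ • f₀ u := fun ξ u =>
    LinearMap.congr_fun hg₂ (ξ ⊗ₜ u)
  have hg' : ∀ (e : TE K R) θ, g₂ ((dhAct U).ρ ((dualBim K R).fst e) θ) = e • g₂ θ := fun e θ => by
    obtain ⟨t, rfl⟩ := star_surj U θ
    induction t using TensorProduct.induction_on with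
    | zero => simp
    | tmul ξ v =>
      rw [TensorProduct.lift.tmul, hg, ← mul_smul, Bim.mul_inr, ← hg]
      rfl
    | add a b ha hb => simp only [map_add, ha, hb, smul_add]
  refine ⟨mkLin (f₀.coprod g₂ ∘ₗ (afE U).symm.toLinearMap) fun e x => ?_, fun u => ?_⟩
  · obtain ⟨⟨u, θ⟩, rfl⟩ := (afE U).surjective x
    rw [smul_afE]
    simp only [LinearMap.comp_apply, LinearEquiv.coe_coe, LinearEquiv.symm_apply_apply,
      LinearMap.coprod_apply, map_add, hf, hg, hg', smul_add]
    conv_rhs => rw [← (dualBim K R).inl_add_inr e, add_smul, (dualBim K R).inl_add_inr e]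
    abel
  · rw [aun_apply, Res_map]
    simp [f₀]

def adj {U : Mod K R} {W : Mod K (TE K R)} (f : U →ₗ[R] (teRes K R).obj W) :
    (AF K R).obj U →ₗ[TE K R] W := (exists_adj f).choose

theorem adj_aun {U : Mod K R} {W : Mod K (TE K R)} (f : U →ₗ[R] (teRes K R).obj W) (u : U) :
    (teRes K R).map (adj f) (aun U u) = f u := (exists_adj f).choose_spec u

theorem AF_pp : (AF K R).PP := by
  let a : (AF K R).obj (Mod.self K R) →ₗ[TE K R] Mod.self K (TE K R) :=
    adj (resTo _ (U := Mod.self K (TE K R))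
      (dualBim K R).inl.toLinearMap fun r w => map_mul (dualBim K R).inl r w)
  let b : Mod.self K (TE K R) →ₗ[TE K R] (AF K R).obj (Mod.self K R) :=
    LinearMap.toSpanSingleton _ _ (afE (Mod.self K R) (1, 0))
  refine LF.pp_of_self _ (Thru.refl.retract a b
    (LinearMap.congr_fun (AF_hom_ext (g := b ∘ₗ a) (g' := LinearMap.id) fun u => ?_)))
  rw [LF.map_comp, LinearMap.comp_apply, adj_aun, resTo_apply, Res_map, LF.map_id_apply, aun_apply]
  refine congrArg (toRes _ _) ((smul_afE (Mod.self K R) _ _ _).trans ?_)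
  simp

theorem AF_ses {U V W : Mod K R} {f : U →ₗ[R] V} {g : V →ₗ[R] W} (h : SES f g)
    (he : ∀ k : U →ₗ[R] R, ∃ k' : V →ₗ[R] R, k' ∘ₗ f = k) :
    SES ((AF K R).map f) ((AF K R).map g) := by
  have h1 : Function.Injective (LinearMap.lcomp K R f).dualMap :=
    LinearMap.dualMap_injective_of_surjective he
  have h2 : Function.Surjective (LinearMap.lcomp K R g).dualMap :=
    LinearMap.dualMap_surjective_of_injective (LinearMap.lcomp_injective_of_surjective g h.surj)
  refine ⟨h.inj.prodMap h1, fun t => ?_, fun t ht => ?_, h.surj.prodMap h2⟩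
  · rw [LF.map_map, h.comp', map_zero, LinearMap.zero_apply]
  · obtain ⟨⟨v, θ⟩, rfl⟩ := (afE V).surjective t
    rw [AF_map, map_eq_zero_iff _ (afE W).injective, Prod.mk_eq_zero] at ht
    obtain ⟨u, rfl⟩ := h.exact v ht.1
    obtain ⟨θ', hθ⟩ := exists_desc_of_ker (g := LinearMap.lcomp K R f) he θ fun k hk => by
      obtain ⟨k', rfl⟩ := h.desc k (LinearMap.congr_fun hk)
      exact LinearMap.congr_fun ht.2 k'
    exact ⟨afE U (u, θ'), by rw [AF_map, ← hθ]; rfl⟩

/-- As an `R`-module, the induced module is `U × D Hom(U, R)`. -/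
def afSplit (U : Mod K R) : (teRes K R).obj ((AF K R).obj U) ≃ₗ[R] U × DH U where
  toFun x := (((afE U).symm ((toRes _ _).symm x)).1, dhE U ((afE U).symm ((toRes _ _).symm x)).2)
  invFun x := toRes _ _ (afE U (x.1, (dhE U).symm x.2))
  map_add' _ _ := rfl
  map_smul' r x := by
    obtain ⟨x, rfl⟩ := (toRes _ _).surjective x
    obtain ⟨⟨u, θ⟩, rfl⟩ := (afE U).surjective x
    rw [smul_toRes, smul_afE]
    simp only [LinearEquiv.symm_apply_apply, Bim.fst_inl, Bim.snd_inl, map_zero,
      LinearMap.zero_apply, add_zero]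
    rfl
  left_inv _ := rfl
  right_inv _ := rfl

def xi (Z : Mod K R) {P : Mod K R} (θ : Dual K (Z →ₗ[R] P)) : P →ₗ[R] DH Z where
  toFun p := dhE Z (θ ∘ₗ LinearMap.compRight K (LinearMap.toSpanSingleton R P p))
  map_add' a b := by
    rw [← map_add]; congr 1; ext f
    exact (congrArg θ (by ext; simp)).trans (map_add θ _ _)
  map_smul' r p := (dhE Z).symm.injective (LinearMap.ext fun f => by
    rw [RingHom.id_apply, dhE_symm_smul]
    exact congrArg θ (by ext; simp [mul_smul]))

theorem xi_apply (Z : Mod K R) {P : Mod K R} (θ : Dual K (Z →ₗ[R] P)) (p : P) (f : Z →ₗ[R] R) :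
    (dhE Z).symm (xi Z θ p) f = θ (LinearMap.toSpanSingleton R P p ∘ₗ f) := rfl

theorem xi_surj (Z : Mod K R) {P : Mod K R} {g : P →ₗ[R] DH Z} (h : SZ g) : ∃ θ, xi Z θ = g := by
  induction h with
  | zero => exact ⟨0, rfl⟩
  | comp a b =>
    refine ⟨(dhE Z).symm (b 1) ∘ₗ LinearMap.compRight K a, LinearMap.ext fun p =>
      (dhE Z).symm.injective (LinearMap.ext fun f => ?_)⟩
    have : b (a p) = a p • b 1 := by rw [← map_smul, smul_eq_mul, mul_one]
    rw [xi_apply, LinearMap.comp_apply b, this, dhE_symm_smul]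
    exact congrArg ((dhE Z).symm (b 1)) (by ext; simp)
  | add _ _ h1 h2 =>
    obtain ⟨θ₁, rfl⟩ := h1
    obtain ⟨θ₂, rfl⟩ := h2
    exact ⟨θ₁ + θ₂, rfl⟩

theorem extend_DH {Z N₂ P₁ N₁ P₀ : Mod K R} {i₂ : N₂ →ₗ[R] P₁} {p₁ : P₁ →ₗ[R] N₁}
    (h : SES i₂ p₁) (hP : PJ R P₁) (i₁ : N₁ →ₗ[R] P₀) (hi : Function.Injective i₁)
    (hz : ∀ k : Z →ₗ[R] N₂, SZ k) (g : N₁ →ₗ[R] DH Z) : ∃ g' : P₀ →ₗ[R] DH Z, g' ∘ₗ i₁ = g := by
  obtain ⟨θ, hθ⟩ := xi_surj Z (hP.src (g ∘ₗ p₁))
  have h0 : ∀ k : Z →ₗ[R] N₂, SZ k → θ (i₂ ∘ₗ k) = 0 := fun k hk => by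
    induction hk with
    | zero => rw [LinearMap.comp_zero, map_zero]
    | comp a b =>
      have : i₂ ∘ₗ b ∘ₗ a = LinearMap.toSpanSingleton R P₁ (i₂ (b 1)) ∘ₗ a := by
        ext; simp [← map_smul]
      rw [this, ← xi_apply, hθ, LinearMap.comp_apply, h.comp, map_zero, map_zero,
        LinearMap.zero_apply]
    | add _ _ h1 h2 => rw [LinearMap.comp_add, map_add, h1, h2, add_zero]
  obtain ⟨θ', hθ'⟩ := inj_ext (R := K) (Module.injective_of_isSemisimpleRing K K)
    (LinearMap.compRight K (i₁ ∘ₗ p₁)) θ fun k hk => by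
      obtain ⟨k', rfl⟩ := h.lift k fun w => hi (by
        rw [map_zero]; exact LinearMap.congr_fun hk w)
      exact h0 k' (hz k')
  refine ⟨xi Z θ', cancel_surj h.surj ?_⟩
  rw [← hθ, ← hθ']
  refine LinearMap.ext fun p => (dhE Z).symm.injective (LinearMap.ext fun f => ?_)
  rw [LinearMap.comp_apply, LinearMap.comp_apply, xi_apply, xi_apply]
  exact congrArg θ' (by ext; simp)

end

end Crest.Agent.R186
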