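import Crest.Agent.R186.BFacts

/-!
The natural map `Ω⁴ U → Ω U` over `B = C ⊗ C` given by the tensor square of the cocycle.
-/

set_option autoImplicit false
set_option linter.unusedSectionVars false

namespace Crest.Agent.R186

noncomputable section

universe u

open scoped TensorProduct
open Module

variable {K : Type u} [Field K] {C B : Type u} [Ring C] [Algebra K C] [Ring B] [Algebra K B]
  [FiniteDimensional K C] [FiniteDimensional K B] (e : C ⊗[K] C ≃ₐ[K] B)

def PF : LF K B B := (BoxR e (Mod.self K C)).comp (Res (i₂ e))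

def pE (W : Mod K B) : C ⊗[K] W ≃ₗ[K] (PF e).obj W := bE e (Mod.self K C) ((Res (i₂ e)).obj W)

theorem i₁_pE (W : Mod K B) (c : C) (z : C ⊗[K] W) :
    i₁ e c • pE e W z = pE e W ((LinearMap.mulLeft K c).rTensor W z) :=
  i₁_smul_bE' (V := Mod.self K C) (U := (Res (i₂ e)).obj W) c z

theorem i₂_pE (W : Mod K B) (c : C) (z : C ⊗[K] W) :
    i₂ e c • pE e W z = pE e W ((act K B W (i₂ e c)).lTensor C z) :=
  i₂_smul_bE' (V := Mod.self K C) (U := (Res (i₂ e)).obj W) c z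

theorem PF_map {W W' : Mod K B} (f : W →ₗ[B] W') (z : C ⊗[K] W) :
    (PF e).map f (pE e W z) = pE e W' ((f.restrictScalars K).lTensor C z) := rfl

theorem pE_induction {W : Mod K B} {p : (PF e).obj W → Prop} (x : (PF e).obj W) (h0 : p 0)
    (h1 : ∀ c w, p (pE e W (c ⊗ₜ w))) (h2 : ∀ a b, p a → p b → p (a + b)) : p x :=
  box_induction x h0 h1 h2

def pLift {W : Mod K B} {N : Type u} [AddCommGroup N] [Module K N] [Module B N]
    (f : C ⊗[K] W →ₗ[K] N) (h₁ : ∀ (c x : C) w, f ((c * x) ⊗ₜ w) = i₁ e c • f (x ⊗ₜ w))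
    (h₂ : ∀ (c x : C) w, f (x ⊗ₜ (i₂ e c • w)) = i₂ e c • f (x ⊗ₜ w)) : (PF e).obj W →ₗ[B] N :=
  boxLift e (V := Mod.self K C) (U := (Res (i₂ e)).obj W) f h₁ h₂

theorem pLift_pE {W : Mod K B} {N : Type u} [AddCommGroup N] [Module K N] [Module B N]
    (f : C ⊗[K] W →ₗ[K] N) (h₁ : ∀ (c x : C) w, f ((c * x) ⊗ₜ w) = i₁ e c • f (x ⊗ₜ w))
    (h₂ : ∀ (c x : C) w, f (x ⊗ₜ (i₂ e c • w)) = i₂ e c • f (x ⊗ₜ w)) (z : C ⊗[K] W) :
    pLift e f h₁ h₂ (pE e W z) = f z := rfl

attribute [local irreducible] PF pE pLift Om omι frπ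

def π₀ (W : Mod K B) : C ⊗[K] W →ₗ[K] W := TensorProduct.lift (act K B W ∘ₗ (i₁ e).toLinearMap)

@[simp] theorem π₀_tmul (W : Mod K B) (c : C) (w : W) : π₀ e W (c ⊗ₜ w) = i₁ e c • w := rfl

def pπ (W : Mod K B) : (PF e).obj W →ₗ[B] W :=
  pLift e (π₀ e W) (fun c x w => by simp [mul_smul]) fun c x w => by simp [i_comm]

theorem pπ_pE (W : Mod K B) (z : C ⊗[K] W) : pπ e W (pE e W z) = π₀ e W z := pLift_pE ..

theorem pπ_nat {W W' : Mod K B} (f : W →ₗ[B] W') (x : (PF e).obj W) :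
    pπ e W' ((PF e).map f x) = f (pπ e W x) :=
  pE_induction e (p := fun x => pπ e W' ((PF e).map f x) = f (pπ e W x)) x (by simp)
    (fun c w => by simp [PF_map, pπ_pE]) fun a b ha hb => by simp only [map_add, ha, hb]

def pNT : NT (PF e) (LF.id K B) := ⟨pπ e, pπ_nat e⟩

def OE : LF K B B := (pNT e).ker

def oι (W : Mod K B) : (OE e).obj W →ₗ[B] (PF e).obj W := (pNT e).ι W

theorem oι_inj (W : Mod K B) : Function.Injective (oι e W) := (pNT e).ι_inj W

theorem pπ_oι (W : Mod K B) (x : (OE e).obj W) : pπ e W (oι e W x) = 0 := (pNT e).app_ι W x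

theorem oι_map {W W' : Mod K B} (f : W →ₗ[B] W') (x : (OE e).obj W) :
    oι e W' ((OE e).map f x) = (PF e).map f (oι e W x) := rfl

def oCod {W : Mod K B} {N : Type u} [AddCommGroup N] [Module B N] (k : N →ₗ[B] (PF e).obj W)
    (hk : ∀ w, pπ e W (k w) = 0) : N →ₗ[B] (OE e).obj W := (pNT e).cod k hk

theorem oι_oCod {W : Mod K B} {N : Type u} [AddCommGroup N] [Module B N]
    (k : N →ₗ[B] (PF e).obj W) (hk : ∀ w, pπ e W (k w) = 0) (w : N) :
    oι e W (oCod e k hk w) = k w := rfl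

attribute [local irreducible] OE oι oCod pπ

def cmpF (W : Mod K B) : B ⊗[K] W →ₗ[B] (PF e).obj W :=
  frLift ((pE e W).toLinearMap ∘ₗ TensorProduct.mk K C W 1)

theorem cmpF_tmul (W : Mod K B) (b : B) (w : W) :
    cmpF e W (b ⊗ₜ w) = b • pE e W (1 ⊗ₜ w) := rfl

theorem cmpF_i₁ (W : Mod K B) (c : C) (w : W) : cmpF e W (i₁ e c ⊗ₜ w) = pE e W (c ⊗ₜ w) := by
  rw [cmpF_tmul, i₁_pE]; simp

theorem cmpF_i₂ (W : Mod K B) (c : C) (w : W) :
    cmpF e W (i₂ e c ⊗ₜ w) = pE e W (1 ⊗ₜ (i₂ e c • w)) := by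
  rw [cmpF_tmul, i₂_pE]; simp

theorem pπ_cmpF (W : Mod K B) (x : B ⊗[K] W) : pπ e W (cmpF e W x) = frπ W x := by
  induction x using TensorProduct.induction_on with
  | zero => simp
  | tmul b w => simp [cmpF_tmul, pπ_pE]
  | add a b ha hb => simp only [map_add, ha, hb]

theorem cmpF_nat {W W' : Mod K B} (f : W →ₗ[B] W') (x : B ⊗[K] W) :
    cmpF e W' ((Fr K B).map f x) = (PF e).map f (cmpF e W x) := by
  induction x using TensorProduct.induction_on with
  | zero => simp only [map_zero]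
  | tmul b w => rw [Fr_map_tmul, cmpF_tmul, cmpF_tmul, map_smul, PF_map]; rfl
  | add a b ha hb => simp only [map_add, ha, hb]

/-- One step of the comparison map. -/
def cst {U W : Mod K B} (f : U →ₗ[B] W) : (Om K B).obj U →ₗ[B] (OE e).obj W :=
  oCod e (cmpF e W ∘ₗ (Fr K B).map f ∘ₗ omι U) fun x => by
    rw [LinearMap.comp_apply, pπ_cmpF, LinearMap.comp_apply, frπ_nat, (om_ses U).comp, map_zero]

theorem oι_cst {U W : Mod K B} (f : U →ₗ[B] W) (x : (Om K B).obj U) :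
    oι e W (cst e f x) = cmpF e W ((Fr K B).map f (omι U x)) := oι_oCod ..

theorem cst_nat {U W U' W' : Mod K B} {f : U →ₗ[B] W} {f' : U' →ₗ[B] W'} {a : U →ₗ[B] U'}
    {b : W →ₗ[B] W'} (h : ∀ x, f' (a x) = b (f x)) (x : (Om K B).obj U) :
    cst e f' ((Om K B).map a x) = (OE e).map b (cst e f x) :=
  oι_inj e _ (by
    rw [oι_cst, oι_map, oι_cst, ← cmpF_nat, omι_map, LF.map_map, LF.map_map,
      (Fr K B).map_congr (f := f' ∘ₗ a) (g := b ∘ₗ f) h])

def o₀ (W : Mod K B) : (OE e).obj W →ₗ[K] C ⊗[K] W :=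
  (pE e W).symm.toLinearMap ∘ₗ (oι e W).restrictScalars K

theorem pE_o₀ (W : Mod K B) (x : (OE e).obj W) : pE e W (o₀ e W x) = oι e W x :=
  (pE e W).apply_symm_apply _

theorem o₀_eq {W : Mod K B} {x : (OE e).obj W} {z : C ⊗[K] W} (h : oι e W x = pE e W z) :
    o₀ e W x = z := (pE e W).injective (by rw [pE_o₀, h])

theorem o₀_i₁ (W : Mod K B) (c : C) (x : (OE e).obj W) :
    o₀ e W (i₁ e c • x) = (LinearMap.mulLeft K c).rTensor W (o₀ e W x) :=
  o₀_eq e (by rw [map_smul, ← i₁_pE, pE_o₀])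

theorem o₀_i₂ (W : Mod K B) (c : C) (x : (OE e).obj W) :
    o₀ e W (i₂ e c • x) = (act K B W (i₂ e c)).lTensor C (o₀ e W x) :=
  o₀_eq e (by rw [map_smul, ← i₂_pE, pE_o₀])

theorem o₀_map {W W' : Mod K B} (f : W →ₗ[B] W') (x : (OE e).obj W) :
    o₀ e W' ((OE e).map f x) = (f.restrictScalars K).lTensor C (o₀ e W x) :=
  o₀_eq e (by rw [oι_map, ← PF_map, pE_o₀])

theorem π₀_o₀ (W : Mod K B) (x : (OE e).obj W) : π₀ e W (o₀ e W x) = 0 := by
  rw [← pπ_pE, pE_o₀, pπ_oι]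

def flat (W : Mod K B) : (OE e).obj ((OE e).obj W) →ₗ[K] C ⊗[K] (C ⊗[K] W) :=
  (o₀ e W).lTensor C ∘ₗ o₀ e _

variable (C) in
def μ₁ (W : Type u) [AddCommGroup W] [Module K W] : C ⊗[K] (C ⊗[K] W) →ₗ[K] C ⊗[K] W :=
  TensorProduct.lift ((LinearMap.rTensorHom W) ∘ₗ LinearMap.mul K C)

@[simp] theorem μ₁_tmul {W : Type u} [AddCommGroup W] [Module K W] (c : C) (z : C ⊗[K] W) :
    μ₁ C W (c ⊗ₜ z) = (LinearMap.mulLeft K c).rTensor W z := rfl

theorem lTensor_lTensor {A A' A'' D : Type u} [AddCommGroup A] [Module K A] [AddCommGroup A']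
    [Module K A'] [AddCommGroup A''] [Module K A''] [AddCommGroup D] [Module K D]
    (f : A →ₗ[K] A') (g : A' →ₗ[K] A'') (z : D ⊗[K] A) :
    g.lTensor D (f.lTensor D z) = (g ∘ₗ f).lTensor D z := by
  rw [LinearMap.lTensor_comp]; rfl

theorem μ₁_flat (W : Mod K B) (x : (OE e).obj ((OE e).obj W)) : μ₁ C W (flat e W x) = 0 := by
  have : ∀ z, μ₁ C W ((o₀ e W).lTensor C z) = o₀ e W (π₀ e _ z) := fun z => by
    induction z using TensorProduct.induction_on with
    | zero => simp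
    | tmul c w => simp [o₀_i₁]
    | add a b ha hb => simp only [map_add, ha, hb]
  rw [flat, LinearMap.comp_apply, this, π₀_o₀, map_zero]

theorem π₀_flat (W : Mod K B) (x : (OE e).obj ((OE e).obj W)) :
    (π₀ e W).lTensor C (flat e W x) = 0 := by
  rw [flat, LinearMap.comp_apply, lTensor_lTensor,
    show π₀ e W ∘ₗ o₀ e W = 0 from LinearMap.ext (π₀_o₀ e W)]
  simp

theorem flat_i₁ (W : Mod K B) (c : C) (x : (OE e).obj ((OE e).obj W)) :
    flat e W (i₁ e c • x) = (LinearMap.mulLeft K c).rTensor _ (flat e W x) := by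
  rw [flat, LinearMap.comp_apply, LinearMap.comp_apply, o₀_i₁, ← LinearMap.comp_apply,
    LinearMap.lTensor_comp_rTensor, ← LinearMap.rTensor_comp_lTensor, LinearMap.comp_apply]

theorem flat_i₂ (W : Mod K B) (c : C) (x : (OE e).obj ((OE e).obj W)) :
    flat e W (i₂ e c • x) = ((act K B W (i₂ e c)).lTensor C).lTensor C (flat e W x) := by
  rw [flat, LinearMap.comp_apply, LinearMap.comp_apply, o₀_i₂, lTensor_lTensor, lTensor_lTensor]
  exact congrArg (fun f => LinearMap.lTensor C f _) (LinearMap.ext (o₀_i₂ e W c))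

theorem flat_map {W W' : Mod K B} (f : W →ₗ[B] W') (x : (OE e).obj ((OE e).obj W)) :
    flat e W' ((OE e).map ((OE e).map f) x) =
      ((f.restrictScalars K).lTensor C).lTensor C (flat e W x) := by
  rw [flat, flat, LinearMap.comp_apply, LinearMap.comp_apply, o₀_map, lTensor_lTensor,
    lTensor_lTensor]
  exact congrArg (fun f => LinearMap.lTensor C f _) (LinearMap.ext (o₀_map e f))

theorem tensor3_induction {W : Type u} [AddCommGroup W] [Module K W]
    {p : C ⊗[K] (C ⊗[K] W) → Prop} (x : C ⊗[K] (C ⊗[K] W)) (h0 : p 0)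
    (h1 : ∀ c c' w, p (c ⊗ₜ (c' ⊗ₜ w))) (h2 : ∀ a b, p a → p b → p (a + b)) : p x := by
  induction x using TensorProduct.induction_on with
  | zero => exact h0
  | add a b ha hb => exact h2 a b ha hb
  | tmul c z =>
    induction z using TensorProduct.induction_on with
    | zero => rwa [TensorProduct.tmul_zero]
    | tmul c' w => exact h1 c c' w
    | add a b ha hb => rw [TensorProduct.tmul_add]; exact h2 _ _ ha hb

def act2 (W : Mod K B) : C ⊗[K] C →ₗ[K] W →ₗ[K] C ⊗[K] W :=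
  TensorProduct.curry ((π₀ e W).lTensor C ∘ₗ (TensorProduct.assoc K C C W).toLinearMap)

@[simp] theorem act2_tmul (W : Mod K B) (x y : C) (w : W) :
    act2 e W (x ⊗ₜ y) w = x ⊗ₜ (i₁ e y • w) := rfl

theorem act2_smul (W : Mod K B) (c : C) (z : C ⊗[K] C) (w : W) :
    act2 e W (c • z) w = (LinearMap.mulLeft K c).rTensor W (act2 e W z w) := by
  induction z using TensorProduct.induction_on with
  | zero => simp
  | tmul x y => simp [TensorProduct.smul_tmul']
  | add a b ha hb => simp only [smul_add, map_add, LinearMap.add_apply, ha, hb]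

theorem act2_right (W : Mod K B) (c : C) (z : C ⊗[K] C) (w : W) :
    act2 e W ((LinearMap.mulRight K c).lTensor C z) w = act2 e W z (i₁ e c • w) := by
  induction z using TensorProduct.induction_on with
  | zero => simp
  | tmul x y => simp [mul_smul]
  | add a b ha hb => simp only [map_add, LinearMap.add_apply, ha, hb]

theorem π₀_act2 (W : Mod K B) (z : C ⊗[K] C) (w : W) :
    π₀ e W (act2 e W z w) = i₁ e (LinearMap.mul' K C z) • w := by
  induction z using TensorProduct.induction_on with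
  | zero => simp
  | tmul x y => simp [mul_smul]
  | add a b ha hb => simp only [map_add, LinearMap.add_apply, ha, hb, add_smul]

theorem act2_nat {W W' : Mod K B} (f : W →ₗ[K] W') (hf : ∀ c w, f (i₁ e c • w) = i₁ e c • f w)
    (z : C ⊗[K] C) (w : W) : act2 e W' z (f w) = f.lTensor C (act2 e W z w) := by
  induction z using TensorProduct.induction_on with
  | zero => simp
  | tmul x y => simp [hf]
  | add a b ha hb => simp only [map_add, LinearMap.add_apply, ha, hb]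

namespace CD

variable (γ : CD K C)

def ηact (W : Mod K B) : C ⊗[K] (C ⊗[K] W) →ₗ[K] C ⊗[K] W :=
  TensorProduct.lift (act2 e W ∘ₗ TensorProduct.lift γ.η) ∘ₗ
    (TensorProduct.assoc K C C W).symm.toLinearMap

@[simp] theorem ηact_tmul (W : Mod K B) (x y : C) (w : W) :
    γ.ηact e W (x ⊗ₜ (y ⊗ₜ w)) = act2 e W (γ.η x y) w := rfl

def κt (W : Mod K B) : C ⊗[K] W →ₗ[K] W := π₀ e W ∘ₗ γ.κ.rTensor W

@[simp] theorem κt_tmul (W : Mod K B) (x : C) (w : W) :
    γ.κt e W (x ⊗ₜ w) = i₁ e (γ.κ x) • w := rfl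

theorem ηact_cocycle (W : Mod K B) (c : C) (x : C ⊗[K] (C ⊗[K] W)) :
    (LinearMap.mulLeft K c).rTensor W (γ.ηact e W x) + γ.ηact e W (c ⊗ₜ μ₁ C W x) =
      γ.ηact e W ((LinearMap.mulLeft K c).rTensor _ x) +
        γ.ηact e W (c ⊗ₜ (π₀ e W).lTensor C x) := by
  induction x using tensor3_induction with
  | h0 => simp
  | h1 x y w =>
    have := congrArg (fun z => act2 e W z w) (γ.cocycle c x y)
    simpa [act2_smul, act2_right] using this
  | h2 a b ha hb =>
    simp only [map_add, TensorProduct.tmul_add]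
    rw [add_add_add_comm, ha, hb, add_add_add_comm]

theorem π₀_ηact (W : Mod K B) (x : C ⊗[K] (C ⊗[K] W)) :
    π₀ e W (γ.ηact e W x) + γ.κt e W (μ₁ C W x) =
      γ.κt e W ((π₀ e W).lTensor C x) + π₀ e W ((γ.κt e W).lTensor C x) := by
  induction x using tensor3_induction with
  | h0 => simp
  | h1 x y w =>
    have := congrArg (fun z => i₁ e z • w) (γ.mulη x y)
    simpa [π₀_act2, add_smul, mul_smul] using this
  | h2 a b ha hb =>
    simp only [map_add]
    rw [add_add_add_comm, ha, hb, add_add_add_comm]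

theorem ηact_nat {W W' : Mod K B} (f : W →ₗ[K] W') (hf : ∀ c w, f (i₁ e c • w) = i₁ e c • f w)
    (x : C ⊗[K] (C ⊗[K] W)) :
    γ.ηact e W' ((f.lTensor C).lTensor C x) = f.lTensor C (γ.ηact e W x) := by
  induction x using tensor3_induction with
  | h0 => simp
  | h1 x y w => simp [act2_nat e f hf]
  | h2 a b ha hb => simp only [map_add, ha, hb]

theorem κt_nat {W W' : Mod K B} (f : W →ₗ[K] W') (hf : ∀ c w, f (i₁ e c • w) = i₁ e c • f w)
    (x : C ⊗[K] (C ⊗[K] W)) : (γ.κt e W').lTensor C ((f.lTensor C).lTensor C x) =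
      f.lTensor C ((γ.κt e W).lTensor C x) := by
  induction x using tensor3_induction with
  | h0 => simp
  | h1 x y w => simp [hf]
  | h2 a b ha hb => simp only [map_add, ha, hb]

def ψ (W : Mod K B) : (OE e).obj ((OE e).obj W) →ₗ[B] (PF e).obj W :=
  mkB e ((pE e W).toLinearMap ∘ₗ γ.ηact e W ∘ₗ flat e W)
    (fun c x => by
      have := γ.ηact_cocycle e W c (flat e W x)
      rw [μ₁_flat, π₀_flat, add_left_inj] at this
      simp [flat_i₁, i₁_pE, this])
    fun c x => by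
      simp [flat_i₂, i₂_pE, γ.ηact_nat e (act K B W (i₂ e c)) fun c' w => (i_comm e c' c w).symm]

theorem ψ_apply (W : Mod K B) (x : (OE e).obj ((OE e).obj W)) :
    γ.ψ e W x = pE e W (γ.ηact e W (flat e W x)) := rfl

theorem ψ_nat {W W' : Mod K B} (f : W →ₗ[B] W') (x : (OE e).obj ((OE e).obj W)) :
    γ.ψ e W' ((OE e).map ((OE e).map f) x) = (PF e).map f (γ.ψ e W x) := by
  rw [ψ_apply, ψ_apply, flat_map, PF_map, γ.ηact_nat e _ fun c w => f.map_smul _ _]

def kh (W : Mod K B) : (OE e).obj ((OE e).obj W) →ₗ[B] (PF e).obj W :=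
  mkB e ((pE e W).toLinearMap ∘ₗ (γ.κt e W).lTensor C ∘ₗ flat e W)
    (fun c x => by
      simp only [LinearMap.comp_apply, LinearEquiv.coe_coe, flat_i₁, i₁_pE]
      rw [← LinearMap.comp_apply, LinearMap.lTensor_comp_rTensor, ← LinearMap.rTensor_comp_lTensor,
        LinearMap.comp_apply])
    fun c x => by
      simp [flat_i₂, i₂_pE, γ.κt_nat e (act K B W (i₂ e c)) fun c' w => (i_comm e c' c w).symm]

theorem kh_apply (W : Mod K B) (x : (OE e).obj ((OE e).obj W)) :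
    γ.kh e W x = pE e W ((γ.κt e W).lTensor C (flat e W x)) := rfl

theorem kh_nat {W W' : Mod K B} (f : W →ₗ[B] W') (x : (OE e).obj ((OE e).obj W)) :
    γ.kh e W' ((OE e).map ((OE e).map f) x) = (PF e).map f (γ.kh e W x) := by
  rw [kh_apply, kh_apply, flat_map, PF_map, γ.κt_nat e _ fun c w => f.map_smul _ _]

theorem pπ_ψ (W : Mod K B) (x : (OE e).obj ((OE e).obj W)) :
    pπ e W (γ.ψ e W x) = pπ e W (γ.kh e W x) := by
  have := γ.π₀_ηact e W (flat e W x)
  rw [μ₁_flat, π₀_flat, map_zero, add_zero, zero_add] at this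
  rw [ψ_apply, kh_apply, pπ_pE, pπ_pE, this]

end CD

def th₀ (U : Mod K B) : C ⊗[K] (PF (sw e)).obj U →ₗ[K] B ⊗[K] U :=
  e.toLinearMap.rTensor U ∘ₗ (TensorProduct.assoc K C C U).symm.toLinearMap ∘ₗ
    (pE (sw e) U).symm.toLinearMap.lTensor C

theorem th₀_tmul (U : Mod K B) (c c' : C) (u : U) :
    th₀ e U (c ⊗ₜ pE (sw e) U (c' ⊗ₜ u)) = e (c ⊗ₜ c') ⊗ₜ u := by
  simp [th₀]

def th (U : Mod K B) : (PF e).obj ((PF (sw e)).obj U) →ₗ[B] B ⊗[K] U :=
  pLift e (th₀ e U)
    (fun c x w => pE_induction (sw e)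
      (p := fun w => th₀ e U ((c * x) ⊗ₜ w) = i₁ e c • th₀ e U (x ⊗ₜ w)) w (by simp)
      (fun y u => by simp [th₀_tmul, TensorProduct.smul_tmul', i₁_apply, ← map_mul])
      fun a b ha hb => by simp only [TensorProduct.tmul_add, map_add, smul_add, ha, hb])
    fun c x w => pE_induction (sw e)
      (p := fun w => th₀ e U (x ⊗ₜ (i₂ e c • w)) = i₂ e c • th₀ e U (x ⊗ₜ w)) w (by simp)
      (fun y u => by
        rw [← i₁_sw, i₁_pE, i₁_sw]
        simp [th₀_tmul, TensorProduct.smul_tmul', i₂_apply, ← map_mul])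
      fun a b ha hb => by simp only [TensorProduct.tmul_add, map_add, smul_add, ha, hb]

theorem th_tmul (U : Mod K B) (c c' : C) (u : U) :
    th e U (pE e _ (c ⊗ₜ pE (sw e) U (c' ⊗ₜ u))) = e (c ⊗ₜ c') ⊗ₜ u := by
  rw [th, pLift_pE, th₀_tmul]

theorem pp_induction {U : Mod K B} {p : (PF e).obj ((PF (sw e)).obj U) → Prop}
    (x : (PF e).obj ((PF (sw e)).obj U)) (h0 : p 0)
    (h1 : ∀ c c' u, p (pE e _ (c ⊗ₜ pE (sw e) U (c' ⊗ₜ u))))
    (h2 : ∀ a b, p a → p b → p (a + b)) : p x :=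
  pE_induction e x h0 (fun c w => pE_induction (sw e) (p := fun w => p (pE e _ (c ⊗ₜ w))) w
    (by rwa [TensorProduct.tmul_zero, map_zero]) (h1 c) fun a b ha hb => by
      rw [TensorProduct.tmul_add, map_add]; exact h2 _ _ ha hb) h2

theorem frπ_th (U : Mod K B) (x : (PF e).obj ((PF (sw e)).obj U)) :
    frπ U (th e U x) = pπ (sw e) U (pπ e _ x) := by
  induction x using pp_induction with
  | h0 => simp only [map_zero]
  | h1 c c' u =>
    rw [th_tmul, frπ_tmul, pπ_pE, π₀_tmul, map_smul, pπ_pE, π₀_tmul, i₁_sw, ← mul_smul, i₁_mul_i₂]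
  | h2 a b ha hb => simp only [map_add, ha, hb]

theorem th_nat {U U' : Mod K B} (f : U →ₗ[B] U') (x : (PF e).obj ((PF (sw e)).obj U)) :
    th e U' ((PF e).map ((PF (sw e)).map f) x) = (Fr K B).map f (th e U x) := by
  induction x using pp_induction with
  | h0 => simp only [map_zero]
  | h1 c c' u =>
    rw [th_tmul, PF_map, LinearMap.lTensor_tmul, LinearMap.restrictScalars_apply, PF_map,
      LinearMap.lTensor_tmul, th_tmul]
    rfl
  | h2 a b ha hb => simp only [map_add, ha, hb]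

def cmp4 (U : Mod K B) : (Om4 K B).obj U →ₗ[B]
    (OE e).obj ((OE e).obj ((OE (sw e)).obj ((OE (sw e)).obj U))) :=
  cst e (cst e (cst (sw e) (cst (sw e) LinearMap.id)))

theorem cmp4_nat {U U' : Mod K B} (f : U →ₗ[B] U') (x : (Om4 K B).obj U) :
    cmp4 e U' ((Om4 K B).map f x) =
      (OE e).map ((OE e).map ((OE (sw e)).map ((OE (sw e)).map f))) (cmp4 e U x) :=
  cst_nat e (cst_nat e (cst_nat (sw e) (cst_nat (sw e) (f := LinearMap.id) (f' := LinearMap.id)
    (a := f) (b := f) fun _ => rfl))) x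

namespace CD

variable (γ : CD K C)

def ξF (U : Mod K B) : (Om4 K B).obj U →ₗ[B] Mod.fr K B U :=
  th e U ∘ₗ (PF e).map (γ.ψ (sw e) U) ∘ₗ (γ.ψ e _ - γ.kh e _) ∘ₗ cmp4 e U

theorem ξF_apply (U : Mod K B) (x : (Om4 K B).obj U) : γ.ξF e U x =
    th e U ((PF e).map (γ.ψ (sw e) U) (γ.ψ e _ (cmp4 e U x) - γ.kh e _ (cmp4 e U x))) := rfl

def ξ : NT (Om4 K B) (Om K B) where
  app U := omCod (γ.ξF e U) fun x => by
    rw [ξF_apply, frπ_th, pπ_nat, map_sub, γ.pπ_ψ e, sub_self, map_zero, map_zero]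
  nat {U V} f x := (om_ses V).inj (by
    rw [omι_map, omι_omCod, omι_omCod, ξF_apply, ξF_apply, cmp4_nat, ψ_nat, kh_nat, ← map_sub,
      ← th_nat, LF.map_map, LF.map_map, (PF e).map_congr
        (f := γ.ψ (sw e) V ∘ₗ (OE (sw e)).map ((OE (sw e)).map f))
        (g := (PF (sw e)).map f ∘ₗ γ.ψ (sw e) U) (γ.ψ_nat (sw e) f)])

theorem omι_ξ (U : Mod K B) (x : (Om4 K B).obj U) : omι U ((γ.ξ e).app U x) = γ.ξF e U x :=
  omι_omCod _ _ _

end CD

end

end Crest.Agent.R186
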